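import Mathlib

/-! Definitions for the strong isotropic constant conjecture (problem P254). -/

open MeasureTheory

namespace Vale.Agent.Lib.P254

variable {n : ℕ}

/-- Lebesgue volume of a subset of `Fin n → ℝ`, as a real number. -/
noncomputable def vol (K : Set (Fin n → ℝ)) : ℝ := (volume K).toReal

/-- The `i`-th coordinate of the centroid of `K`. -/
noncomputable def centroid (K : Set (Fin n → ℝ)) (i : Fin n) : ℝ :=
  (vol K)⁻¹ * ∫ x in K, x i

/-- The covariance matrix of the uniform distribution on `K`. -/
noncomputable def covMat (K : Set (Fin n → ℝ)) : Matrix (Fin n) (Fin n) ℝ :=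
  Matrix.of fun i j => (vol K)⁻¹ * ∫ x in K, (x i - centroid K i) * (x j - centroid K j)

/-- The isotropic constant `L_K = (det Σ_K / |K|^2)^(1/(2n))`. -/
noncomputable def isoConst (K : Set (Fin n → ℝ)) : ℝ :=
  ((covMat K).det / (vol K) ^ 2) ^ (1 / (2 * (n : ℝ)))

/-- `S` is an `n`-simplex: the convex hull of `n + 1` affinely independent points. -/
def IsSimplex (S : Set (Fin n → ℝ)) : Prop :=
  ∃ v : Fin (n + 1) → (Fin n → ℝ), AffineIndependent ℝ v ∧ S = convexHull ℝ (Set.range v)

end Vale.Agent.Lib.P254
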