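import Mathlib
import Vale.Agent.Lib.P254.Defs

/-! Basic facts on the standard simplex and slicing formulas for integrals over it. -/

open MeasureTheory Set

namespace Vale.Agent.Lib.P254

/-- The standard corner simplex in `Fin n → ℝ`. -/
def stdS (n : ℕ) : Set (Fin n → ℝ) := {x | (∀ i, 0 ≤ x i) ∧ ∑ i, x i ≤ 1}

lemma stdS_le_one {n : ℕ} {x : Fin n → ℝ} (hx : x ∈ stdS n) (i : Fin n) : x i ≤ 1 := by
  have h1 : x i ≤ ∑ j, x j :=
    Finset.single_le_sum (f := x) (fun j _ => hx.1 j) (Finset.mem_univ i)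
  exact h1.trans hx.2

lemma stdS_isClosed (n : ℕ) : IsClosed (stdS n) := by
  have h1 : IsClosed {x : Fin n → ℝ | ∀ i, 0 ≤ x i} := by
    simp only [ofPred_forall]
    exact isClosed_iInter fun i => isClosed_le continuous_const (continuous_apply i)
  have h2 : IsClosed {x : Fin n → ℝ | ∑ i, x i ≤ 1} :=
    isClosed_le (continuous_finsetSum _ fun i _ => continuous_apply i) continuous_const
  exact h1.inter h2

lemma stdS_subset_Icc (n : ℕ) : stdS n ⊆ Set.pi univ (fun _ => Icc (0:ℝ) 1) := by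
  intro x hx i _
  exact ⟨hx.1 i, stdS_le_one hx i⟩

lemma stdS_isCompact (n : ℕ) : IsCompact (stdS n) :=
  (isCompact_univ_pi fun _ => isCompact_Icc).of_isClosed_subset (stdS_isClosed n) (stdS_subset_Icc n)

lemma stdS_measurable (n : ℕ) : MeasurableSet (stdS n) := (stdS_isClosed n).measurableSet

lemma stdS_convex (n : ℕ) : Convex ℝ (stdS n) := by
  intro x hx y hy a b ha hb hab
  refine ⟨fun i => ?_, ?_⟩
  · simp only [Pi.add_apply, Pi.smul_apply, smul_eq_mul]
    have := hx.1 i; have := hy.1 i; positivity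
  · simp only [Pi.add_apply, Pi.smul_apply, smul_eq_mul]
    rw [Finset.sum_add_distrib, ← Finset.mul_sum, ← Finset.mul_sum]
    have h1 := hx.2; have h2 := hy.2
    nlinarith

/-- Fubini in the first coordinate. -/
theorem integral_cons (m : ℕ) (f : (Fin (m+1) → ℝ) → ℝ) (hf : Integrable f) :
    ∫ x, f x = ∫ t : ℝ, ∫ y : Fin m → ℝ, f (Fin.cons t y) := by
  have h := (volume_preserving_piFinSuccAbove (fun _ : Fin (m+1) => ℝ) 0)
  have h2 := h.symm
  rw [← h2.integral_comp (MeasurableEquiv.measurableEmbedding _)]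
  have hi : Integrable (fun p : ℝ × (Fin m → ℝ) =>
      f ((MeasurableEquiv.piFinSuccAbove (fun _ : Fin (m+1) => ℝ) 0).symm p)) volume := by
    exact h2.integrable_comp_of_integrable hf
  have := integral_prod _ hi
  simp only [Measure.volume_eq_prod] at *
  rw [this]
  congr 1
  funext t
  congr 1
  funext y
  congr 1
  funext i
  refine Fin.cases ?_ (fun j => ?_) i
  · simp [MeasurableEquiv.piFinSuccAbove, Fin.insertNthEquiv]
  · simp [MeasurableEquiv.piFinSuccAbove, Fin.insertNthEquiv]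

/-- Integral over a translated and scaled copy of the standard simplex. -/
theorem integral_indicator_scaled (m : ℕ) (g : (Fin m → ℝ) → ℝ) (a : Fin m → ℝ) (s : ℝ)
    (hs : 0 < s) :
    ∫ y, ({y | s⁻¹ • (y - a) ∈ stdS m}).indicator g y = s ^ m * ∫ z in stdS m, g (a + s • z) := by
  set G : (Fin m → ℝ) → ℝ := (stdS m).indicator (fun z => g (a + s • z)) with hG
  have h1 : ∀ y, ({y | s⁻¹ • (y - a) ∈ stdS m}).indicator g y = G (s⁻¹ • (y - a)) := by
    intro y
    by_cases hy : s⁻¹ • (y - a) ∈ stdS m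
    · have h2 : a + s • s⁻¹ • (y - a) = y := by
        rw [smul_smul, mul_inv_cancel₀ hs.ne', one_smul]; abel
      simp [hG, hy, Set.indicator_of_mem, h2]
    · simp [hG, hy, Set.indicator_of_notMem]
  simp_rw [h1]
  rw [integral_sub_right_eq_self (fun y => G (s⁻¹ • y)) a]
  rw [Measure.integral_comp_smul volume G s⁻¹]
  have h3 : Module.finrank ℝ (Fin m → ℝ) = m := by simp
  rw [h3, hG, integral_indicator (stdS_measurable m)]
  simp only [smul_eq_mul]
  congr 1
  rw [inv_pow, inv_inv, abs_of_pos (pow_pos hs m)]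

/-- General slicing formula: a measurable set whose slices by the first coordinate are
translated scaled copies of the standard simplex. -/
theorem integral_slice (m : ℕ) (A : Set (Fin (m+1) → ℝ)) (hA : MeasurableSet A)
    (f : (Fin (m+1) → ℝ) → ℝ) (hf : IntegrableOn f A)
    (I : Set ℝ) (hI : MeasurableSet I) (a : ℝ → Fin m → ℝ) (s : ℝ → ℝ)
    (hs : ∀ t ∈ I, 0 < s t)
    (hmem : ∀ t ∈ I, ∀ y, ((Fin.cons t y : Fin (m+1) → ℝ) ∈ A ↔ (s t)⁻¹ • (y - a t) ∈ stdS m))
    (hout : ∀ᵐ t, t ∉ I → ∀ y, (Fin.cons t y : Fin (m+1) → ℝ) ∉ A) :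
    ∫ x in A, f x = ∫ t in I, (s t) ^ m * ∫ z in stdS m, f (Fin.cons t (a t + s t • z)) := by
  rw [← integral_indicator hA]
  have hi : Integrable (A.indicator f) := hf.integrable_indicator hA
  rw [integral_cons m _ hi]
  rw [← integral_indicator hI]
  apply integral_congr_ae
  filter_upwards [hout] with t ht
  by_cases htI : t ∈ I
  · rw [indicator_of_mem htI]
    have h1 : ∀ y : Fin m → ℝ, A.indicator f (Fin.cons t y) =
        ({y | (s t)⁻¹ • (y - a t) ∈ stdS m}).indicator (fun y => f (Fin.cons t y)) y := by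
      intro y
      by_cases hy : (s t)⁻¹ • (y - a t) ∈ stdS m
      · rw [indicator_of_mem ((hmem t htI y).2 hy), indicator_of_mem (by exact hy)]
      · rw [indicator_of_notMem (fun h => hy ((hmem t htI y).1 h)), indicator_of_notMem (by exact hy)]
    simp_rw [h1]
    exact integral_indicator_scaled m _ (a t) (s t) (hs t htI)
  · rw [indicator_of_notMem htI]
    have h1 : ∀ y : Fin m → ℝ, A.indicator f (Fin.cons t y) = 0 := fun y =>
      indicator_of_notMem (ht htI y) _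
    simp_rw [h1]
    simp

lemma sum_cons {m : ℕ} (t : ℝ) (y : Fin m → ℝ) :
    ∑ i, (Fin.cons t y : Fin (m+1) → ℝ) i = t + ∑ i, y i := by
  rw [Fin.sum_univ_succ]; simp

lemma mem_stdS_cons {m : ℕ} (t : ℝ) (y : Fin m → ℝ) :
    (Fin.cons t y : Fin (m+1) → ℝ) ∈ stdS (m+1) ↔ 0 ≤ t ∧ (∀ i, 0 ≤ y i) ∧ t + ∑ i, y i ≤ 1 := by
  simp only [stdS, mem_ofPred_eq, sum_cons]
  constructor
  · rintro ⟨h1, h2⟩
    refine ⟨by simpa using h1 0, fun i => by simpa using h1 i.succ, h2⟩
  · rintro ⟨h1, h2, h3⟩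
    refine ⟨fun i => ?_, h3⟩
    refine Fin.cases ?_ (fun j => ?_) i
    · simpa using h1
    · simpa using h2 j

lemma inv_smul_mem_stdS {m : ℕ} (s : ℝ) (hs : 0 < s) (y : Fin m → ℝ) :
    s⁻¹ • y ∈ stdS m ↔ (∀ i, 0 ≤ y i) ∧ ∑ i, y i ≤ s := by
  have hs' : 0 < s⁻¹ := inv_pos.2 hs
  simp only [stdS, mem_ofPred_eq, Pi.smul_apply, smul_eq_mul]
  rw [← Finset.mul_sum]
  constructor
  · rintro ⟨h1, h2⟩
    refine ⟨fun i => ?_, ?_⟩
    · have := h1 i
      exact nonneg_of_mul_nonneg_right this hs'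
    · rw [inv_mul_le_iff₀ hs] at h2
      linarith
  · rintro ⟨h1, h2⟩
    refine ⟨fun i => mul_nonneg hs'.le (h1 i), ?_⟩
    rw [inv_mul_le_iff₀ hs]
    linarith

/-- Slicing the simplex by the first coordinate. -/
theorem integral_stdS_succ (m : ℕ) (f : (Fin (m+1) → ℝ) → ℝ)
    (hf : IntegrableOn f (stdS (m+1))) :
    ∫ x in stdS (m+1), f x =
      ∫ t in (0:ℝ)..1, (1 - t) ^ m * ∫ y in stdS m, f (Fin.cons t ((1 - t) • y)) := by
  rw [integral_slice m (stdS (m+1)) (stdS_measurable _) f hf (Ico 0 1) measurableSet_Ico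
    (fun _ => 0) (fun t => 1 - t) (fun t ht => by linarith [ht.2])]
  · rw [intervalIntegral.integral_of_le zero_le_one, integral_Ico_eq_integral_Ioo,
      integral_Ioc_eq_integral_Ioo]
    simp
  · intro t ht y
    have hs : 0 < 1 - t := by linarith [ht.2]
    rw [mem_stdS_cons, sub_zero, inv_smul_mem_stdS _ hs]
    constructor
    · rintro ⟨_, h2, h3⟩
      exact ⟨h2, by linarith⟩
    · rintro ⟨h1, h2⟩
      exact ⟨ht.1, h1, by linarith⟩
  · have : ∀ᵐ t : ℝ, t ≠ 1 := by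
      simp [ae_iff, measure_singleton]
    filter_upwards [this] with t ht1 ht y hy
    rw [mem_stdS_cons] at hy
    obtain ⟨h1, h2, h3⟩ := hy
    apply ht
    refine ⟨h1, ?_⟩
    have h4 : 0 ≤ ∑ i, y i := Finset.sum_nonneg fun i _ => h2 i
    exact lt_of_le_of_ne (by linarith) ht1

/-- The first cone: points of the simplex whose smallest barycentric coordinate is `x 0`. -/
def cone0 (m : ℕ) : Set (Fin (m+1) → ℝ) :=
  {x | x ∈ stdS (m+1) ∧ (∀ i, x 0 ≤ x i) ∧ x 0 ≤ 1 - ∑ i, x i}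

lemma cone0_isClosed (m : ℕ) : IsClosed (cone0 m) := by
  have h1 : IsClosed {x : Fin (m+1) → ℝ | ∀ i, x 0 ≤ x i} := by
    simp only [ofPred_forall]
    exact isClosed_iInter fun i => isClosed_le (continuous_apply 0) (continuous_apply i)
  have h2 : IsClosed {x : Fin (m+1) → ℝ | x 0 ≤ 1 - ∑ i, x i} :=
    isClosed_le (continuous_apply 0)
      (continuous_const.sub (continuous_finsetSum _ fun i _ => continuous_apply i))
  exact (stdS_isClosed _).inter (h1.inter h2)

lemma cone0_measurable (m : ℕ) : MeasurableSet (cone0 m) := (cone0_isClosed m).measurableSet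

lemma mem_cone0_cons {m : ℕ} (t : ℝ) (y : Fin m → ℝ) :
    (Fin.cons t y : Fin (m+1) → ℝ) ∈ cone0 m ↔ 0 ≤ t ∧ (∀ i, t ≤ y i) ∧ 2 * t + ∑ i, y i ≤ 1 := by
  simp only [cone0, mem_ofPred_eq, mem_stdS_cons, sum_cons, Fin.cons_zero]
  constructor
  · rintro ⟨⟨h1, _, _⟩, h4, h5⟩
    refine ⟨h1, fun i => ?_, by linarith⟩
    simpa using h4 i.succ
  · rintro ⟨h1, h2, h3⟩
    refine ⟨⟨h1, fun i => h1.trans (h2 i), by linarith⟩, fun i => ?_, by linarith⟩
    refine Fin.cases ?_ (fun j => ?_) i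
    · simp
    · simpa using h2 j

/-- The map from `τ`, `y` to the point `c + τ (ŷ - c)`, where `c` is the centre of the simplex
in dimension `m + 1` and `ŷ = (0, y)` is a point of the facet `x 0 = 0`. -/
noncomputable def coneMap (m : ℕ) (τ : ℝ) (y : Fin m → ℝ) : Fin (m+1) → ℝ :=
  Fin.cons ((1 - τ) / (m + 2)) (fun i => (1 - τ) / (m + 2) + τ * y i)

/-- Polar coordinates on the cone. -/
theorem integral_cone0 (m : ℕ) (f : (Fin (m+1) → ℝ) → ℝ) (hf : IntegrableOn f (cone0 m)) :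
    ∫ x in cone0 m, f x =
      ((m:ℝ) + 2)⁻¹ * ∫ τ in (0:ℝ)..1, τ ^ m * ∫ y in stdS m, f (coneMap m τ y) := by
  have hm : (0:ℝ) < (m:ℝ) + 2 := by positivity
  rw [integral_slice m (cone0 m) (cone0_measurable _) f hf (Ico 0 (((m:ℝ) + 2)⁻¹)) measurableSet_Ico
    (fun t => fun _ => t) (fun t => 1 - ((m:ℝ) + 2) * t)]
  · have hb : (0:ℝ) ≤ ((m:ℝ) + 2)⁻¹ := by positivity
    rw [integral_Ico_eq_integral_Ioo, ← integral_Ioc_eq_integral_Ioo,
      ← intervalIntegral.integral_of_le hb]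
    have key := intervalIntegral.integral_comp_sub_mul (a := 0) (b := ((m:ℝ) + 2)⁻¹)
      (fun τ : ℝ => τ ^ m * ∫ y in stdS m, f (coneMap m τ y)) (c := (m:ℝ) + 2) hm.ne' 1
    have e1 : (1:ℝ) - ((m:ℝ) + 2) * ((m:ℝ) + 2)⁻¹ = 0 := by
      field_simp; ring
    have e2 : (1:ℝ) - ((m:ℝ) + 2) * 0 = 1 := by ring
    rw [e1, e2] at key
    rw [← smul_eq_mul, ← key]
    apply intervalIntegral.integral_congr
    intro t _
    simp only
    congr 1
    apply setIntegral_congr_fun (stdS_measurable m)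
    intro y _
    simp only
    congr 1
    have e3 : (1 - (1 - ((m:ℝ) + 2) * t)) / ((m:ℝ) + 2) = t := by
      field_simp; ring
    funext i
    refine Fin.cases ?_ (fun j => ?_) i
    · simp [coneMap]; field_simp
    · simp [coneMap]; field_simp
  · intro t ht
    have : ((m:ℝ) + 2) * t < ((m:ℝ) + 2) * ((m:ℝ) + 2)⁻¹ := mul_lt_mul_of_pos_left ht.2 hm
    rw [mul_inv_cancel₀ hm.ne'] at this
    linarith
  · intro t ht y
    have : ((m:ℝ) + 2) * t < ((m:ℝ) + 2) * ((m:ℝ) + 2)⁻¹ := mul_lt_mul_of_pos_left ht.2 hm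
    rw [mul_inv_cancel₀ hm.ne'] at this
    have hs : 0 < 1 - ((m:ℝ) + 2) * t := by linarith
    rw [mem_cone0_cons, inv_smul_mem_stdS _ hs]
    have hsum : ∑ i, (y - (fun _ => t : Fin m → ℝ)) i = ∑ i, y i - m * t := by
      simp [Finset.sum_sub_distrib]
    rw [hsum]
    constructor
    · rintro ⟨_, h2, h3⟩
      refine ⟨fun i => ?_, by linarith⟩
      simpa using h2 i
    · rintro ⟨h1, h2⟩
      refine ⟨ht.1, fun i => ?_, by linarith⟩
      simpa using h1 i
  · have : ∀ᵐ t : ℝ, t ≠ ((m:ℝ) + 2)⁻¹ := by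
      simp [ae_iff, measure_singleton]
    filter_upwards [this] with t ht1 ht y hy
    rw [mem_cone0_cons] at hy
    obtain ⟨h1, h2, h3⟩ := hy
    apply ht
    refine ⟨h1, ?_⟩
    have h4 : (m:ℝ) * t ≤ ∑ i, y i := by
      have : ∑ _i : Fin m, t ≤ ∑ i, y i := Finset.sum_le_sum fun i _ => h2 i
      simpa using this
    have h5 : ((m:ℝ) + 2) * t ≤ 1 := by nlinarith
    have h6 : t ≤ ((m:ℝ) + 2)⁻¹ := by
      rw [← one_div, le_div_iff₀ hm]; linarith
    exact lt_of_le_of_ne h6 ht1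

end Vale.Agent.Lib.P254
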