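import Mathlib
import Vale.Agent.Lib.P254.Simplex

/-! Barycentric coordinates, the permutation action on the simplex, low moments. -/

open MeasureTheory Set

namespace Vale.Agent.Lib.P254

variable {n : ℕ}

/-- Barycentric coordinates with respect to the standard simplex. -/
def bary (x : Fin n → ℝ) : Fin (n+1) → ℝ := Fin.cons (1 - ∑ i, x i) x

@[simp] lemma bary_zero (x : Fin n → ℝ) : bary x 0 = 1 - ∑ i, x i := rfl
@[simp] lemma bary_succ (x : Fin n → ℝ) (i : Fin n) : bary x i.succ = x i := rfl

lemma sum_bary (x : Fin n → ℝ) : ∑ i, bary x i = 1 := by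
  rw [Fin.sum_univ_succ]; simp

lemma mem_stdS_iff_bary (x : Fin n → ℝ) : x ∈ stdS n ↔ ∀ i, 0 ≤ bary x i := by
  constructor
  · rintro ⟨h1, h2⟩ i
    refine Fin.cases ?_ (fun j => ?_) i
    · simpa using h2
    · simpa using h1 j
  · intro h
    refine ⟨fun i => by simpa using h i.succ, by simpa using h 0⟩

lemma bary_le_one {x : Fin n → ℝ} (hx : x ∈ stdS n) (i : Fin (n+1)) : bary x i ≤ 1 := by
  have h0 := (mem_stdS_iff_bary x).1 hx
  have h1 : bary x i ≤ ∑ j, bary x j :=
    Finset.single_le_sum (f := bary x) (fun j _ => h0 j) (Finset.mem_univ i)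
  rwa [sum_bary] at h1

/-- The action of a permutation of the barycentric coordinates on `Fin n → ℝ`. -/
def permMap (σ : Equiv.Perm (Fin (n+1))) (x : Fin n → ℝ) : Fin n → ℝ := fun i => bary x (σ i.succ)

lemma bary_permMap (σ : Equiv.Perm (Fin (n+1))) (x : Fin n → ℝ) (i : Fin (n+1)) :
    bary (permMap σ x) i = bary x (σ i) := by
  refine Fin.cases ?_ (fun j => ?_) i
  · have h1 : ∑ j, bary x j = 1 := sum_bary x
    rw [← Equiv.sum_comp σ, Fin.sum_univ_succ] at h1
    simp only [bary_zero, permMap]
    linarith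
  · rfl

lemma permMap_permMap (σ τ : Equiv.Perm (Fin (n+1))) (x : Fin n → ℝ) :
    permMap σ (permMap τ x) = permMap (τ * σ) x := by
  funext i
  simp only [permMap, Equiv.Perm.coe_mul, Function.comp]
  exact bary_permMap τ x (σ i.succ)

lemma permMap_one (x : Fin n → ℝ) : permMap 1 x = x := by
  funext i; simp [permMap]

lemma mem_stdS_permMap (σ : Equiv.Perm (Fin (n+1))) (x : Fin n → ℝ) :
    permMap σ x ∈ stdS n ↔ x ∈ stdS n := by
  rw [mem_stdS_iff_bary, mem_stdS_iff_bary]
  simp only [bary_permMap]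
  exact ⟨fun h j => by simpa using h (σ⁻¹ j), fun h i => h (σ i)⟩

/-- The linear part of `bary`. -/
def baryLin (x : Fin n → ℝ) : Fin (n+1) → ℝ := Fin.cons (- ∑ i, x i) x

lemma bary_eq_baryLin (x : Fin n → ℝ) (i : Fin (n+1)) : bary x i = baryLin x i + bary 0 i := by
  refine Fin.cases ?_ (fun j => ?_) i
  · simp [baryLin]; ring
  · simp [baryLin]

/-- The linear part of `permMap`. -/
def permLin (σ : Equiv.Perm (Fin (n+1))) : (Fin n → ℝ) →ₗ[ℝ] (Fin n → ℝ) where
  toFun x := fun i => baryLin x (σ i.succ)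
  map_add' x y := by
    funext i
    simp only [Pi.add_apply]
    refine Fin.cases ?_ (fun j => ?_) (σ i.succ)
    · simp [baryLin, Finset.sum_add_distrib]; ring
    · simp [baryLin]
  map_smul' c x := by
    funext i
    simp only [Pi.smul_apply, smul_eq_mul, RingHom.id_apply]
    refine Fin.cases ?_ (fun j => ?_) (σ i.succ)
    · simp [baryLin, ← Finset.mul_sum]
    · simp [baryLin]

lemma permMap_eq (σ : Equiv.Perm (Fin (n+1))) (x : Fin n → ℝ) :
    permMap σ x = permLin σ x + permMap σ 0 := by
  funext i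
  simp only [permMap, Pi.add_apply, permLin, LinearMap.coe_mk, AddHom.coe_mk]
  exact bary_eq_baryLin x _

lemma integral_pow01 (k : ℕ) : ∫ u in (0:ℝ)..1, u ^ k = 1 / ((k:ℝ) + 1) := by
  rw [integral_pow]; simp

/-- Beta integrals used in the sequel. -/
lemma beta0 (m : ℕ) : ∫ t in (0:ℝ)..1, (1 - t) ^ m = 1 / ((m:ℝ) + 1) := by
  have h := intervalIntegral.integral_comp_sub_left (a := 0) (b := 1)
    (fun u : ℝ => u ^ m) 1
  simp only [sub_self, sub_zero] at h
  rw [h, integral_pow01]

lemma beta_sub (a m : ℕ) : ∫ t in (0:ℝ)..1, t ^ a * (1 - t) ^ m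
    = ∫ u in (0:ℝ)..1, (1 - u) ^ a * u ^ m := by
  have h := intervalIntegral.integral_comp_sub_left (a := 0) (b := 1)
    (fun u : ℝ => (1 - u) ^ a * u ^ m) 1
  simp only [sub_self, sub_zero, sub_sub_cancel] at h
  exact h

lemma ii_pow (k : ℕ) : IntervalIntegrable (fun u : ℝ => u ^ k) volume 0 1 :=
  (continuous_pow k).intervalIntegrable _ _

lemma beta1 (m : ℕ) : ∫ t in (0:ℝ)..1, t * (1 - t) ^ m = 1 / (((m:ℝ) + 1) * ((m:ℝ) + 2)) := by
  have h := beta_sub 1 m
  simp only [pow_one] at h
  rw [h]
  have e : ∀ u : ℝ, (1 - u) * u ^ m = u ^ m - u ^ (m+1) := fun u => by ring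
  simp_rw [e]
  rw [intervalIntegral.integral_sub (ii_pow _) (ii_pow _), integral_pow01, integral_pow01]
  push_cast
  field_simp
  ring

lemma beta2 (m : ℕ) : ∫ t in (0:ℝ)..1, t ^ 2 * (1 - t) ^ m
    = 2 / (((m:ℝ) + 1) * ((m:ℝ) + 2) * ((m:ℝ) + 3)) := by
  rw [beta_sub 2 m]
  have e : ∀ u : ℝ, (1 - u) ^ 2 * u ^ m = u ^ m - 2 * u ^ (m+1) + u ^ (m+2) := fun u => by ring
  simp_rw [e]
  rw [intervalIntegral.integral_add ((ii_pow _).sub ((ii_pow _).const_mul _)) (ii_pow _),
    intervalIntegral.integral_sub (ii_pow _) ((ii_pow _).const_mul _),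
    intervalIntegral.integral_const_mul, integral_pow01, integral_pow01, integral_pow01]
  push_cast
  field_simp
  ring

lemma beta3 (m : ℕ) : ∫ t in (0:ℝ)..1, t ^ 3 * (1 - t) ^ m
    = 6 / (((m:ℝ) + 1) * ((m:ℝ) + 2) * ((m:ℝ) + 3) * ((m:ℝ) + 4)) := by
  rw [beta_sub 3 m]
  have e : ∀ u : ℝ, (1 - u) ^ 3 * u ^ m = u ^ m - 3 * u ^ (m+1) + 3 * u ^ (m+2) - u ^ (m+3) :=
    fun u => by ring
  simp_rw [e]
  rw [intervalIntegral.integral_sub
      (((ii_pow _).sub ((ii_pow _).const_mul _)).add ((ii_pow _).const_mul _)) (ii_pow _),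
    intervalIntegral.integral_add ((ii_pow _).sub ((ii_pow _).const_mul _))
      ((ii_pow _).const_mul _),
    intervalIntegral.integral_sub (ii_pow _) ((ii_pow _).const_mul _),
    intervalIntegral.integral_const_mul, intervalIntegral.integral_const_mul,
    integral_pow01, integral_pow01, integral_pow01, integral_pow01]
  push_cast
  field_simp
  ring

/-- The integral of a continuous function on the simplex is well defined. -/
lemma integrableOn_stdS {f : (Fin n → ℝ) → ℝ} (hf : Continuous f) :
    IntegrableOn f (stdS n) :=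
  hf.continuousOn.integrableOn_compact (stdS_isCompact n)

/-- Real volume of the standard simplex. -/
noncomputable def volS (n : ℕ) : ℝ := ∫ _x in stdS n, (1:ℝ)

lemma integral_const_stdS (n : ℕ) (c : ℝ) : ∫ _x in stdS n, c = volS n * c := by
  simp [volS, setIntegral_const]

lemma volS_zero : volS 0 = 1 := by
  have h : (volume : Measure (Fin 0 → ℝ)) univ = 1 := by
    rw [volume_pi, Measure.pi_of_empty]; simp
  simp [volS, stdS, Measure.real, h]

lemma volS_succ (m : ℕ) : volS (m+1) = volS m / ((m:ℝ) + 1) := by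
  have h := integral_stdS_succ m (fun _ => (1:ℝ)) (integrableOn_stdS continuous_const)
  rw [volS, h]
  have : ∀ t : ℝ, (1 - t) ^ m * ∫ _y in stdS m, (1:ℝ) = volS m * (1 - t) ^ m := by
    intro t; rw [volS]; ring
  simp_rw [this]
  rw [intervalIntegral.integral_const_mul, beta0]
  ring

lemma volS_eq (n : ℕ) : volS n = 1 / (n.factorial : ℝ) := by
  induction n with
  | zero => simp [volS_zero]
  | succ m ih =>
    rw [volS_succ, ih, Nat.factorial_succ]
    push_cast
    have : (m.factorial : ℝ) ≠ 0 := by positivity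
    field_simp

lemma volS_pos (n : ℕ) : 0 < volS n := by
  rw [volS_eq]; positivity

lemma volS_eq_real (n : ℕ) : volS n = (volume (stdS n)).toReal := by
  rw [volS]
  simp [Measure.real]

lemma volume_stdS_ne_top (n : ℕ) : volume (stdS n) ≠ ⊤ :=
  (stdS_isCompact n).measure_lt_top.ne

lemma volume_stdS_ne_zero (n : ℕ) : volume (stdS n) ≠ 0 := by
  intro h
  have := volS_pos n
  rw [volS_eq_real, h] at this
  simp at this

lemma abs_det_permLin (σ : Equiv.Perm (Fin (n+1))) : |LinearMap.det (permLin σ)| = 1 := by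
  have himg : permMap σ '' stdS n = stdS n := by
    ext x
    constructor
    · rintro ⟨y, hy, rfl⟩
      exact (mem_stdS_permMap σ y).2 hy
    · intro hx
      refine ⟨permMap σ⁻¹ x, (mem_stdS_permMap _ _).2 hx, ?_⟩
      rw [permMap_permMap]
      simp [permMap_one]
  have h2 : permMap σ '' stdS n = (fun z => z + permMap σ 0) '' (permLin σ '' stdS n) := by
    rw [image_image]
    apply image_congr
    intro x _
    exact permMap_eq σ x
  have h3 : volume (permLin σ '' stdS n) = volume (stdS n) := by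
    have : volume ((fun z => z + permMap σ 0) '' (permLin σ '' stdS n))
        = volume (permLin σ '' stdS n) := by
      simp
    rw [← this, ← h2, himg]
  rw [Measure.addHaar_image_linearMap] at h3
  have h4 : ENNReal.ofReal |LinearMap.det (permLin σ)| = 1 := by
    have h5 := volume_stdS_ne_zero n
    have h6 := volume_stdS_ne_top n
    exact (ENNReal.mul_eq_right h5 h6).1 h3
  rw [ENNReal.ofReal_eq_one] at h4
  exact h4

lemma permMap_measurePreserving (σ : Equiv.Perm (Fin (n+1))) :
    MeasurePreserving (permMap σ) volume volume := by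
  have hdet := abs_det_permLin σ
  have hne : LinearMap.det (permLin σ) ≠ 0 := by
    intro h; rw [h] at hdet; simp at hdet
  have h1 : MeasurePreserving (permLin σ) volume volume := by
    refine ⟨(permLin σ).continuous_of_finiteDimensional.measurable, ?_⟩
    rw [Real.map_linearMap_volume_pi_eq_smul_volume_pi hne, abs_inv, hdet]
    simp
  have h2 : MeasurePreserving (fun z : Fin n → ℝ => z + permMap σ 0) volume volume :=
    measurePreserving_add_right volume _
  have h3 := h2.comp h1
  convert h3 using 1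
  funext x
  exact permMap_eq σ x

/-- `permMap σ` as a homeomorphism. -/
def permHomeo (σ : Equiv.Perm (Fin (n+1))) : (Fin n → ℝ) ≃ₜ (Fin n → ℝ) where
  toFun := permMap σ
  invFun := permMap σ⁻¹
  left_inv x := by rw [permMap_permMap]; simp [permMap_one]
  right_inv x := by rw [permMap_permMap]; simp [permMap_one]
  continuous_toFun := by
    have : permMap σ = fun x => permLin σ x + permMap σ 0 := by
      funext x; exact permMap_eq σ x
    rw [this]
    exact (permLin σ).continuous_of_finiteDimensional.add continuous_const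
  continuous_invFun := by
    have : permMap σ⁻¹ = fun x => permLin σ⁻¹ x + permMap σ⁻¹ 0 := by
      funext x; exact permMap_eq σ⁻¹ x
    rw [this]
    exact (permLin σ⁻¹).continuous_of_finiteDimensional.add continuous_const

lemma permMap_continuous (σ : Equiv.Perm (Fin (n+1))) : Continuous (permMap σ) :=
  (permHomeo σ).continuous

lemma permMap_embedding (σ : Equiv.Perm (Fin (n+1))) : MeasurableEmbedding (permMap σ) :=
  (permHomeo σ).measurableEmbedding

/-- Change of variables for `permMap`. -/
lemma setIntegral_permMap (σ : Equiv.Perm (Fin (n+1))) (f : (Fin n → ℝ) → ℝ) (A : Set (Fin n → ℝ)) :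
    ∫ x in permMap σ ⁻¹' A, f (permMap σ x) = ∫ x in A, f x :=
  (permMap_measurePreserving σ).setIntegral_preimage_emb (permMap_embedding σ) f A

lemma preimage_stdS (σ : Equiv.Perm (Fin (n+1))) : permMap σ ⁻¹' stdS n = stdS n := by
  ext x; exact mem_stdS_permMap σ x

lemma integral_stdS_permMap (σ : Equiv.Perm (Fin (n+1))) (f : (Fin n → ℝ) → ℝ) :
    ∫ x in stdS n, f (permMap σ x) = ∫ x in stdS n, f x := by
  have := setIntegral_permMap σ f (stdS n)
  rwa [preimage_stdS] at this

lemma permMap_swap_invol (i j : Fin (n+1)) (x : Fin n → ℝ) :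
    permMap (Equiv.swap i j) (permMap (Equiv.swap i j) x) = x := by
  rw [permMap_permMap]; simp [permMap_one]

end Vale.Agent.Lib.P254
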