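import Mathlib
import Vale.Agent.Lib.P254.Symm

/-! One-dimensional convexity lemmas: the two-point sign argument. -/

open MeasureTheory Set

namespace Vale.Agent.Lib.P254

lemma convex_three {f : ℝ → ℝ} {D : Set ℝ} (hf : ConvexOn ℝ D f) {x y z : ℝ}
    (hx : x ∈ D) (hz : z ∈ D) (hxy : x < y) (hyz : y < z) :
    (z - x) * f y ≤ (z - y) * f x + (y - x) * f z := by
  have hzx : 0 < z - x := by linarith
  have ha : 0 ≤ (z - y) / (z - x) := div_nonneg (by linarith) hzx.le
  have hb : 0 ≤ (y - x) / (z - x) := div_nonneg (by linarith) hzx.le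
  have hab : (z - y) / (z - x) + (y - x) / (z - x) = 1 := by field_simp; ring
  have h := hf.2 hx hz ha hb hab
  have e : ((z - y) / (z - x)) • x + ((y - x) / (z - x)) • z = y := by
    simp only [smul_eq_mul]; field_simp; ring
  rw [e] at h
  simp only [smul_eq_mul] at h
  have h2 := mul_le_mul_of_nonneg_left h hzx.le
  have e2 : (z - x) * ((z - y) / (z - x) * f x + (y - x) / (z - x) * f z)
      = (z - y) * f x + (y - x) * f z := by
    field_simp
  rwa [e2] at h2

/-- The two-point sign lemma: a convex function lies below its chord on `[a,b]`, above outside. -/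
lemma two_point {f : ℝ → ℝ} {D : Set ℝ} (hf : ConvexOn ℝ D f) {a b t : ℝ}
    (ha : a ∈ D) (hb : b ∈ D) (ht : t ∈ D) (hab : a < b) :
    0 ≤ (t - a) * (t - b) * (f t - (f a + (t - a) * ((f b - f a) / (b - a)))) := by
  have hba : 0 < b - a := by linarith
  have e : f t - (f a + (t - a) * ((f b - f a) / (b - a)))
      = ((b - a) * f t - (b - a) * f a - (t - a) * (f b - f a)) / (b - a) := by
    field_simp
    ring
  rw [e, ← mul_div_assoc]
  apply div_nonneg _ hba.le
  rcases lt_trichotomy t a with h | h | h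
  · have h3 := convex_three hf ht hb h hab
    have h4 : 0 ≤ (t - a) * (t - b) := mul_nonneg_of_nonpos_of_nonpos (by linarith) (by linarith)
    apply mul_nonneg h4
    nlinarith
  · subst h; simp
  · rcases lt_trichotomy t b with h2 | h2 | h2
    · have h3 := convex_three hf ha hb h h2
      have h4 : (t - a) * (t - b) ≤ 0 := mul_nonpos_of_nonneg_of_nonpos (by linarith) (by linarith)
      apply mul_nonneg_of_nonpos_of_nonpos h4
      nlinarith
    · subst h2; simp
    · have h3 := convex_three hf ha ht hab h2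
      have h4 : 0 ≤ (t - a) * (t - b) := mul_nonneg (by linarith) (by linarith)
      apply mul_nonneg h4
      nlinarith

/-- A weight orthogonal to affine functions, whose product with `f` minus an affine function is
nonnegative, integrates `f` to something nonnegative. -/
lemma weighted_nonneg {W f : ℝ → ℝ} (hW : Continuous W) (hf : ContinuousOn f (uIcc 0 1)) (α β : ℝ)
    (h : ∀ t ∈ Icc (0:ℝ) 1, 0 ≤ W t * (f t - (α + β * t)))
    (h0 : α * ∫ t in (0:ℝ)..1, W t = 0) (h1 : ∫ t in (0:ℝ)..1, t * W t = 0) :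
    0 ≤ ∫ t in (0:ℝ)..1, W t * f t := by
  have hWf : IntervalIntegrable (fun t => W t * f t) volume 0 1 :=
    (hW.continuousOn.mul hf).intervalIntegrable
  have hWa : IntervalIntegrable (fun t => W t * (α + β * t)) volume 0 1 :=
    (hW.mul (by fun_prop)).intervalIntegrable _ _
  have e1 : ∫ t in (0:ℝ)..1, W t * (α + β * t) = 0 := by
    have e : ∀ t, W t * (α + β * t) = α * W t + β * (t * W t) := fun t => by ring
    simp_rw [e]
    rw [intervalIntegral.integral_add (f := fun t => α * W t) (g := fun t => β * (t * W t))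
      (Continuous.intervalIntegrable (by fun_prop) _ _)
      (Continuous.intervalIntegrable (by fun_prop) _ _),
      intervalIntegral.integral_const_mul, intervalIntegral.integral_const_mul, h0, h1]
    ring
  have e2 : ∫ t in (0:ℝ)..1, W t * f t = ∫ t in (0:ℝ)..1, W t * (f t - (α + β * t)) := by
    have e : ∀ t, W t * (f t - (α + β * t)) = W t * f t - W t * (α + β * t) := fun t => by ring
    simp_rw [e]
    rw [intervalIntegral.integral_sub hWf hWa, e1, sub_zero]
  rw [e2]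
  apply intervalIntegral.integral_nonneg zero_le_one
  intro t ht
  exact h t ht

/-- The one-dimensional inequality on `[0,1]` with weight `(1-t)^k`. Here `P₂` is the orthogonal
quadratic for the weight. -/
lemma slice_inequality (k : ℕ) {f : ℝ → ℝ} (hf : Continuous f) (hc : ConvexOn ℝ univ f) :
    0 ≤ ∫ t in (0:ℝ)..1,
      (1 - t) ^ k * (t ^ 2 - 4 / ((k:ℝ) + 4) * t + 2 / (((k:ℝ) + 3) * ((k:ℝ) + 4))) * f t := by
  have hk3 : (0:ℝ) < (k:ℝ) + 3 := by positivity
  have hk4 : (0:ℝ) < (k:ℝ) + 4 := by positivity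
  -- the two roots
  set s : ℝ := Real.sqrt (((k:ℝ) + 2) / (2 * ((k:ℝ) + 3))) with hs
  have hs2 : s ^ 2 = ((k:ℝ) + 2) / (2 * ((k:ℝ) + 3)) := Real.sq_sqrt (by positivity)
  have hs0 : 0 < s := Real.sqrt_pos.2 (by positivity)
  set t₁ : ℝ := 2 / ((k:ℝ) + 4) * (1 - s) with ht₁
  set t₂ : ℝ := 2 / ((k:ℝ) + 4) * (1 + s) with ht₂
  have h12 : t₁ < t₂ := by
    rw [ht₁, ht₂]
    apply mul_lt_mul_of_pos_left (by linarith) (by positivity)
  have hp : ∀ t : ℝ, t ^ 2 - 4 / ((k:ℝ) + 4) * t + 2 / (((k:ℝ) + 3) * ((k:ℝ) + 4))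
      = (t - t₁) * (t - t₂) := by
    intro t
    have e1 : t₁ + t₂ = 4 / ((k:ℝ) + 4) := by
      rw [ht₁, ht₂]; field_simp; ring
    have e2 : t₁ * t₂ = 2 / (((k:ℝ) + 3) * ((k:ℝ) + 4)) := by
      have : t₁ * t₂ = (2 / ((k:ℝ) + 4)) ^ 2 * (1 - s ^ 2) := by rw [ht₁, ht₂]; ring
      rw [this, hs2]
      field_simp
      ring
    have : (t - t₁) * (t - t₂) = t ^ 2 - (t₁ + t₂) * t + t₁ * t₂ := by ring
    rw [this, e1, e2]
  refine weighted_nonneg (W := fun t => (1 - t) ^ k * (t ^ 2 - 4 / ((k:ℝ) + 4) * t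
    + 2 / (((k:ℝ) + 3) * ((k:ℝ) + 4)))) (by fun_prop) hf.continuousOn (f t₁ + (-t₁) * ((f t₂ - f t₁) / (t₂ - t₁)))
    ((f t₂ - f t₁) / (t₂ - t₁)) ?_ ?_ ?_
  · intro t ht
    have h1 := two_point hc (mem_univ t₁) (mem_univ t₂) (mem_univ t) h12
    have h2 : 0 ≤ (1 - t) ^ k := pow_nonneg (by linarith [ht.2]) k
    rw [hp]
    have e : f t - (f t₁ + -t₁ * ((f t₂ - f t₁) / (t₂ - t₁)) + (f t₂ - f t₁) / (t₂ - t₁) * t)
        = f t - (f t₁ + (t - t₁) * ((f t₂ - f t₁) / (t₂ - t₁))) := by ring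
    rw [e, mul_assoc]
    exact mul_nonneg h2 h1
  · have e : ∀ t : ℝ, (1 - t) ^ k * (t ^ 2 - 4 / ((k:ℝ) + 4) * t + 2 / (((k:ℝ) + 3) * ((k:ℝ) + 4)))
        = t ^ 2 * (1 - t) ^ k - 4 / ((k:ℝ) + 4) * (t * (1 - t) ^ k)
          + 2 / (((k:ℝ) + 3) * ((k:ℝ) + 4)) * (1 - t) ^ k := fun t => by ring
    apply mul_eq_zero_of_right
    simp_rw [e]
    rw [intervalIntegral.integral_add (Continuous.intervalIntegrable (by fun_prop) _ _)
        (Continuous.intervalIntegrable (by fun_prop) _ _),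
      intervalIntegral.integral_sub (Continuous.intervalIntegrable (by fun_prop) _ _)
        (Continuous.intervalIntegrable (by fun_prop) _ _),
      intervalIntegral.integral_const_mul, intervalIntegral.integral_const_mul,
      beta0, beta1, beta2]
    field_simp
    ring
  · have e : ∀ t : ℝ, t * ((1 - t) ^ k * (t ^ 2 - 4 / ((k:ℝ) + 4) * t
        + 2 / (((k:ℝ) + 3) * ((k:ℝ) + 4))))
        = t ^ 3 * (1 - t) ^ k - 4 / ((k:ℝ) + 4) * (t ^ 2 * (1 - t) ^ k)
          + 2 / (((k:ℝ) + 3) * ((k:ℝ) + 4)) * (t * (1 - t) ^ k) := fun t => by ring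
    simp_rw [e]
    rw [intervalIntegral.integral_add (Continuous.intervalIntegrable (by fun_prop) _ _)
        (Continuous.intervalIntegrable (by fun_prop) _ _),
      intervalIntegral.integral_sub (Continuous.intervalIntegrable (by fun_prop) _ _)
        (Continuous.intervalIntegrable (by fun_prop) _ _),
      intervalIntegral.integral_const_mul, intervalIntegral.integral_const_mul,
      beta1, beta2, beta3]
    field_simp
    ring

/-- The radial inequality on `[0,1]`. -/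
lemma radial_inequality (j : ℕ) {r : ℝ → ℝ} (hr : Continuous r) (hc : ConvexOn ℝ univ r)
    (h0 : r 0 = 0) :
    0 ≤ ∫ τ in (0:ℝ)..1, τ ^ j * (τ ^ 2 / ((j:ℝ) + 2) - 1 / ((j:ℝ) + 4)) * r τ := by
  have hj2 : (0:ℝ) < (j:ℝ) + 2 := by positivity
  have hj4 : (0:ℝ) < (j:ℝ) + 4 := by positivity
  set τ₀ : ℝ := Real.sqrt (((j:ℝ) + 2) / ((j:ℝ) + 4)) with hτ
  have hτ2 : τ₀ ^ 2 = ((j:ℝ) + 2) / ((j:ℝ) + 4) := Real.sq_sqrt (by positivity)
  have hτ0 : 0 < τ₀ := Real.sqrt_pos.2 (by positivity)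
  have hW : ∀ τ : ℝ, τ ^ 2 / ((j:ℝ) + 2) - 1 / ((j:ℝ) + 4)
      = (τ - τ₀) * (τ + τ₀) / ((j:ℝ) + 2) := by
    intro τ
    have : (τ - τ₀) * (τ + τ₀) = τ ^ 2 - τ₀ ^ 2 := by ring
    rw [this, hτ2]
    field_simp
  refine weighted_nonneg (W := fun τ => τ ^ j * (τ ^ 2 / ((j:ℝ) + 2) - 1 / ((j:ℝ) + 4)))
    (by fun_prop) hr.continuousOn 0 (r τ₀ / τ₀) ?_ ?_ ?_
  · intro τ hτm
    rcases eq_or_lt_of_le hτm.1 with h | h
    · subst h
      simp [h0]
    · have h1 := two_point hc (mem_univ 0) (mem_univ τ₀) (mem_univ τ) hτ0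
      simp only [h0, sub_zero, zero_add] at h1
      have h2 : 0 ≤ (τ - τ₀) * (r τ - τ * (r τ₀ / τ₀)) := by
        have h3 : τ * (τ - τ₀) * (r τ - τ * (r τ₀ / τ₀))
            = τ * ((τ - τ₀) * (r τ - τ * (r τ₀ / τ₀))) := by ring
        rw [h3] at h1
        exact nonneg_of_mul_nonneg_right h1 h
      rw [hW]
      simp only [zero_add]
      have e : r τ₀ / τ₀ * τ = τ * (r τ₀ / τ₀) := by ring
      rw [e]
      have h4 : τ ^ j * ((τ - τ₀) * (τ + τ₀) / ((j:ℝ) + 2)) * (r τ - τ * (r τ₀ / τ₀))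
          = τ ^ j * ((τ + τ₀) / ((j:ℝ) + 2)) * ((τ - τ₀) * (r τ - τ * (r τ₀ / τ₀))) := by ring
      rw [h4]
      exact mul_nonneg (by positivity) h2
  · simp
  · have e : ∀ τ : ℝ, τ * (τ ^ j * (τ ^ 2 / ((j:ℝ) + 2) - 1 / ((j:ℝ) + 4)))
        = (1 / ((j:ℝ) + 2)) * τ ^ (j+3) - 1 / ((j:ℝ) + 4) * τ ^ (j+1) := fun τ => by ring
    simp_rw [e]
    rw [intervalIntegral.integral_sub (Continuous.intervalIntegrable (by fun_prop) _ _)
        (Continuous.intervalIntegrable (by fun_prop) _ _),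
      intervalIntegral.integral_const_mul, intervalIntegral.integral_const_mul,
      integral_pow01, integral_pow01]
    push_cast
    field_simp
    ring

end Vale.Agent.Lib.P254
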