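import Mathlib
import Vale.Agent.Lib.P254.OneDim

/-! The base lemma and the key lemma on convex functions on the simplex. -/

open MeasureTheory Set

namespace Vale.Agent.Lib.P254

variable {n : ℕ}

/-- The sum of squares of the barycentric coordinates. -/
def Qf (x : Fin n → ℝ) : ℝ := ∑ i, (bary x i) ^ 2

lemma Qf_eq (x : Fin n → ℝ) : Qf x = (1 - ∑ i, x i) ^ 2 + ∑ i, x i ^ 2 := by
  rw [Qf, Fin.sum_univ_succ]; simp

lemma Qf_permMap (σ : Equiv.Perm (Fin (n+1))) (x : Fin n → ℝ) : Qf (permMap σ x) = Qf x := by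
  simp only [Qf, bary_permMap]
  exact Equiv.sum_comp σ (fun i => (bary x i) ^ 2)

lemma Qf_continuous : Continuous (Qf : (Fin n → ℝ) → ℝ) := by
  have : (Qf : (Fin n → ℝ) → ℝ) = fun x => (1 - ∑ i, x i) ^ 2 + ∑ i, x i ^ 2 := by
    funext x; exact Qf_eq x
  rw [this]
  fun_prop

lemma Qf_le_one {x : Fin n → ℝ} (hx : x ∈ stdS n) : Qf x ≤ 1 := by
  have h0 := (mem_stdS_iff_bary x).1 hx
  calc Qf x = ∑ i, (bary x i) ^ 2 := rfl
    _ ≤ ∑ i, bary x i := Finset.sum_le_sum fun i _ => by
        have := h0 i; have := bary_le_one hx i; nlinarith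
    _ = 1 := sum_bary x

/-- Convexity is preserved by composing with a map respecting affine combinations. -/
lemma convex_comp {E E' : Type*} [AddCommGroup E] [Module ℝ E] [AddCommGroup E'] [Module ℝ E']
    {φ : E → ℝ} (hφ : ConvexOn ℝ univ φ) (g : E' → E)
    (hg : ∀ (x y : E') (a b : ℝ), a + b = 1 → g (a • x + b • y) = a • g x + b • g y) :
    ConvexOn ℝ univ (fun x => φ (g x)) := by
  refine ⟨convex_univ, fun x _ y _ a b ha hb hab => ?_⟩
  simp only
  rw [hg x y a b hab]
  exact hφ.2 (mem_univ _) (mem_univ _) ha hb hab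

lemma permMap_affine (σ : Equiv.Perm (Fin (n+1))) (x y : Fin n → ℝ) (a b : ℝ) (hab : a + b = 1) :
    permMap σ (a • x + b • y) = a • permMap σ x + b • permMap σ y := by
  have e1 := permMap_eq σ
  rw [e1 (a • x + b • y), e1 x, e1 y]
  simp only [map_add, map_smul]
  have : permMap σ 0 = (a + b) • permMap σ 0 := by rw [hab, one_smul]
  rw [smul_add, smul_add]
  nth_rw 1 [this]
  rw [add_smul]
  abel

lemma convex_comp_permMap {φ : (Fin n → ℝ) → ℝ} (hφ : ConvexOn ℝ univ φ)
    (σ : Equiv.Perm (Fin (n+1))) : ConvexOn ℝ univ (fun x => φ (permMap σ x)) :=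
  convex_comp hφ _ (fun x y a b hab => permMap_affine σ x y a b hab)

/-- Integral of a convex family is convex. -/
lemma convexOn_integral {m : ℕ} (ψ : ℝ → (Fin m → ℝ) → ℝ) (hc : Continuous (Function.uncurry ψ))
    (hconv : ∀ y, ConvexOn ℝ univ (fun t => ψ t y)) :
    ConvexOn ℝ univ (fun t => ∫ y in stdS m, ψ t y) := by
  refine ⟨convex_univ, fun s _ t _ a b ha hb hab => ?_⟩
  simp only [smul_eq_mul]
  have hint : ∀ u, IntegrableOn (ψ u) (stdS m) := fun u =>
    integrableOn_stdS (hc.comp (Continuous.prodMk continuous_const continuous_id))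
  rw [← integral_const_mul, ← integral_const_mul, ← integral_add ((hint s).const_mul a)
    ((hint t).const_mul b)]
  apply setIntegral_mono_on
  · exact integrableOn_stdS (hc.comp (Continuous.prodMk continuous_const continuous_id))
  · exact ((hint s).const_mul a).add ((hint t).const_mul b)
  · exact stdS_measurable m
  · intro y _
    have := (hconv y).2 (mem_univ s) (mem_univ t) ha hb hab
    simpa only [smul_eq_mul] using this

lemma continuous_integral_stdS {m : ℕ} (ψ : ℝ → (Fin m → ℝ) → ℝ)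
    (hc : Continuous (Function.uncurry ψ)) :
    Continuous (fun t => ∫ y in stdS m, ψ t y) :=
  continuous_parametric_integral_of_continuous hc (stdS_isCompact m)

/-- The slice inequality on the simplex for the first coordinate. -/
lemma slice_first (k : ℕ) (φ : (Fin (k+1) → ℝ) → ℝ) (hc : Continuous φ)
    (hφ : ConvexOn ℝ univ φ) :
    0 ≤ ∫ x in stdS (k+1),
      (x 0 ^ 2 - 4 / ((k:ℝ) + 4) * x 0 + 2 / (((k:ℝ) + 3) * ((k:ℝ) + 4))) * φ x := by
  set P : ℝ → ℝ := fun t => t ^ 2 - 4 / ((k:ℝ) + 4) * t + 2 / (((k:ℝ) + 3) * ((k:ℝ) + 4)) with hP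
  have hcont : Continuous (fun x : Fin (k+1) → ℝ => P (x 0) * φ x) := by
    simp only [hP]; fun_prop
  rw [integral_stdS_succ k _ (integrableOn_stdS hcont)]
  have hcons : ∀ (t : ℝ) (y : Fin k → ℝ), (Fin.cons t ((1 - t) • y) : Fin (k+1) → ℝ) 0 = t := by
    intro t y; simp
  have e : ∀ t : ℝ, (1 - t) ^ k * ∫ y in stdS k, P ((Fin.cons t ((1 - t) • y) : Fin (k+1) → ℝ) 0)
        * φ (Fin.cons t ((1 - t) • y))
      = (1 - t) ^ k * P t * ∫ y in stdS k, φ (Fin.cons t ((1 - t) • y)) := by
    intro t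
    simp_rw [hcons]
    rw [integral_const_mul]
    ring
  simp_rw [e]
  have hline : Continuous (fun p : ℝ × (Fin k → ℝ) => (Fin.cons p.1 ((1 - p.1) • p.2) : Fin (k+1) → ℝ)) := by
    apply continuous_pi
    intro i
    refine Fin.cases ?_ (fun j => ?_) i
    · simp only [Fin.cons_zero]; fun_prop
    · simp only [Fin.cons_succ, Pi.smul_apply, smul_eq_mul]; fun_prop
  have hψ : Continuous (Function.uncurry (fun (t : ℝ) (y : Fin k → ℝ) =>
      φ (Fin.cons t ((1 - t) • y)))) := hc.comp hline
  apply slice_inequality k (continuous_integral_stdS _ hψ)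
  apply convexOn_integral _ hψ
  intro y
  apply convex_comp hφ
  intro s t a b hab
  funext i
  refine Fin.cases ?_ (fun j => ?_) i
  · simp
  · simp only [Fin.cons_succ, Pi.smul_apply, Pi.add_apply, smul_eq_mul]
    have : a = 1 - b := by linarith
    subst this
    ring

/-- **Base lemma**: for a convex function `φ` on the simplex, `∫ (Q - 2/(m+2)) φ ≥ 0`. -/
theorem base_lemma (m : ℕ) (φ : (Fin m → ℝ) → ℝ) (hc : Continuous φ) (hφ : ConvexOn ℝ univ φ) :
    0 ≤ ∫ x in stdS m, (Qf x - 2 / ((m:ℝ) + 2)) * φ x := by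
  cases m with
  | zero =>
    have : ∀ x : Fin 0 → ℝ, (Qf x - 2 / (((0:ℕ):ℝ) + 2)) * φ x = 0 := by
      intro x
      rw [Qf_eq]
      simp
    simp_rw [this]
    simp
  | succ k =>
    set P : ℝ → ℝ := fun t => t ^ 2 - 4 / ((k:ℝ) + 4) * t + 2 / (((k:ℝ) + 3) * ((k:ℝ) + 4)) with hP
    have halg : ∀ x : Fin (k+1) → ℝ, Qf x - 2 / (((k+1:ℕ):ℝ) + 2) = ∑ i, P (bary x i) := by
      intro x
      simp only [hP, Finset.sum_add_distrib, Finset.sum_sub_distrib, ← Finset.mul_sum, sum_bary]
      simp only [Finset.sum_const, Finset.card_univ, Fintype.card_fin, nsmul_eq_mul]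
      rw [Qf]
      push_cast
      field_simp
      ring
    simp_rw [halg, Finset.sum_mul]
    have hi : ∀ i : Fin (k+2), IntegrableOn (fun x => P (bary x i) * φ x) (stdS (k+1)) := by
      intro i
      apply integrableOn_stdS
      have : Continuous (fun x : Fin (k+1) → ℝ => bary x i) := by
        refine Fin.cases ?_ (fun j => ?_) i
        · simp only [bary_zero]; fun_prop
        · simp only [bary_succ]; fun_prop
      simp only [hP]
      fun_prop
    rw [integral_finsetSum _ (fun i _ => hi i)]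
    apply Finset.sum_nonneg
    intro i _
    set σ : Equiv.Perm (Fin (k+2)) := Equiv.swap i 1 with hσ
    set φ' := fun x => φ (permMap σ x) with hφ'
    have hc' : Continuous φ' := hc.comp (permMap_continuous σ)
    have hconv' : ConvexOn ℝ univ φ' := convex_comp_permMap hφ σ
    have h1 := slice_first k φ' hc' hconv'
    have h2 := integral_stdS_permMap σ (fun x =>
      (x 0 ^ 2 - 4 / ((k:ℝ) + 4) * x 0 + 2 / (((k:ℝ) + 3) * ((k:ℝ) + 4))) * φ' x)
    rw [← h2] at h1
    refine le_of_le_of_eq h1 ?_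
    apply setIntegral_congr_fun (stdS_measurable _)
    intro x _
    simp only [hφ', hP]
    have e1 : permMap σ x 0 = bary x i := by
      have : bary (permMap σ x) (Fin.succ 0) = bary x (σ (Fin.succ 0)) := bary_permMap σ x _
      simp only [bary_succ] at this
      rw [this]
      congr 1
      have : (Fin.succ 0 : Fin (k+2)) = 1 := rfl
      rw [this, hσ]
      simp
    rw [e1, hσ, permMap_swap_invol]

end Vale.Agent.Lib.P254
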