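import Mathlib
import Vale.Agent.Lib.P254.Base

/-! Decomposition of the simplex into cones, and the key lemma. -/

open MeasureTheory Set

namespace Vale.Agent.Lib.P254

variable {n : ℕ}

lemma null_hyperplane (φ : (Fin n → ℝ) →ₗ[ℝ] ℝ) (hφ : φ ≠ 0) (c : ℝ) :
    volume {x | φ x = c} = 0 := by
  by_cases hne : ∃ x₀, φ x₀ = c
  · obtain ⟨x₀, hx₀⟩ := hne
    set A : AffineSubspace ℝ (Fin n → ℝ) := AffineSubspace.mk' x₀ (LinearMap.ker φ) with hA
    have hset : {x | φ x = c} = (A : Set (Fin n → ℝ)) := by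
      ext x
      simp only [mem_ofPred_eq, SetLike.mem_coe, hA, AffineSubspace.mem_mk', LinearMap.mem_ker,
        vsub_eq_sub, map_sub, hx₀, sub_eq_zero]
    rw [hset]
    apply Measure.addHaar_affineSubspace
    intro htop
    obtain ⟨v, hv⟩ : ∃ v, φ v ≠ 0 := by
      by_contra h
      push Not at h
      exact hφ (LinearMap.ext h)
    have hmem : x₀ + v ∈ A := by rw [htop]; trivial
    rw [hA, AffineSubspace.mem_mk'] at hmem
    simp only [vsub_eq_sub, add_sub_cancel_left, LinearMap.mem_ker] at hmem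
    exact hv hmem
  · have : {x | φ x = c} = ∅ := by
      ext x; simp only [mem_ofPred_eq, mem_empty_iff_false, iff_false]
      exact fun h => hne ⟨x, h⟩
    rw [this]; simp

/-- The barycentric coordinate as a linear map (its linear part). -/
def baryL (i : Fin (n+1)) : (Fin n → ℝ) →ₗ[ℝ] ℝ where
  toFun x := baryLin x i
  map_add' x y := by
    refine Fin.cases ?_ (fun j => ?_) i
    · simp [baryLin, Finset.sum_add_distrib]; ring
    · simp [baryLin]
  map_smul' c x := by
    refine Fin.cases ?_ (fun j => ?_) i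
    · simp [baryLin, ← Finset.mul_sum]
    · simp [baryLin]

lemma baryL_sub_ne_zero {i j : Fin (n+1)} (hij : i ≠ j) : baryL i - baryL j ≠ 0 := by
  intro h
  have key : ∀ x : Fin n → ℝ, baryLin x i = baryLin x j := fun x => by
    have := LinearMap.congr_fun h x
    simpa [baryL, sub_eq_zero] using this
  -- test vector
  induction i using Fin.cases with
  | zero =>
    induction j using Fin.cases with
    | zero => exact hij rfl
    | succ l =>
      have := key (Pi.single l 1)
      simp [baryLin, Finset.sum_pi_single'] at this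
      linarith
  | succ k =>
    have := key (Pi.single k 1)
    induction j using Fin.cases with
    | zero =>
      simp [baryLin, Finset.sum_pi_single'] at this
      linarith
    | succ l =>
      simp only [baryLin, Fin.cons_succ, Pi.single_eq_same] at this
      have hkl : k ≠ l := fun h => hij (by rw [h])
      rw [Pi.single_eq_of_ne (Ne.symm hkl)] at this
      norm_num at this

lemma null_bary_eq {i j : Fin (n+1)} (hij : i ≠ j) :
    volume {x : Fin n → ℝ | bary x i = bary x j} = 0 := by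
  have h := null_hyperplane (baryL i - baryL j) (baryL_sub_ne_zero hij)
    (bary (0 : Fin n → ℝ) j - bary (0 : Fin n → ℝ) i)
  have hset : {x : Fin n → ℝ | bary x i = bary x j}
      = {x | (baryL i - baryL j) x = bary (0 : Fin n → ℝ) j - bary (0 : Fin n → ℝ) i} := by
    ext x
    simp only [mem_ofPred_eq, LinearMap.sub_apply, baryL, LinearMap.coe_mk, AddHom.coe_mk]
    rw [bary_eq_baryLin x i, bary_eq_baryLin x j]
    constructor <;> intro h <;> linarith
  rw [hset]
  exact h

/-- The cone where the `i`-th barycentric coordinate is smallest. -/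
def coneI (m : ℕ) (i : Fin (m+2)) : Set (Fin (m+1) → ℝ) :=
  {x | x ∈ stdS (m+1) ∧ ∀ l, bary x i ≤ bary x l}

lemma coneI_one (m : ℕ) : coneI m 1 = cone0 m := by
  ext x
  simp only [coneI, cone0, mem_ofPred_eq]
  have h1 : bary x (1 : Fin (m+2)) = x 0 := rfl
  rw [h1]
  constructor
  · rintro ⟨h2, h3⟩
    exact ⟨h2, fun i => h3 i.succ, h3 0⟩
  · rintro ⟨h2, h3, h4⟩
    refine ⟨h2, fun l => ?_⟩
    refine Fin.cases h4 (fun j => ?_) l
    exact h3 j

lemma preimage_cone0 (m : ℕ) (i : Fin (m+2)) :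
    permMap (Equiv.swap i 1) ⁻¹' cone0 m = coneI m i := by
  rw [← coneI_one]
  ext x
  simp only [coneI, mem_ofPred_eq, mem_preimage, mem_stdS_permMap, bary_permMap, Equiv.swap_apply_right]
  constructor
  · rintro ⟨h2, h3⟩
    refine ⟨h2, fun l => ?_⟩
    have := h3 (Equiv.swap i 1 l)
    simpa using this
  · rintro ⟨h2, h3⟩
    exact ⟨h2, fun l => h3 _⟩

lemma coneI_isClosed (m : ℕ) (i : Fin (m+2)) : IsClosed (coneI m i) := by
  rw [← preimage_cone0]
  exact (cone0_isClosed m).preimage (permMap_continuous _)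

lemma coneI_measurable (m : ℕ) (i : Fin (m+2)) : MeasurableSet (coneI m i) :=
  (coneI_isClosed m i).measurableSet

lemma iUnion_coneI (m : ℕ) : ⋃ i, coneI m i = stdS (m+1) := by
  ext x
  simp only [mem_iUnion]
  constructor
  · rintro ⟨i, hi⟩
    exact hi.1
  · intro hx
    obtain ⟨i, _, hi⟩ := Finset.exists_min_image Finset.univ (bary x) ⟨0, Finset.mem_univ 0⟩
    exact ⟨i, hx, fun l => hi l (Finset.mem_univ l)⟩

lemma integral_coneI (m : ℕ) (i : Fin (m+2)) (f : (Fin (m+1) → ℝ) → ℝ) :
    ∫ x in coneI m i, f x = ∫ x in cone0 m, f (permMap (Equiv.swap i 1) x) := by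
  have h := setIntegral_permMap (Equiv.swap i 1) (fun x => f (permMap (Equiv.swap i 1) x)) (cone0 m)
  rw [← h, preimage_cone0]
  apply setIntegral_congr_fun (coneI_measurable m i)
  intro x _
  simp only [permMap_swap_invol]

/-- Decomposition of an integral over the simplex into integrals over the cone `cone0`. -/
theorem integral_stdS_eq_sum (m : ℕ) (f : (Fin (m+1) → ℝ) → ℝ) (hf : IntegrableOn f (stdS (m+1))) :
    ∫ x in stdS (m+1), f x = ∑ i : Fin (m+2), ∫ x in cone0 m, f (permMap (Equiv.swap i 1) x) := by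
  have h := integral_iUnion_ae (f := f) (μ := volume) (s := coneI m)
    (fun i => (coneI_measurable m i).nullMeasurableSet)
    (by
      intro i j hij
      have : coneI m i ∩ coneI m j ⊆ {x | bary x i = bary x j} := by
        rintro x ⟨h1, h2⟩
        exact le_antisymm (h1.2 j) (h2.2 i)
      exact measure_mono_null this (null_bary_eq hij))
    (by rw [iUnion_coneI]; exact hf)
  rw [iUnion_coneI, tsum_fintype] at h
  rw [h]
  exact Finset.sum_congr rfl fun i _ => integral_coneI m i f

lemma bary_const_center (m : ℕ) (i : Fin (m+2)) :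
    bary (fun _ : Fin (m+1) => 1 / ((m:ℝ) + 2)) i = 1 / ((m:ℝ) + 2) := by
  refine Fin.cases ?_ (fun j => ?_) i
  · simp only [bary_zero, Finset.sum_const, Finset.card_univ, Fintype.card_fin, nsmul_eq_mul]
    push_cast
    field_simp
    ring
  · rfl

lemma permMap_center (m : ℕ) (σ : Equiv.Perm (Fin (m+2))) :
    permMap σ (fun _ : Fin (m+1) => 1 / ((m:ℝ) + 2)) = fun _ => 1 / ((m:ℝ) + 2) := by
  funext i
  simp only [permMap]
  exact bary_const_center m _

lemma coneMap_continuous (m : ℕ) :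
    Continuous (fun p : ℝ × (Fin m → ℝ) => coneMap m p.1 p.2) := by
  apply continuous_pi
  intro i
  refine Fin.cases ?_ (fun j => ?_) i
  · simp only [coneMap, Fin.cons_zero]; fun_prop
  · simp only [coneMap, Fin.cons_succ]; fun_prop

lemma coneMap_zero (m : ℕ) (y : Fin m → ℝ) :
    coneMap m 0 y = fun _ => 1 / ((m:ℝ) + 2) := by
  funext i
  refine Fin.cases ?_ (fun j => ?_) i
  · simp [coneMap]
  · simp [coneMap]

lemma Qf_coneMap (m : ℕ) (τ : ℝ) (y : Fin m → ℝ) :
    Qf (coneMap m τ y) = 1 / ((m:ℝ) + 2) + τ ^ 2 * (Qf y - 1 / ((m:ℝ) + 2)) := by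
  have hm : (0:ℝ) < (m:ℝ) + 2 := by positivity
  rw [Qf_eq, Qf_eq]
  set a := (1 - τ) / ((m:ℝ) + 2) with ha
  have hcm : coneMap m τ y = Fin.cons a (fun i => a + τ * y i) := rfl
  have e1 : ∑ i, coneMap m τ y i = a + (m * a + τ * ∑ i, y i) := by
    rw [hcm, sum_cons]
    simp [Finset.sum_add_distrib, Finset.mul_sum]
  have e2 : ∑ i, coneMap m τ y i ^ 2
      = a ^ 2 + (m * a ^ 2 + 2 * a * τ * ∑ i, y i + τ ^ 2 * ∑ i, y i ^ 2) := by
    rw [hcm, Fin.sum_univ_succ]
    simp only [Fin.cons_zero, Fin.cons_succ]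
    congr 1
    have : ∀ i, (a + τ * y i) ^ 2 = a ^ 2 + 2 * a * τ * y i + τ ^ 2 * y i ^ 2 := fun i => by ring
    simp_rw [this]
    simp [Finset.sum_add_distrib, Finset.mul_sum]
  rw [e1, e2]
  have hτ : τ = 1 - ((m:ℝ) + 2) * a := by
    rw [ha]; field_simp; ring
  set s := ∑ i, y i
  set s2 := ∑ i, y i ^ 2
  rw [hτ]
  have ha2 : 1 / ((m:ℝ) + 2) = 1 / ((m:ℝ) + 2) := rfl
  field_simp
  ring

/-- `coneMap` is affine in its second argument. -/
lemma coneMap_affine (m : ℕ) (τ : ℝ) (x y : Fin m → ℝ) (a b : ℝ) (hab : a + b = 1) :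
    coneMap m τ (a • x + b • y) = a • coneMap m τ x + b • coneMap m τ y := by
  funext i
  refine Fin.cases ?_ (fun j => ?_) i
  · simp only [coneMap, Fin.cons_zero, Pi.add_apply, Pi.smul_apply, smul_eq_mul]
    have : a = 1 - b := by linarith
    subst this; ring
  · simp only [coneMap, Fin.cons_succ, Pi.add_apply, Pi.smul_apply, smul_eq_mul]
    have : a = 1 - b := by linarith
    subst this; ring

/-- `coneMap` is affine in its first argument. -/
lemma coneMap_affine_left (m : ℕ) (y : Fin m → ℝ) (s t a b : ℝ) (hab : a + b = 1) :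
    coneMap m (a • s + b • t) y = a • coneMap m s y + b • coneMap m t y := by
  funext i
  refine Fin.cases ?_ (fun j => ?_) i
  · simp only [coneMap, Fin.cons_zero, Pi.add_apply, Pi.smul_apply, smul_eq_mul]
    have : a = 1 - b := by linarith
    subst this; ring
  · simp only [coneMap, Fin.cons_succ, Pi.add_apply, Pi.smul_apply, smul_eq_mul]
    have : a = 1 - b := by linarith
    subst this; ring

/-- The key inequality on the cone. -/
lemma key_cone (j : ℕ) (q : (Fin (j+1) → ℝ) → ℝ) (hc : Continuous q) (hq : ConvexOn ℝ univ q)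
    (h0 : q (fun _ => 1 / ((j:ℝ) + 2)) = 0) :
    0 ≤ ∫ x in cone0 j, (Qf x - (1 / ((j:ℝ) + 2) + 1 / ((j:ℝ) + 4))) * q x := by
  have hj2 : (0:ℝ) < (j:ℝ) + 2 := by positivity
  have hj4 : (0:ℝ) < (j:ℝ) + 4 := by positivity
  set C : ℝ := 1 / ((j:ℝ) + 2) + 1 / ((j:ℝ) + 4) with hC
  have hF : Continuous (fun x : Fin (j+1) → ℝ => (Qf x - C) * q x) :=
    (Qf_continuous.sub continuous_const).mul hc
  rw [integral_cone0 j _ (hF.continuousOn.integrableOn_compact
    ((stdS_isCompact _).of_isClosed_subset (cone0_isClosed j) (fun x hx => hx.1)))]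
  apply mul_nonneg (by positivity)
  set φ : ℝ → (Fin j → ℝ) → ℝ := fun τ y => q (coneMap j τ y) with hφ
  have hφc : Continuous (Function.uncurry φ) := hc.comp (coneMap_continuous j)
  set r : ℝ → ℝ := fun τ => ∫ y in stdS j, φ τ y with hr
  have hrc : Continuous r := continuous_integral_stdS φ hφc
  have hrconv : ConvexOn ℝ univ r := by
    apply convexOn_integral φ hφc
    intro y
    exact convex_comp hq _ (fun s t a b hab => coneMap_affine_left j y s t a b hab)
  have hr0 : r 0 = 0 := by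
    simp only [hr, hφ, coneMap_zero, h0]
    simp
  have hrad := radial_inequality j hrc hrconv hr0
  refine hrad.trans ?_
  have hG : Continuous (fun τ : ℝ => τ ^ j * ∫ y in stdS j, (Qf (coneMap j τ y) - C) * q (coneMap j τ y)) := by
    apply Continuous.mul (by fun_prop)
    apply continuous_integral_stdS (fun τ y => (Qf (coneMap j τ y) - C) * q (coneMap j τ y))
    exact ((Qf_continuous.comp (coneMap_continuous j)).sub continuous_const).mul hφc
  apply intervalIntegral.integral_mono_on zero_le_one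
    (Continuous.intervalIntegrable (by fun_prop) _ _) (hG.intervalIntegrable _ _)
  intro τ hτ
  rw [mul_assoc]
  apply mul_le_mul_of_nonneg_left _ (pow_nonneg hτ.1 j)
  -- inner inequality
  have hφτc : Continuous (φ τ) := hφc.comp (Continuous.prodMk continuous_const continuous_id)
  have hφτ : ConvexOn ℝ univ (φ τ) :=
    convex_comp hq _ (fun x y a b hab => coneMap_affine j τ x y a b hab)
  have hbase := base_lemma j (φ τ) hφτc hφτ
  have hi1 : IntegrableOn (φ τ) (stdS j) := integrableOn_stdS hφτc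
  have hi2 : IntegrableOn (fun y => Qf y * φ τ y) (stdS j) :=
    integrableOn_stdS (Qf_continuous.mul hφτc)
  have e1 : ∫ y in stdS j, (Qf y - 2 / ((j:ℝ) + 2)) * φ τ y
      = (∫ y in stdS j, Qf y * φ τ y) - 2 / ((j:ℝ) + 2) * r τ := by
    simp only [hr, sub_mul]
    rw [integral_sub hi2 (hi1.const_mul _), integral_const_mul]
  have e2 : ∫ y in stdS j, (Qf (coneMap j τ y) - C) * q (coneMap j τ y)
      = (1 / ((j:ℝ) + 2) - C - τ ^ 2 * (1 / ((j:ℝ) + 2))) * r τ
        + τ ^ 2 * ∫ y in stdS j, Qf y * φ τ y := by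
    have : ∀ y, (Qf (coneMap j τ y) - C) * q (coneMap j τ y)
        = (1 / ((j:ℝ) + 2) - C - τ ^ 2 * (1 / ((j:ℝ) + 2))) * φ τ y + τ ^ 2 * (Qf y * φ τ y) := by
      intro y
      rw [Qf_coneMap]
      simp only [hφ]
      ring
    simp_rw [this]
    rw [integral_add (hi1.const_mul _) (hi2.const_mul _), integral_const_mul, integral_const_mul]
  rw [e2]
  rw [e1] at hbase
  have hτ2 : 0 ≤ τ ^ 2 := by positivity
  have h3 := mul_nonneg hτ2 hbase
  have e3 : (τ ^ 2 / ((j:ℝ) + 2) - 1 / ((j:ℝ) + 4)) = (1 / ((j:ℝ) + 2) - C - τ ^ 2 * (1 / ((j:ℝ) + 2)))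
      + τ ^ 2 * (2 / ((j:ℝ) + 2)) := by
    rw [hC]; field_simp; ring
  rw [e3]
  nlinarith

/-- **Key lemma**: for a convex function `q` on the simplex vanishing at its centre,
`∫ (Q - (1/(k+1) + 1/(k+3))) q ≥ 0` where `k = j + 1` is the dimension. -/
theorem key_lemma (j : ℕ) (q : (Fin (j+1) → ℝ) → ℝ) (hc : Continuous q) (hq : ConvexOn ℝ univ q)
    (h0 : q (fun _ => 1 / ((j:ℝ) + 2)) = 0) :
    0 ≤ ∫ x in stdS (j+1), (Qf x - (1 / ((j:ℝ) + 2) + 1 / ((j:ℝ) + 4))) * q x := by
  have hF : Continuous (fun x : Fin (j+1) → ℝ => (Qf x - (1 / ((j:ℝ) + 2) + 1 / ((j:ℝ) + 4))) * q x) :=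
    (Qf_continuous.sub continuous_const).mul hc
  rw [integral_stdS_eq_sum j _ (integrableOn_stdS hF)]
  apply Finset.sum_nonneg
  intro i _
  have := key_cone j (fun x => q (permMap (Equiv.swap i 1) x)) (hc.comp (permMap_continuous _))
    (convex_comp_permMap hq _) (by simp only [permMap_center]; exact h0)
  refine le_of_le_of_eq this ?_
  apply setIntegral_congr_fun (cone0_measurable j)
  intro x _
  simp only [Qf_permMap]

end Vale.Agent.Lib.P254
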