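import Mathlib
import Vale.Agent.Lib.P254.Key

/-! The integral of the first variation over the part of a cone lying outside a convex body. -/

open MeasureTheory Set

namespace Vale.Agent.Lib.P254

lemma rho_pow_le (q : ℝ) (hq : 0 ≤ q) (N : ℕ) :
    (1 / (1 + q)) ^ N ≤ 1 - N * q + N * (N + 1) * q ^ 2 / 2 := by
  have h1q : 0 < 1 + q := by linarith
  induction N with
  | zero => simp
  | succ N ih =>
    rw [pow_succ]
    have h2 : (1 / (1 + q)) ^ N * (1 / (1 + q))
        ≤ (1 - N * q + N * (N + 1) * q ^ 2 / 2) * (1 / (1 + q)) :=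
      mul_le_mul_of_nonneg_right ih (by positivity)
    refine h2.trans ?_
    rw [mul_one_div, div_le_iff₀ h1q]
    push_cast
    have h3 : 0 ≤ (N + 1) * (N + 2) * q ^ 3 / 2 := by positivity
    nlinarith

lemma rho_pow_ge (q : ℝ) (hq : 0 ≤ q) (N : ℕ) :
    1 - N * q ≤ (1 / (1 + q)) ^ N := by
  have h1q : 0 < 1 + q := by linarith
  have hd : 1 / (1 + q) = 1 + (-(q / (1 + q))) := by field_simp; ring
  have hd2 : q / (1 + q) ≤ q := by
    rw [div_le_iff₀ h1q]; nlinarith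
  have hd3 : 0 ≤ q / (1 + q) := by positivity
  have hd4 : q / (1 + q) ≤ 1 := by
    rw [div_le_iff₀ h1q]; linarith
  rw [hd]
  have := one_add_mul_le_pow (a := -(q / (1 + q))) (by linarith) N
  have hN : (0:ℝ) ≤ N := by positivity
  nlinarith

/-- The pointwise real inequality used after integrating along rays. -/
lemma pointwise_real (m : ℕ) (q Qv : ℝ) (hq0 : 0 ≤ q)
    (hq : q ≤ 4 / (((m:ℝ) + 1) * ((m:ℝ) + 2) * ((m:ℝ) + 3) * ((m:ℝ) + 4))) (hQ1 : Qv ≤ 1) :
    (Qv - (1 / ((m:ℝ) + 1) + 1 / ((m:ℝ) + 3))) * q ≤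
      (Qv - 1 / ((m:ℝ) + 2)) * ((1 - (1 / (1 + q)) ^ (m + 3)) / ((m:ℝ) + 3))
        - 1 / ((m:ℝ) + 2) * ((1 - (1 / (1 + q)) ^ (m + 1)) / ((m:ℝ) + 1)) := by
  have hm1 : (0:ℝ) < (m:ℝ) + 1 := by positivity
  have hm2 : (0:ℝ) < (m:ℝ) + 2 := by positivity
  have hm3 : (0:ℝ) < (m:ℝ) + 3 := by positivity
  have hm4 : (0:ℝ) < (m:ℝ) + 4 := by positivity
  set A := (1 - (1 / (1 + q)) ^ (m + 3)) / ((m:ℝ) + 3) with hA
  set B := (1 - (1 / (1 + q)) ^ (m + 1)) / ((m:ℝ) + 1) with hB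
  have hA1 : A ≤ q := by
    have := rho_pow_ge q hq0 (m + 3)
    push_cast at this
    rw [hA, div_le_iff₀ hm3]
    nlinarith
  have hB1 : B ≤ q := by
    have := rho_pow_ge q hq0 (m + 1)
    push_cast at this
    rw [hB, div_le_iff₀ hm1]
    nlinarith
  have hA2 : q - ((m:ℝ) + 4) * q ^ 2 / 2 ≤ A := by
    have := rho_pow_le q hq0 (m + 3)
    push_cast at this
    rw [hA, le_div_iff₀ hm3]
    nlinarith
  -- the constant
  have hc0 : (1 / ((m:ℝ) + 1) + 1 / ((m:ℝ) + 3)) - 2 / ((m:ℝ) + 2)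
      = 2 / (((m:ℝ) + 1) * ((m:ℝ) + 2) * ((m:ℝ) + 3)) := by
    field_simp; ring
  have hc1 : ((m:ℝ) + 4) * q / 2 ≤ 2 / (((m:ℝ) + 1) * ((m:ℝ) + 2) * ((m:ℝ) + 3)) := by
    have h1 : ((m:ℝ) + 4) * q ≤ ((m:ℝ) + 4) * (4 / (((m:ℝ) + 1) * ((m:ℝ) + 2) * ((m:ℝ) + 3) * ((m:ℝ) + 4))) :=
      mul_le_mul_of_nonneg_left hq hm4.le
    have h2 : ((m:ℝ) + 4) * (4 / (((m:ℝ) + 1) * ((m:ℝ) + 2) * ((m:ℝ) + 3) * ((m:ℝ) + 4)))
        = 2 * (2 / (((m:ℝ) + 1) * ((m:ℝ) + 2) * ((m:ℝ) + 3))) := by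
      field_simp; ring
    rw [h2] at h1
    linarith
  set c₀ := 2 / (((m:ℝ) + 1) * ((m:ℝ) + 2) * ((m:ℝ) + 3)) with hc₀
  set κ := 1 / ((m:ℝ) + 2) with hκ
  have hκ0 : 0 ≤ κ := by positivity
  set C := 1 / ((m:ℝ) + 1) + 1 / ((m:ℝ) + 3) with hC
  have hκ2 : 2 / ((m:ℝ) + 2) = 2 * κ := by rw [hκ]; ring
  rw [hκ2] at hc0
  -- set a' = q - A, b' = q - B
  have e : (Qv - κ) * A - κ * B - (Qv - C) * q
      = (C - 2 * κ) * q - Qv * (q - A) + κ * ((q - A) + (q - B)) := by ring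
  have h1 : 0 ≤ q - A := by linarith
  have h2 : 0 ≤ q - B := by linarith
  have h3 : Qv * (q - A) ≤ 1 * (q - A) := mul_le_mul_of_nonneg_right hQ1 h1
  have h4 : q - A ≤ ((m:ℝ) + 4) * q ^ 2 / 2 := by linarith
  have h5 : ((m:ℝ) + 4) * q ^ 2 / 2 = (((m:ℝ) + 4) * q / 2) * q := by ring
  have h6 : (((m:ℝ) + 4) * q / 2) * q ≤ c₀ * q := mul_le_mul_of_nonneg_right hc1 hq0
  have h7 : 0 ≤ κ * ((q - A) + (q - B)) := by positivity
  rw [hc0] at e
  nlinarith

/-- The integral along a ray with a threshold. -/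
lemma inner_integral (m : ℕ) (ρ ζ κ : ℝ) (hρ0 : 0 < ρ) (hρ1 : ρ ≤ 1) (I : ℝ → ℝ)
    (hI : ∀ τ ∈ Ioc (0:ℝ) 1, I τ = if ρ < τ then τ ^ m * (τ ^ 2 * ζ - κ) else 0) :
    ∫ τ in (0:ℝ)..1, I τ
      = ζ * ((1 - ρ ^ (m + 3)) / ((m:ℝ) + 3)) - κ * ((1 - ρ ^ (m + 1)) / ((m:ℝ) + 1)) := by
  have hm1 : (0:ℝ) < (m:ℝ) + 1 := by positivity
  have hm3 : (0:ℝ) < (m:ℝ) + 3 := by positivity
  rw [intervalIntegral.integral_of_le zero_le_one]
  have e1 : ∫ τ in Ioc (0:ℝ) 1, I τ
      = ∫ τ in Ioc (0:ℝ) 1, (Ioc ρ 1).indicator (fun τ => τ ^ m * (τ ^ 2 * ζ - κ)) τ := by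
    apply setIntegral_congr_fun measurableSet_Ioc
    intro τ hτ
    rw [hI τ hτ]
    by_cases h : ρ < τ
    · have hm : τ ∈ Ioc ρ 1 := ⟨h, hτ.2⟩
      rw [if_pos h, indicator_of_mem hm]
    · have hm : τ ∉ Ioc ρ 1 := fun h2 => h h2.1
      rw [if_neg h, indicator_of_notMem hm]
  rw [e1, setIntegral_indicator measurableSet_Ioc]
  have e2 : Ioc (0:ℝ) 1 ∩ Ioc ρ 1 = Ioc ρ 1 := by
    ext τ
    simp only [mem_inter_iff, mem_Ioc]
    constructor
    · rintro ⟨_, h⟩; exact h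
    · rintro ⟨h1, h2⟩; exact ⟨⟨hρ0.trans h1, h2⟩, h1, h2⟩
  rw [e2, ← intervalIntegral.integral_of_le hρ1]
  have e3 : ∀ τ : ℝ, τ ^ m * (τ ^ 2 * ζ - κ) = ζ * τ ^ (m + 2) - κ * τ ^ m := fun τ => by ring
  simp_rw [e3]
  rw [intervalIntegral.integral_sub (Continuous.intervalIntegrable (by fun_prop) _ _)
    (Continuous.intervalIntegrable (by fun_prop) _ _),
    intervalIntegral.integral_const_mul, intervalIntegral.integral_const_mul,
    integral_pow, integral_pow]
  push_cast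
  have e4 : (m:ℝ) + 2 + 1 = (m:ℝ) + 3 := by ring
  simp only [one_pow, e4]

lemma bary_coneMap_ge (m : ℕ) (τ : ℝ) (hτ : 0 ≤ τ) {y : Fin m → ℝ} (hy : y ∈ stdS m)
    (l : Fin (m+2)) : (1 - τ) / ((m:ℝ) + 2) ≤ bary (coneMap m τ y) l := by
  have hm : (0:ℝ) < (m:ℝ) + 2 := by positivity
  set a := (1 - τ) / ((m:ℝ) + 2) with ha
  have hcm : coneMap m τ y = Fin.cons a (fun i => a + τ * y i) := rfl
  refine Fin.cases ?_ (fun i => ?_) l
  · rw [bary_zero, hcm, sum_cons]
    have e1 : ∑ i, (a + τ * y i) = m * a + τ * ∑ i, y i := by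
      simp [Finset.sum_add_distrib, Finset.mul_sum]
    rw [e1]
    have hτ' : τ = 1 - ((m:ℝ) + 2) * a := by
      rw [ha]; field_simp; ring
    have h2 := hy.2
    have h3 : τ * ∑ i, y i ≤ τ * 1 := mul_le_mul_of_nonneg_left h2 hτ
    nlinarith
  · rw [bary_succ, hcm]
    refine Fin.cases ?_ (fun j => ?_) i
    · simp
    · simp only [Fin.cons_succ]
      have := mul_nonneg hτ (hy.1 j)
      linarith

/-- The first-variation integral over the part of the first cone outside `K` is nonnegative. -/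
theorem cone_inequality (j : ℕ) (K : Set (Fin (j+2) → ℝ)) (hcl : IsClosed K) (hconv : Convex ℝ K)
    (hsub : K ⊆ stdS (j+2)) (ε : ℝ) (hε1 : ε < 1 / ((j:ℝ) + 3))
    (hε : ε ≤ (4 / (((j:ℝ) + 2) * ((j:ℝ) + 3) * ((j:ℝ) + 4) * ((j:ℝ) + 5))) /
      ((1 + 4 / (((j:ℝ) + 2) * ((j:ℝ) + 3) * ((j:ℝ) + 4) * ((j:ℝ) + 5))) * ((j:ℝ) + 3)))
    (hin : ∀ x, (∀ l, ε ≤ bary x l) → x ∈ K)
    (hcontact : (Fin.cons 0 (fun _ => 1 / ((j:ℝ) + 2)) : Fin (j+2) → ℝ) ∈ K) :
    0 ≤ ∫ x in cone0 (j+1), Kᶜ.indicator (fun x => Qf x - 2 / ((j:ℝ) + 3)) x := by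
  have hj3 : (0:ℝ) < (j:ℝ) + 3 := by positivity
  set c : Fin (j+2) → ℝ := fun _ => 1 / ((j:ℝ) + 3) with hc
  set K0 : Set (Fin (j+2) → ℝ) := {z | c + z ∈ K} with hK0
  have hK0cl : IsClosed K0 := hcl.preimage (continuous_const.add continuous_id)
  have hK0conv : Convex ℝ K0 := by
    intro x hx y hy a b ha hb hab
    have := hconv hx hy ha hb hab
    simp only [hK0, mem_ofPred_eq]
    have e : c + (a • x + b • y) = a • (c + x) + b • (c + y) := by
      rw [smul_add, smul_add]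
      have : c = (a + b) • c := by rw [hab, one_smul]
      nth_rw 1 [this]
      rw [add_smul]
      abel
    rw [e]
    exact this
  -- the centre is an interior point
  have hbc : ∀ l, bary c l = 1 / ((j:ℝ) + 3) := by
    intro l
    have := bary_const_center (j+1) l
    simpa [hc, add_assoc, one_add_one_eq_two, show (j:ℝ) + 1 + 2 = (j:ℝ) + 3 by ring] using this
  have hbcont : ∀ l : Fin (j+3), Continuous (fun x : Fin (j+2) → ℝ => bary x l) := by
    intro l
    refine Fin.cases ?_ (fun i => ?_) l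
    · simp only [bary_zero]; fun_prop
    · simp only [bary_succ]; fun_prop
  have hU : IsOpen {x : Fin (j+2) → ℝ | ∀ l, ε < bary x l} := by
    simp only [ofPred_forall]
    exact isOpen_iInter_of_finite fun l => isOpen_lt continuous_const (hbcont l)
  have hcU : c ∈ {x : Fin (j+2) → ℝ | ∀ l, ε < bary x l} := by
    intro l; rw [hbc]; exact hε1
  have hKnhds : K ∈ nhds c := by
    apply Filter.mem_of_superset (hU.mem_nhds hcU)
    intro x hx
    exact hin x fun l => (hx l).le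
  have hK0nhds : K0 ∈ nhds (0 : Fin (j+2) → ℝ) := by
    have hcont : ContinuousAt (fun z : Fin (j+2) → ℝ => c + z) 0 :=
      (continuous_const.add continuous_id).continuousAt
    have : K ∈ nhds ((fun z : Fin (j+2) → ℝ => c + z) 0) := by simpa using hKnhds
    exact hcont this
  set p := gauge K0 with hp
  have hpcont : Continuous p := continuous_gauge hK0conv hK0nhds
  have habs : Absorbent ℝ K0 := absorbent_nhds_zero hK0nhds
  have hpconv : ConvexOn ℝ univ p := by
    refine ⟨convex_univ, fun x _ y _ a b ha hb _ => ?_⟩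
    simp only [smul_eq_mul]
    calc p (a • x + b • y) ≤ p (a • x) + p (b • y) := gauge_add_le hK0conv habs _ _
      _ = a * p x + b * p y := by
        rw [hp, gauge_smul_of_nonneg ha, gauge_smul_of_nonneg hb]; simp
  have hmem : ∀ (τ : ℝ) (z : Fin (j+2) → ℝ), 0 ≤ τ → (c + τ • z ∈ K ↔ τ * p z ≤ 1) := by
    intro τ z hτ
    have h1 : gauge K0 (τ • z) ≤ 1 ↔ τ • z ∈ closure K0 := gauge_le_one_iff_mem_closure hK0conv hK0nhds
    rw [hK0cl.closure_eq, gauge_smul_of_nonneg hτ] at h1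
    simpa [hK0] using h1.symm
  -- the function on the facet
  set zv : (Fin (j+1) → ℝ) → (Fin (j+2) → ℝ) := fun y => coneMap (j+1) 1 y - c with hzv
  have hconeMap : ∀ (τ : ℝ) (y : Fin (j+1) → ℝ), coneMap (j+1) τ y = c + τ • zv y := by
    intro τ y
    funext i
    refine Fin.cases ?_ (fun l => ?_) i
    · simp only [coneMap, hzv, hc, Pi.add_apply, Pi.smul_apply, Pi.sub_apply, Fin.cons_zero, smul_eq_mul]
      push_cast
      field_simp
      ring
    · simp only [coneMap, hzv, hc, Pi.add_apply, Pi.smul_apply, Pi.sub_apply, Fin.cons_succ, smul_eq_mul]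
      push_cast
      field_simp
      ring
  have hzvcont : Continuous zv := by
    apply Continuous.sub _ continuous_const
    have h := coneMap_continuous (j+1)
    exact h.comp (Continuous.prodMk continuous_const continuous_id)
  have hzvaff : ∀ (x y : Fin (j+1) → ℝ) (a b : ℝ), a + b = 1 → zv (a • x + b • y) = a • zv x + b • zv y := by
    intro x y a b hab
    simp only [hzv]
    rw [coneMap_affine _ _ _ _ _ _ hab, smul_sub, smul_sub]
    have : c = (a + b) • c := by rw [hab, one_smul]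
    nth_rw 1 [this]
    rw [add_smul]
    abel
  set P : (Fin (j+1) → ℝ) → ℝ := fun y => p (zv y) with hP
  have hPcont : Continuous P := hpcont.comp hzvcont
  have hPconv : ConvexOn ℝ univ P := convex_comp hpconv zv hzvaff
  -- membership of points on rays
  have hrayK : ∀ (τ : ℝ) (y : Fin (j+1) → ℝ), 0 ≤ τ → (coneMap (j+1) τ y ∈ K ↔ τ * P y ≤ 1) := by
    intro τ y hτ
    rw [hconeMap]
    exact hmem τ (zv y) hτ
  -- P ≥ 1
  have hP1 : ∀ y, 1 ≤ P y := by
    intro y
    by_contra hlt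
    push Not at hlt
    have hP0 : 0 ≤ P y := gauge_nonneg _
    have h1P : 0 < 1 + P y := by linarith
    set τ := 2 / (1 + P y) with hτ
    have hτ1 : 1 < τ := by
      rw [hτ, lt_div_iff₀ h1P]; linarith
    have hτ2 : τ * P y ≤ 1 := by
      rw [hτ, div_mul_eq_mul_div, div_le_iff₀ h1P]; linarith
    have hKm := (hrayK τ y (by linarith)).2 hτ2
    have h3 := (hsub hKm).1 0
    have h4 : coneMap (j+1) τ y 0 = (1 - τ) / (((j+1:ℕ):ℝ) + 2) := by simp [coneMap]
    rw [h4] at h3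
    have h5 : (0:ℝ) < ((j+1:ℕ):ℝ) + 2 := by positivity
    have h6 : (1 - τ) / (((j+1:ℕ):ℝ) + 2) < 0 := div_neg_of_neg_of_pos (by linarith) h5
    linarith
  set δ' : ℝ := 4 / (((j:ℝ) + 2) * ((j:ℝ) + 3) * ((j:ℝ) + 4) * ((j:ℝ) + 5)) with hδ'
  have hδ'0 : 0 < δ' := by positivity
  -- P ≤ 1 + δ' on the simplex
  have hP2 : ∀ y ∈ stdS (j+1), P y ≤ 1 + δ' := by
    intro y hy
    have h1δ : 0 < 1 + δ' := by linarith
    set τ₀ := 1 / (1 + δ') with hτ₀
    have hτ₀0 : 0 < τ₀ := by positivity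
    have hx : coneMap (j+1) τ₀ y ∈ K := by
      apply hin
      intro l
      refine le_trans ?_ (bary_coneMap_ge (j+1) τ₀ hτ₀0.le hy l)
      have e : (1 - τ₀) / (((j+1:ℕ):ℝ) + 2) = δ' / ((1 + δ') * ((j:ℝ) + 3)) := by
        rw [hτ₀]; push_cast; field_simp; ring
      rw [e]
      exact hε
    have h2 := (hrayK τ₀ y hτ₀0.le).1 hx
    rw [hτ₀, one_div, inv_mul_le_iff₀ h1δ] at h2
    linarith
  -- contact
  have hcenter : P (fun _ => 1 / ((j:ℝ) + 2)) = 1 := by
    apply le_antisymm _ (hP1 _)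
    have e : coneMap (j+1) 1 (fun _ => 1 / ((j:ℝ) + 2)) = Fin.cons 0 (fun _ => 1 / ((j:ℝ) + 2)) := by
      funext i
      refine Fin.cases ?_ (fun l => ?_) i
      · simp [coneMap]
      · simp [coneMap]
    have := (hrayK 1 (fun _ => 1 / ((j:ℝ) + 2)) zero_le_one).1 (by rw [e]; exact hcontact)
    simpa using this
  set q : (Fin (j+1) → ℝ) → ℝ := fun y => P y - 1 with hq
  have hqcont : Continuous q := hPcont.sub continuous_const
  have hq0 : ∀ y, 0 ≤ q y := fun y => by simp only [hq]; linarith [hP1 y]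
  have hqconv : ConvexOn ℝ univ q := by
    refine ⟨convex_univ, fun x _ y _ a b ha hb hab => ?_⟩
    have := hPconv.2 (mem_univ x) (mem_univ y) ha hb hab
    simp only [smul_eq_mul, hq] at this ⊢
    have e : a * (P x - 1) + b * (P y - 1) = a * P x + b * P y - (a + b) := by ring
    rw [e, hab]
    linarith
  have hqcenter : q (fun _ => 1 / ((j:ℝ) + 2)) = 0 := by
    simp only [hq, hcenter]; ring
  have hkey := key_lemma j q hqcont hqconv hqcenter
  -- now the integral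
  set γ : (Fin (j+2) → ℝ) → ℝ := fun x => Qf x - 2 / ((j:ℝ) + 3) with hγ
  have hγcont : Continuous γ := Qf_continuous.sub continuous_const
  have hcone_comp : IsCompact (cone0 (j+1)) :=
    (stdS_isCompact _).of_isClosed_subset (cone0_isClosed _) (fun x hx => hx.1)
  have hKcm : MeasurableSet Kᶜ := hcl.measurableSet.compl
  have hFint : IntegrableOn (Kᶜ.indicator γ) (cone0 (j+1)) :=
    (hγcont.continuousOn.integrableOn_compact hcone_comp).indicator hKcm
  rw [integral_cone0 (j+1) _ hFint]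
  apply mul_nonneg (by positivity)
  -- Fubini
  set G : ℝ → (Fin (j+1) → ℝ) → ℝ := fun τ y => τ ^ (j+1) * Kᶜ.indicator γ (coneMap (j+1) τ y) with hG
  have e1 : ∫ τ in (0:ℝ)..1, τ ^ (j+1) * ∫ y in stdS (j+1), Kᶜ.indicator γ (coneMap (j+1) τ y)
      = ∫ τ in Ioc (0:ℝ) 1, ∫ y in stdS (j+1), G τ y := by
    rw [intervalIntegral.integral_of_le zero_le_one]
    apply setIntegral_congr_fun measurableSet_Ioc
    intro τ _
    simp only [hG]
    rw [integral_const_mul]
  rw [e1]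
  have hGint : Integrable (Function.uncurry G)
      ((volume.restrict (Ioc (0:ℝ) 1)).prod (volume.restrict (stdS (j+1)))) := by
    rw [Measure.prod_restrict]
    have hcomp : IsCompact (Icc (0:ℝ) 1 ×ˢ stdS (j+1)) := isCompact_Icc.prod (stdS_isCompact _)
    have hg : Continuous (fun p : ℝ × (Fin (j+1) → ℝ) => p.1 ^ (j+1) * γ (coneMap (j+1) p.1 p.2)) :=
      (continuous_fst.pow _).mul (hγcont.comp (coneMap_continuous (j+1)))
    have h1 : IntegrableOn (fun p : ℝ × (Fin (j+1) → ℝ) => p.1 ^ (j+1) * γ (coneMap (j+1) p.1 p.2))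
        (Ioc (0:ℝ) 1 ×ˢ stdS (j+1)) (volume.prod volume) :=
      (hg.continuousOn.integrableOn_compact hcomp).mono_set
        (prod_mono Ioc_subset_Icc_self subset_rfl)
    have hS : MeasurableSet {p : ℝ × (Fin (j+1) → ℝ) | coneMap (j+1) p.1 p.2 ∉ K} :=
      (hcl.preimage (coneMap_continuous (j+1))).measurableSet.compl
    have h2 := h1.indicator hS
    refine h2.congr_fun ?_ (measurableSet_Ioc.prod (stdS_measurable _))
    intro p _
    by_cases hpK : coneMap (j+1) p.1 p.2 ∈ K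
    · simp [hG, hpK, Function.uncurry, indicator_of_notMem]
    · simp [hG, hpK, Function.uncurry, indicator_of_mem]
  rw [integral_integral_swap hGint]
  -- inner integral and pointwise bound
  refine hkey.trans ?_
  -- the closed form
  set ρ : (Fin (j+1) → ℝ) → ℝ := fun y => 1 / (1 + q y) with hρ
  set J : (Fin (j+1) → ℝ) → ℝ := fun y =>
    (Qf y - 1 / ((j:ℝ) + 3)) * ((1 - ρ y ^ (j + 1 + 3)) / (((j+1:ℕ):ℝ) + 3))
      - 1 / ((j:ℝ) + 3) * ((1 - ρ y ^ (j + 1 + 1)) / (((j+1:ℕ):ℝ) + 1)) with hJ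
  have hρcont : Continuous ρ := by
    apply Continuous.div continuous_const (continuous_const.add hqcont)
    intro y
    exact (by linarith [hq0 y] : 0 < 1 + q y).ne'
  have hJcont : Continuous J := by
    have hQc : Continuous (Qf : (Fin (j+1) → ℝ) → ℝ) := Qf_continuous
    simp only [hJ]
    fun_prop
  have hinner : ∀ y ∈ stdS (j+1), ∫ τ in Ioc (0:ℝ) 1, G τ y = J y := by
    intro y _
    have hq1 : 0 < 1 + q y := by linarith [hq0 y]
    have hρ0 : 0 < ρ y := by simp only [hρ]; positivity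
    have hρ1 : ρ y ≤ 1 := by
      simp only [hρ]
      rw [div_le_one hq1]
      linarith [hq0 y]
    rw [← intervalIntegral.integral_of_le zero_le_one]
    have := inner_integral (j+1) (ρ y) (Qf y - 1 / ((j:ℝ) + 3)) (1 / ((j:ℝ) + 3)) hρ0 hρ1
      (fun τ => G τ y) ?_
    · rw [this]
    · intro τ hτ
      simp only [hG]
      by_cases h : ρ y < τ
      · rw [if_pos h]
        have hnot : coneMap (j+1) τ y ∉ K := by
          intro hmemK
          have h2 := (hrayK τ y hτ.1.le).1 hmemK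
          have h3 : τ * (1 + q y) ≤ 1 := by
            simp only [hq]
            simpa using h2
          have h4 : τ ≤ ρ y := by
            simp only [hρ]
            rw [le_div_iff₀ hq1]
            exact h3
          linarith
        rw [indicator_of_mem (show coneMap (j+1) τ y ∈ Kᶜ from hnot)]
        simp only [hγ]
        rw [Qf_coneMap]
        push_cast
        have e5 : (j:ℝ) + 1 + 2 = (j:ℝ) + 3 := by ring
        rw [e5]
        congr 1
        field_simp
        ring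
      · rw [if_neg h]
        have hin2 : coneMap (j+1) τ y ∈ K := by
          apply (hrayK τ y hτ.1.le).2
          push Not at h
          simp only [hρ] at h
          rw [le_div_iff₀ hq1] at h
          simp only [hq] at h
          simpa using h
        rw [indicator_of_notMem (by simpa using hin2)]
        ring
  have hmono : ∫ y in stdS (j+1), (Qf y - (1 / ((j:ℝ) + 2) + 1 / ((j:ℝ) + 4))) * q y
      ≤ ∫ y in stdS (j+1), ∫ τ in Ioc (0:ℝ) 1, G τ y := by
    rw [setIntegral_congr_fun (stdS_measurable _) hinner]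
    apply setIntegral_mono_on
    · exact integrableOn_stdS ((Qf_continuous.sub continuous_const).mul hqcont)
    · exact integrableOn_stdS hJcont
    · exact stdS_measurable _
    · intro y hy
      have hq' := hP2 y hy
      have h0 := pointwise_real (j+1) (q y) (Qf y) (hq0 y) ?_ (Qf_le_one hy)
      · simp only [hJ, hρ]
        push_cast at h0 ⊢
        have e6 : (j:ℝ) + 1 + 1 = (j:ℝ) + 2 := by ring
        have e7 : (j:ℝ) + 1 + 3 = (j:ℝ) + 4 := by ring
        have e8 : (j:ℝ) + 1 + 2 = (j:ℝ) + 3 := by ring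
        simp only [e6, e7, e8] at h0 ⊢
        exact h0
      · simp only [hq]
        push_cast
        have e9 : ((j:ℝ) + 1 + 1) * ((j:ℝ) + 1 + 2) * ((j:ℝ) + 1 + 3) * ((j:ℝ) + 1 + 4)
            = ((j:ℝ) + 2) * ((j:ℝ) + 3) * ((j:ℝ) + 4) * ((j:ℝ) + 5) := by ring
        rw [e9]
        linarith
  exact hmono

end Vale.Agent.Lib.P254
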