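import Mathlib
import Vale.Agent.Lib.P254.Cone

/-! Moments of the standard simplex and its covariance matrix. -/

open MeasureTheory Set

namespace Vale.Agent.Lib.P254

variable {n : ℕ}

lemma bary_continuous (l : Fin (n+1)) : Continuous (fun x : Fin n → ℝ => bary x l) := by
  refine Fin.cases ?_ (fun i => ?_) l
  · simp only [bary_zero]; fun_prop
  · simp only [bary_succ]; fun_prop

/-- A continuous function of one barycentric coordinate has the same integral as the same function
of the first coordinate. -/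
lemma integral_bary_eq {m : ℕ} (g : ℝ → ℝ) (i : Fin (m+2)) :
    ∫ x in stdS (m+1), g (bary x i) = ∫ x in stdS (m+1), g (x 0) := by
  rw [← integral_stdS_permMap (Equiv.swap i 1) (fun x : Fin (m+1) → ℝ => g (x 0))]
  apply setIntegral_congr_fun (stdS_measurable _)
  intro x _
  simp only
  congr 1
  have h : bary (permMap (Equiv.swap i 1) x) (Fin.succ 0) = bary x (Equiv.swap i 1 (Fin.succ 0)) :=
    bary_permMap _ x _
  simp only [bary_succ] at h
  rw [h]
  congr 1
  have : (Fin.succ 0 : Fin (m+2)) = 1 := rfl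
  rw [this]
  simp

lemma integral_first {m : ℕ} (g : ℝ → ℝ) (hg : Continuous g) :
    ∫ x in stdS (m+1), g (x 0) = volS m * ∫ t in (0:ℝ)..1, (1 - t) ^ m * g t := by
  have hc : Continuous (fun x : Fin (m+1) → ℝ => g (x 0)) := hg.comp (continuous_apply 0)
  rw [integral_stdS_succ m _ (integrableOn_stdS hc)]
  simp only [Fin.cons_zero]
  have : ∀ t : ℝ, (1 - t) ^ m * ∫ _y in stdS m, g t = volS m * ((1 - t) ^ m * g t) := by
    intro t
    rw [integral_const_stdS]
    ring
  simp_rw [this]
  rw [intervalIntegral.integral_const_mul]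

/-- The mean of a barycentric coordinate. -/
lemma integral_bary (m : ℕ) (i : Fin (m+2)) :
    ∫ x in stdS (m+1), bary x i = volS (m+1) / ((m:ℝ) + 2) := by
  have h := integral_bary_eq (m := m) (fun t => t) i
  rw [h, integral_first (fun t => t) continuous_id, volS_succ]
  have : ∀ t : ℝ, (1 - t) ^ m * t = t * (1 - t) ^ m := fun t => by ring
  simp_rw [this]
  rw [beta1]
  have : (m:ℝ) + 1 ≠ 0 := by positivity
  field_simp

/-- The second moment of a barycentric coordinate. -/
lemma integral_bary_sq (m : ℕ) (i : Fin (m+2)) :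
    ∫ x in stdS (m+1), (bary x i) ^ 2 = 2 * volS (m+1) / (((m:ℝ) + 2) * ((m:ℝ) + 3)) := by
  have h := integral_bary_eq (m := m) (fun t => t ^ 2) i
  rw [h, integral_first (fun t => t ^ 2) (by fun_prop), volS_succ]
  have : ∀ t : ℝ, (1 - t) ^ m * t ^ 2 = t ^ 2 * (1 - t) ^ m := fun t => by ring
  simp_rw [this]
  rw [beta2]
  have : (m:ℝ) + 1 ≠ 0 := by positivity
  field_simp

/-- The integral of `Q` over the simplex. -/
lemma integral_Qf (n : ℕ) : ∫ x in stdS n, Qf x = 2 / ((n:ℝ) + 2) * volS n := by
  cases n with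
  | zero =>
    have : ∀ x : Fin 0 → ℝ, Qf x = 1 := by
      intro x; rw [Qf_eq]; simp
    simp_rw [this]
    rw [integral_const_stdS]
    simp
  | succ m =>
    simp only [Qf]
    have hi : ∀ i : Fin (m+2), IntegrableOn (fun x : Fin (m+1) → ℝ => bary x i ^ 2) (stdS (m+1)) :=
      fun i => integrableOn_stdS ((bary_continuous i).pow 2)
    rw [integral_finsetSum _ (fun i _ => hi i)]
    simp_rw [integral_bary_sq m]
    simp only [Finset.sum_const, Finset.card_univ, Fintype.card_fin, nsmul_eq_mul]
    push_cast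
    have h2 : (m:ℝ) + 2 ≠ 0 := by positivity
    have h3 : (m:ℝ) + 3 ≠ 0 := by positivity
    have h4 : (m:ℝ) + 1 + 2 ≠ 0 := by positivity
    field_simp
    ring

/-- The mixed moment of two barycentric coordinates: all of them are equal. -/
lemma integral_bary_mul_swap (m : ℕ) (i j l : Fin (m+2)) (hij : i ≠ j) (hil : i ≠ l) :
    ∫ x in stdS (m+1), bary x i * bary x j = ∫ x in stdS (m+1), bary x i * bary x l := by
  rw [← integral_stdS_permMap (Equiv.swap j l) (fun x : Fin (m+1) → ℝ => bary x i * bary x l)]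
  apply setIntegral_congr_fun (stdS_measurable _)
  intro x _
  simp only [bary_permMap]
  rw [Equiv.swap_apply_of_ne_of_ne hij hil, Equiv.swap_apply_right]

lemma integral_bary_mul (m : ℕ) (i j : Fin (m+2)) (hij : i ≠ j) :
    ∫ x in stdS (m+1), bary x i * bary x j
      = volS (m+1) / (((m:ℝ) + 2) * ((m:ℝ) + 3)) := by
  have hs : ∀ x : Fin (m+1) → ℝ, bary x i = bary x i * ∑ l, bary x l := by
    intro x; rw [sum_bary, mul_one]
  have h1 : ∫ x in stdS (m+1), bary x i = ∑ l, ∫ x in stdS (m+1), bary x i * bary x l := by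
    have hi : ∀ l : Fin (m+2), IntegrableOn (fun x : Fin (m+1) → ℝ => bary x i * bary x l)
        (stdS (m+1)) := fun l => integrableOn_stdS ((bary_continuous i).mul (bary_continuous l))
    rw [← integral_finsetSum _ (fun l _ => hi l)]
    apply setIntegral_congr_fun (stdS_measurable _)
    intro x _
    simp only
    rw [← Finset.mul_sum, sum_bary, mul_one]
  rw [integral_bary] at h1
  have h2 : ∑ l, ∫ x in stdS (m+1), bary x i * bary x l
      = (∫ x in stdS (m+1), (bary x i) ^ 2)
        + ((m:ℝ) + 1) * ∫ x in stdS (m+1), bary x i * bary x j := by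
    rw [← Finset.add_sum_erase Finset.univ _ (Finset.mem_univ i)]
    congr 1
    · apply setIntegral_congr_fun (stdS_measurable _)
      intro x _
      simp only
      ring
    · rw [Finset.sum_congr rfl (fun l hl => (integral_bary_mul_swap m i j l hij
        (Finset.ne_of_mem_erase hl).symm).symm)]
      simp only [Finset.sum_const, nsmul_eq_mul]
      rw [Finset.card_erase_of_mem (Finset.mem_univ i)]
      simp
  rw [h2, integral_bary_sq] at h1
  have hm1 : (m:ℝ) + 1 ≠ 0 := by positivity
  have hm2 : (m:ℝ) + 2 ≠ 0 := by positivity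
  have hm3 : (m:ℝ) + 3 ≠ 0 := by positivity
  have : ((m:ℝ) + 1) * ∫ x in stdS (m+1), bary x i * bary x j
      = ((m:ℝ) + 1) * (volS (m+1) / (((m:ℝ) + 2) * ((m:ℝ) + 3))) := by
    rw [eq_sub_of_add_eq' h1.symm]
    field_simp
    ring
  exact mul_left_cancel₀ hm1 this

end Vale.Agent.Lib.P254
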