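import Mathlib
import Vale.Agent.Lib.P254.Moments

/-! The trace-determinant inequality and the comparison with the simplex. -/

open MeasureTheory Set

namespace Vale.Agent.Lib.P254

variable {n : ℕ}

/-- Arithmetic-geometric mean inequality for positive semidefinite matrices. -/
lemma det_le_trace_pow (M : Matrix (Fin n) (Fin n) ℝ) (hM : M.PosSemidef) (hn : 0 < n) :
    M.det ≤ (M.trace / n) ^ n := by
  classical
  have hH := hM.1
  have hl : ∀ i, 0 ≤ hH.eigenvalues i := hM.eigenvalues_nonneg
  have hdet : M.det = ∏ i, hH.eigenvalues i := by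
    simpa using hH.det_eq_prod_eigenvalues
  have htr : M.trace = ∑ i, hH.eigenvalues i := by
    simpa using hH.trace_eq_sum_eigenvalues
  rw [hdet, htr]
  have hn' : (0:ℝ) < n := by exact_mod_cast hn
  have h := Real.geom_mean_le_arith_mean Finset.univ (fun _ : Fin n => (1:ℝ)) hH.eigenvalues
    (fun _ _ => zero_le_one) (by simpa using hn') (fun i _ => hl i)
  simp only [Real.rpow_one, Finset.sum_const, Finset.card_univ, Fintype.card_fin, nsmul_eq_mul,
    mul_one, one_mul] at h
  have hP : 0 ≤ ∏ i, hH.eigenvalues i := Finset.prod_nonneg fun i _ => hl i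
  have h2 := pow_le_pow_left₀ (Real.rpow_nonneg hP _) h n
  rwa [← Real.rpow_natCast, ← Real.rpow_mul hP, inv_mul_cancel₀ hn'.ne', Real.rpow_one] at h2

/-- The trace-determinant inequality relative to a positive definite matrix written as `Rᵀ R`. -/
lemma det_le_of_inverse (A N R : Matrix (Fin n) (Fin n) ℝ)
    (hAB : A * (R.transpose * R) = 1) (hN : N.PosSemidef) (hn : 0 < n) :
    0 < A.det ∧ 0 ≤ (R.transpose * R * N).trace ∧
      N.det ≤ A.det * ((R.transpose * R * N).trace / n) ^ n := by
  have hdet : A.det * (R.det * R.det) = 1 := by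
    have := congrArg Matrix.det hAB
    simpa [Matrix.det_mul] using this
  have hApos : 0 < A.det := by
    by_contra hle
    push Not at hle
    have h2 : 0 ≤ R.det * R.det := mul_self_nonneg _
    have := mul_nonpos_of_nonpos_of_nonneg hle h2
    linarith
  have hM : (R * N * R.transpose).PosSemidef := by
    have := hN.mul_mul_conjTranspose_same R
    simpa using this
  have htr : (R * N * R.transpose).trace = (R.transpose * R * N).trace := by
    rw [Matrix.trace_mul_comm, ← Matrix.mul_assoc]
  have hd : (R * N * R.transpose).det = R.det * R.det * N.det := by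
    simp [Matrix.det_mul]; ring
  have h1 := det_le_trace_pow _ hM hn
  rw [htr, hd] at h1
  refine ⟨hApos, ?_, ?_⟩
  · rw [← htr]; exact hM.trace_nonneg
  · calc N.det = A.det * (R.det * R.det) * N.det := by rw [hdet, one_mul]
      _ = A.det * (R.det * R.det * N.det) := by ring
      _ ≤ _ := mul_le_mul_of_nonneg_left h1 hApos.le

/-- Bernoulli inequality in the form needed. -/
lemma bernoulli_key (n : ℕ) (hn : 0 < n) (ρ : ℝ) (h0 : 0 ≤ ρ) (h1 : ρ < 1)
    (h2 : 0 ≤ 1 - ((n:ℝ) + 2) / n * ρ) :
    (1 - ((n:ℝ) + 2) / n * ρ) ^ n ≤ (1 - ρ) ^ (n + 2) := by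
  have hn' : (0:ℝ) < n := by exact_mod_cast hn
  have hp : (1:ℝ) ≤ ((n:ℝ) + 2) / n := by
    rw [le_div_iff₀ hn']; linarith
  have h3 := one_add_mul_self_le_rpow_one_add (s := -ρ) (by linarith) hp
  have e : 1 + ((n:ℝ) + 2) / n * -ρ = 1 - ((n:ℝ) + 2) / n * ρ := by ring
  have e' : 1 + -ρ = 1 - ρ := by ring
  rw [e, e'] at h3
  have h4 := pow_le_pow_left₀ h2 h3 n
  have hb : 0 ≤ 1 - ρ := by linarith
  rw [← Real.rpow_natCast (_ ^ _) n, ← Real.rpow_mul hb, div_mul_cancel₀ _ hn'.ne'] at h4
  have e2 : ((n:ℝ) + 2) = ((n + 2 : ℕ) : ℝ) := by push_cast; ring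
  rw [e2, Real.rpow_natCast] at h4
  simpa using h4

/-- Strict form of the Bernoulli inequality. -/
lemma bernoulli_key_lt (n : ℕ) (hn : 0 < n) (ρ : ℝ) (h0 : 0 < ρ) (h1 : ρ < 1)
    (h2 : 0 ≤ 1 - ((n:ℝ) + 2) / n * ρ) :
    (1 - ((n:ℝ) + 2) / n * ρ) ^ n < (1 - ρ) ^ (n + 2) := by
  have hn' : (0:ℝ) < n := by exact_mod_cast hn
  have hp : (1:ℝ) < ((n:ℝ) + 2) / n := by
    rw [lt_div_iff₀ hn']; linarith
  have h3 := one_add_mul_self_lt_rpow_one_add (s := -ρ) (by linarith) (by linarith) hp
  have e : 1 + ((n:ℝ) + 2) / n * -ρ = 1 - ((n:ℝ) + 2) / n * ρ := by ring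
  have e' : 1 + -ρ = 1 - ρ := by ring
  rw [e, e'] at h3
  have h4 := pow_lt_pow_left₀ h3 h2 hn.ne'
  have hb : 0 ≤ 1 - ρ := by linarith
  rw [← Real.rpow_natCast (_ ^ _) n, ← Real.rpow_mul hb, div_mul_cancel₀ _ hn'.ne'] at h4
  have e2 : ((n:ℝ) + 2) = ((n + 2 : ℕ) : ℝ) := by push_cast; ring
  rw [e2, Real.rpow_natCast] at h4
  simpa using h4

lemma vol_eq_integral (K : Set (Fin n → ℝ)) : vol K = ∫ _x in K, (1:ℝ) := by
  simp [vol, Measure.real]

lemma vol_stdS (n : ℕ) : vol (stdS n) = volS n := (vol_eq_integral _).trans rfl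

/-- A continuous function is integrable on a compact set. -/
lemma integrableOn_of_compact {K : Set (Fin n → ℝ)} (hK : IsCompact K) {f : (Fin n → ℝ) → ℝ}
    (hf : Continuous f) : IntegrableOn f K :=
  hf.continuousOn.integrableOn_compact hK

lemma integral_coord_eq {K : Set (Fin n → ℝ)} (hV : vol K ≠ 0) (i : Fin n) :
    ∫ x in K, x i = vol K * centroid K i := by
  rw [centroid, ← mul_assoc, mul_inv_cancel₀ hV, one_mul]

lemma integral_expand {K : Set (Fin n → ℝ)} (hK : IsCompact K) {f g h : (Fin n → ℝ) → ℝ}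
    (hf : Continuous f) (hg : Continuous g) (hh : Continuous h) (a b c : ℝ) :
    ∫ x in K, (f x - a * g x - b * h x + c)
      = (∫ x in K, f x) - a * (∫ x in K, g x) - b * (∫ x in K, h x) + c * vol K := by
  have h1 : IntegrableOn (fun x => f x - a * g x - b * h x) K :=
    integrableOn_of_compact hK (by fun_prop)
  have h2 : IntegrableOn (fun x => f x - a * g x) K := integrableOn_of_compact hK (by fun_prop)
  have h3 : IntegrableOn (fun x => b * h x) K := integrableOn_of_compact hK (by fun_prop)
  have h4 : IntegrableOn (fun x => a * g x) K := integrableOn_of_compact hK (by fun_prop)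
  have h5 : IntegrableOn f K := integrableOn_of_compact hK hf
  have h6 : IntegrableOn (fun _ : Fin n → ℝ => c) K := integrableOn_of_compact hK continuous_const
  rw [integral_add h1 h6, integral_sub h2 h3, integral_sub h5 h4, integral_const_mul,
    integral_const_mul]
  congr 1
  rw [vol_eq_integral]
  simp [mul_comm]

/-- The entries of the covariance matrix. -/
lemma covMat_eq {K : Set (Fin n → ℝ)} (hK : IsCompact K) (hV : vol K ≠ 0) (i j : Fin n) :
    covMat K i j = (vol K)⁻¹ * (∫ x in K, x i * x j) - centroid K i * centroid K j := by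
  simp only [covMat, Matrix.of_apply]
  have hci : Continuous (fun x : Fin n → ℝ => x i) := continuous_apply i
  have hcj : Continuous (fun x : Fin n → ℝ => x j) := continuous_apply j
  have e : ∀ x : Fin n → ℝ, (x i - centroid K i) * (x j - centroid K j)
      = x i * x j - centroid K j * x i - centroid K i * x j + centroid K i * centroid K j := by
    intro x; ring
  simp_rw [e]
  have hcij : Continuous (fun x : Fin n → ℝ => x i * x j) := hci.mul hcj
  rw [integral_expand hK hcij hci hcj, integral_coord_eq hV, integral_coord_eq hV]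
  field_simp
  ring

/-- The covariance matrix is positive semidefinite. -/
lemma covMat_posSemidef {K : Set (Fin n → ℝ)} (hK : IsCompact K) : (covMat K).PosSemidef := by
  refine Matrix.PosSemidef.of_dotProduct_mulVec_nonneg ?_ ?_
  · apply Matrix.IsHermitian.ext
    intro i j
    simp only [covMat, Matrix.of_apply, star_trivial]
    congr 2
    funext x
    ring
  · intro v
    have hVinv : 0 ≤ (vol K)⁻¹ := inv_nonneg.2 ENNReal.toReal_nonneg
    set b := centroid K with hb
    have hg : ∀ i j : Fin n, IntegrableOn (fun z : Fin n → ℝ => v i * (z i - b i) * ((z j - b j) * v j)) K :=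
      fun i j => integrableOn_of_compact hK (by fun_prop)
    have hg2 : ∀ i : Fin n, IntegrableOn (fun z : Fin n → ℝ => ∑ j, v i * (z i - b i) * ((z j - b j) * v j)) K :=
      fun i => integrableOn_of_compact hK (by fun_prop)
    have hkey : star v ⬝ᵥ (covMat K).mulVec v
        = (vol K)⁻¹ * ∫ z in K, (∑ i, v i * (z i - b i)) ^ 2 := by
      have e1 : ∀ z : Fin n → ℝ, (∑ i, v i * (z i - b i)) ^ 2
          = ∑ i, ∑ j, v i * (z i - b i) * ((z j - b j) * v j) := by
        intro z
        rw [sq, Finset.sum_mul_sum]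
        refine Finset.sum_congr rfl fun i _ => Finset.sum_congr rfl fun j _ => ?_
        ring
      simp_rw [e1]
      rw [integral_finsetSum _ (fun i _ => hg2 i), Finset.mul_sum]
      simp only [dotProduct, Matrix.mulVec, star_trivial, Pi.star_apply]
      refine Finset.sum_congr rfl fun i _ => ?_
      rw [integral_finsetSum _ (fun j _ => hg i j), Finset.mul_sum, Finset.mul_sum]
      refine Finset.sum_congr rfl fun j _ => ?_
      simp only [covMat, Matrix.of_apply]
      have e2 : ∀ z : Fin n → ℝ, v i * (z i - b i) * ((z j - b j) * v j)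
          = (v i * v j) * ((z i - b i) * (z j - b j)) := fun z => by ring
      simp_rw [e2]
      rw [integral_const_mul]
      ring
    rw [hkey]
    apply mul_nonneg hVinv
    exact integral_nonneg fun z => sq_nonneg _

end Vale.Agent.Lib.P254
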