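import Mathlib
import Vale.Agent.Lib.P254.AMGM

/-! The comparison of a subset of the simplex with the simplex itself. -/

open MeasureTheory Set

namespace Vale.Agent.Lib.P254

lemma vol_stdS_ne (n : ℕ) : vol (stdS n) ≠ 0 := by
  rw [vol_stdS]; exact (volS_pos n).ne'

lemma integral_coord_stdS (m : ℕ) (i : Fin (m+1)) :
    ∫ x in stdS (m+1), x i = volS (m+1) / ((m:ℝ) + 2) :=
  integral_bary m i.succ

lemma centroid_stdS (m : ℕ) (i : Fin (m+1)) : centroid (stdS (m+1)) i = 1 / ((m:ℝ) + 2) := by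
  rw [centroid, integral_coord_stdS, vol_stdS]
  have := (volS_pos (m+1)).ne'
  field_simp

lemma integral_coord_mul_stdS (m : ℕ) (i j : Fin (m+1)) :
    ∫ x in stdS (m+1), x i * x j
      = (if i = j then 2 else 1) * volS (m+1) / (((m:ℝ) + 2) * ((m:ℝ) + 3)) := by
  by_cases h : i = j
  · subst h
    have := integral_bary_sq m i.succ
    simp only [bary_succ] at this
    rw [if_pos rfl, ← this]
    congr 1
    funext x
    ring
  · have := integral_bary_mul m i.succ j.succ (by simpa using h)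
    simp only [bary_succ] at this
    rw [if_neg h, this]
    ring

lemma covMat_stdS (m : ℕ) (i j : Fin (m+1)) :
    covMat (stdS (m+1)) i j
      = ((if i = j then (m:ℝ) + 2 else 0) - 1) / (((m:ℝ) + 2) ^ 2 * ((m:ℝ) + 3)) := by
  have hm2 : (m:ℝ) + 2 ≠ 0 := by positivity
  have hm3 : (m:ℝ) + 3 ≠ 0 := by positivity
  have hV := (volS_pos (m+1)).ne'
  rw [covMat_eq (stdS_isCompact _) (vol_stdS_ne _), integral_coord_mul_stdS, vol_stdS,
    centroid_stdS, centroid_stdS]
  by_cases h : i = j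
  · simp only [if_pos h]
    field_simp
    ring
  · simp only [if_neg h]
    field_simp
    ring

/-- The inverse of the covariance matrix of the simplex, up to the factor. -/
noncomputable def Bmat (m : ℕ) : Matrix (Fin (m+1)) (Fin (m+1)) ℝ :=
  Matrix.of fun i j => ((m:ℝ) + 2) * ((m:ℝ) + 3) * ((if i = j then 1 else 0) + 1)

noncomputable def Rmat (m : ℕ) : Matrix (Fin (m+1)) (Fin (m+1)) ℝ :=
  Matrix.of fun i j => Real.sqrt (((m:ℝ) + 2) * ((m:ℝ) + 3)) *
    ((if i = j then 1 else 0) + (Real.sqrt ((m:ℝ) + 2) - 1) / ((m:ℝ) + 1))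

lemma Rmat_sq (m : ℕ) : (Rmat m).transpose * Rmat m = Bmat m := by
  have hm1 : (m:ℝ) + 1 ≠ 0 := by positivity
  have hq : Real.sqrt ((m:ℝ) + 2) ^ 2 = (m:ℝ) + 2 := Real.sq_sqrt (by positivity)
  have hs : Real.sqrt (((m:ℝ) + 2) * ((m:ℝ) + 3)) ^ 2 = ((m:ℝ) + 2) * ((m:ℝ) + 3) :=
    Real.sq_sqrt (by positivity)
  ext i j
  simp only [Matrix.mul_apply, Matrix.transpose_apply, Rmat, Bmat, Matrix.of_apply]
  set s := Real.sqrt (((m:ℝ) + 2) * ((m:ℝ) + 3))
  set q := Real.sqrt ((m:ℝ) + 2)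
  set β := (q - 1) / ((m:ℝ) + 1) with hβ
  have hβ2 : ((m:ℝ) + 1) * β ^ 2 + 2 * β = 1 := by
    rw [hβ]
    field_simp
    nlinarith
  have e1 : ∀ l : Fin (m+1), s * ((if l = i then 1 else 0) + β) * (s * ((if l = j then 1 else 0) + β))
      = s ^ 2 * ((if l = i then 1 else 0) * (if l = j then 1 else 0)
        + β * (if l = i then 1 else 0) + β * (if l = j then 1 else 0) + β ^ 2) := fun l => by ring
  simp_rw [e1]
  rw [← Finset.mul_sum, Finset.sum_add_distrib, Finset.sum_add_distrib, Finset.sum_add_distrib,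
    ← Finset.mul_sum, ← Finset.mul_sum]
  simp only [Finset.sum_ite_eq', Finset.mem_univ, if_true, Finset.sum_const, Finset.card_univ,
    Fintype.card_fin, nsmul_eq_mul, ite_mul, one_mul, zero_mul]
  rw [hs]
  push_cast
  by_cases h : i = j
  · simp only [if_pos h]
    congr 1
    linarith
  · simp only [if_neg h, if_neg (Ne.symm h)]
    congr 1
    linarith

lemma cov_mul_Bmat (m : ℕ) : covMat (stdS (m+1)) * Bmat m = 1 := by
  have hm2 : (m:ℝ) + 2 ≠ 0 := by positivity
  have hm3 : (m:ℝ) + 3 ≠ 0 := by positivity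
  ext i j
  simp only [Matrix.mul_apply, covMat_stdS, Bmat, Matrix.of_apply]
  have e1 : ∀ l : Fin (m+1), ((if i = l then (m:ℝ) + 2 else 0) - 1) / (((m:ℝ) + 2) ^ 2 * ((m:ℝ) + 3))
        * (((m:ℝ) + 2) * ((m:ℝ) + 3) * ((if l = j then 1 else 0) + 1))
      = (1 / ((m:ℝ) + 2)) * (((m:ℝ) + 2) * ((if i = l then 1 else 0) * (if l = j then 1 else 0))
        + ((m:ℝ) + 2) * (if i = l then 1 else 0) - (if l = j then 1 else 0) - 1) := by
    intro l
    have e0 : (if i = l then (m:ℝ) + 2 else 0) = ((m:ℝ) + 2) * (if i = l then 1 else 0) := by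
      split_ifs <;> simp
    rw [e0]
    generalize (if i = l then (1:ℝ) else 0) = u
    generalize (if l = j then (1:ℝ) else 0) = v
    field_simp
    ring
  simp_rw [e1]
  rw [← Finset.mul_sum, Finset.sum_sub_distrib, Finset.sum_sub_distrib, Finset.sum_add_distrib,
    ← Finset.mul_sum, ← Finset.mul_sum]
  simp only [Finset.sum_ite_eq, Finset.sum_ite_eq', Finset.mem_univ, if_true, Finset.sum_const,
    Finset.card_univ, Fintype.card_fin, nsmul_eq_mul, ite_mul, one_mul, zero_mul, mul_one]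
  push_cast
  by_cases h : i = j
  · subst h
    simp only [if_true, Matrix.one_apply_eq]
    field_simp
    ring
  · rw [Matrix.one_apply_ne h]
    simp only [if_neg h]
    field_simp
    ring

/-- The trace bound. -/
lemma trace_bound (m : ℕ) {K : Set (Fin (m+1) → ℝ)} (hK : IsCompact K) (hV : vol K ≠ 0) :
    (Bmat m * covMat K).trace
      ≤ ((m:ℝ) + 2) * ((m:ℝ) + 3) * ((vol K)⁻¹ * (∫ x in K, Qf x) - 1 / ((m:ℝ) + 2)) := by
  have hm2 : (m:ℝ) + 2 ≠ 0 := by positivity
  have hm3 : (0:ℝ) < (m:ℝ) + 3 := by positivity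
  have hprod : (0:ℝ) < ((m:ℝ) + 2) * ((m:ℝ) + 3) := by positivity
  set b := centroid K with hb
  set V := vol K with hVdef
  -- the two sums
  have hQ : ∀ x : Fin (m+1) → ℝ, Qf x = 1 - 2 * ∑ i, x i + ∑ i, ∑ j, x i * x j + ∑ i, x i * x i := by
    intro x
    rw [Qf_eq, ← Finset.sum_mul_sum]
    simp only [sq]
    ring
  have hi : ∀ i j : Fin (m+1), IntegrableOn (fun x : Fin (m+1) → ℝ => x i * x j) K :=
    fun i j => integrableOn_of_compact hK (by fun_prop)
  have hci : ∀ i : Fin (m+1), IntegrableOn (fun x : Fin (m+1) → ℝ => x i) K :=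
    fun i => integrableOn_of_compact hK (by fun_prop)
  have h1 : ∫ x in K, ∑ i, ∑ j, x i * x j = ∑ i, ∑ j, ∫ x in K, x i * x j := by
    rw [integral_finsetSum _ (fun i _ => integrableOn_of_compact hK (by fun_prop))]
    refine Finset.sum_congr rfl fun i _ => ?_
    rw [integral_finsetSum _ (fun j _ => hi i j)]
  have h2 : ∫ x in K, ∑ i, x i * x i = ∑ i, ∫ x in K, x i * x i := by
    rw [integral_finsetSum _ (fun i _ => hi i i)]
  have h3 : ∫ x in K, ∑ i, x i = ∑ i, V * b i := by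
    rw [integral_finsetSum _ (fun i _ => hci i)]
    exact Finset.sum_congr rfl fun i _ => integral_coord_eq hV i
  have hIQ : ∫ x in K, Qf x
      = V - 2 * ∑ i, V * b i + ∑ i, ∑ j, (∫ x in K, x i * x j) + ∑ i, ∫ x in K, x i * x i := by
    simp_rw [hQ]
    rw [integral_add (integrableOn_of_compact hK (by fun_prop)) (integrableOn_of_compact hK (by fun_prop)),
      integral_add (integrableOn_of_compact hK (by fun_prop)) (integrableOn_of_compact hK (by fun_prop)),
      integral_sub (integrableOn_of_compact hK (by fun_prop)) (integrableOn_of_compact hK (by fun_prop)),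
      integral_const_mul, h1, h2, h3, hVdef, vol_eq_integral]
  have htr : (Bmat m * covMat K).trace = ((m:ℝ) + 2) * ((m:ℝ) + 3) *
      (∑ i, covMat K i i + ∑ i, ∑ j, covMat K i j) := by
    simp only [Matrix.trace, Matrix.diag, Matrix.mul_apply, Bmat, Matrix.of_apply]
    rw [← Finset.sum_add_distrib, Finset.mul_sum]
    refine Finset.sum_congr rfl fun i _ => ?_
    have : ∀ l, ((m:ℝ) + 2) * ((m:ℝ) + 3) * ((if i = l then 1 else 0) + 1) * covMat K l i
        = ((m:ℝ) + 2) * ((m:ℝ) + 3) * ((if i = l then 1 else 0) * covMat K l i + covMat K l i) := by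
      intro l; ring
    simp_rw [this]
    rw [← Finset.mul_sum, Finset.sum_add_distrib]
    congr 2
    · simp
    · have hsym : ∀ l, covMat K l i = covMat K i l := by
        intro l
        simp only [covMat, Matrix.of_apply]
        congr 2
        funext x
        ring
      simp_rw [hsym]
  rw [htr]
  apply mul_le_mul_of_nonneg_left _ hprod.le
  simp_rw [covMat_eq hK hV]
  rw [hIQ]
  -- expansion
  have hsum : ∑ i, ((vol K)⁻¹ * (∫ x in K, x i * x i) - b i * b i)
      + ∑ i, ∑ j, ((vol K)⁻¹ * (∫ x in K, x i * x j) - b i * b j)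
      = V⁻¹ * (∑ i, ∑ j, (∫ x in K, x i * x j) + ∑ i, ∫ x in K, x i * x i)
        - (∑ i, b i * b i + ∑ i, ∑ j, b i * b j) := by
    simp only [Finset.sum_sub_distrib, ← Finset.mul_sum, mul_add]
    rw [← hVdef]
    ring
  rw [hsum]
  have e2 : V⁻¹ * (V - 2 * ∑ i, V * b i + ∑ i, ∑ j, (∫ x in K, x i * x j) + ∑ i, ∫ x in K, x i * x i)
      = 1 - 2 * ∑ i, b i + V⁻¹ * (∑ i, ∑ j, (∫ x in K, x i * x j) + ∑ i, ∫ x in K, x i * x i) := by
    rw [← Finset.mul_sum]
    field_simp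
    ring
  rw [e2]
  set S := ∑ i, b i with hS
  set S2 := ∑ i, b i * b i with hS2
  have hSS : ∑ i, ∑ j, b i * b j = S * S := by
    rw [hS, Finset.sum_mul_sum]
  rw [hSS]
  -- the square
  set a := 1 / ((m:ℝ) + 2) with ha
  have hsq : 0 ≤ ∑ i, (b i - a) * (b i - a) + (S - ((m:ℝ) + 1) * a) ^ 2 :=
    add_nonneg (Finset.sum_nonneg fun i _ => mul_self_nonneg _) (sq_nonneg _)
  have e3 : ∑ i, (b i - a) * (b i - a) = S2 - 2 * a * S + ((m:ℝ) + 1) * a ^ 2 := by
    have : ∀ i, (b i - a) * (b i - a) = b i * b i - 2 * a * b i + a ^ 2 := fun i => by ring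
    simp_rw [this]
    rw [Finset.sum_add_distrib, Finset.sum_sub_distrib, ← Finset.mul_sum]
    simp only [Finset.sum_const, Finset.card_univ, Fintype.card_fin, nsmul_eq_mul]
    push_cast
    rfl
  rw [e3] at hsq
  have e4 : ((m:ℝ) + 2) * a = 1 := by rw [ha]; field_simp
  have e5 : S2 - 2 * a * S + ((m:ℝ) + 1) * a ^ 2 + (S - ((m:ℝ) + 1) * a) ^ 2
      = S2 + S * S - 2 * S * (((m:ℝ) + 2) * a) + (((m:ℝ) + 1) * a) * (((m:ℝ) + 2) * a) := by ring
  rw [e5, e4] at hsq
  have e6 : ((m:ℝ) + 1) * a = 1 - a := by linarith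
  rw [e6] at hsq
  linarith

/-- The main comparison: if the first variation integral is nonnegative, then the determinant ratio
of `K` is at most that of the simplex, with equality only when the volumes agree. -/
theorem main_ineq (m : ℕ) {K : Set (Fin (m+1) → ℝ)} (hK : IsCompact K) (hsub : K ⊆ stdS (m+1))
    (hV : 0 < vol K)
    (hγ : 0 ≤ ∫ x in stdS (m+1), Kᶜ.indicator (fun x => Qf x - 2 / ((m:ℝ) + 2)) x) :
    (covMat K).det / vol K ^ 2 ≤ (covMat (stdS (m+1))).det / vol (stdS (m+1)) ^ 2 ∧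
      ((covMat K).det / vol K ^ 2 = (covMat (stdS (m+1))).det / vol (stdS (m+1)) ^ 2 →
        vol K = vol (stdS (m+1))) := by
  set V := vol K with hVdef
  set V₀ := vol (stdS (m+1)) with hV₀def
  have hV₀ : 0 < V₀ := by rw [hV₀def, vol_stdS]; exact volS_pos _
  have hKm : MeasurableSet K := hK.measurableSet
  have hm1 : (0:ℝ) < (m:ℝ) + 1 := by positivity
  have hm2 : (0:ℝ) < (m:ℝ) + 2 := by positivity
  have hm3 : (0:ℝ) < (m:ℝ) + 3 := by positivity
  -- the integrals on the complement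
  have hinter : stdS (m+1) ∩ K = K := inter_eq_right.2 hsub
  have hVV : (∫ _x in stdS (m+1) \ K, (1:ℝ)) = V₀ - V := by
    have h := integral_inter_add_sdiff (f := fun _ : Fin (m+1) → ℝ => (1:ℝ)) (μ := volume)
      (s := stdS (m+1)) hKm (integrableOn_of_compact (stdS_isCompact _) continuous_const)
    rw [hinter] at h
    rw [hV₀def, hVdef, vol_eq_integral, vol_eq_integral]
    linarith
  have hQint : (∫ x in stdS (m+1) \ K, Qf x) = 2 / ((m:ℝ) + 3) * V₀ - ∫ x in K, Qf x := by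
    have h := integral_inter_add_sdiff (f := Qf) (μ := volume)
      (s := stdS (m+1)) hKm (integrableOn_of_compact (stdS_isCompact _) Qf_continuous)
    rw [hinter, integral_Qf] at h
    rw [hV₀def, vol_stdS]
    push_cast at h
    have e : (m:ℝ) + 1 + 2 = (m:ℝ) + 3 := by ring
    rw [e] at h
    linarith
  have hQonS : IntegrableOn Qf (stdS (m+1)) := integrableOn_of_compact (stdS_isCompact _) Qf_continuous
  have hI : (∫ x in K, Qf x) ≤ 2 / ((m:ℝ) + 3) * V₀ - 2 / ((m:ℝ) + 2) * (V₀ - V) := by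
    rw [setIntegral_indicator hKm.compl] at hγ
    have e : stdS (m+1) ∩ Kᶜ = stdS (m+1) \ K := rfl
    rw [e] at hγ
    have hq1 : IntegrableOn Qf (stdS (m+1) \ K) := hQonS.mono_set sdiff_subset
    have hq2 : IntegrableOn (fun _ : Fin (m+1) → ℝ => 2 / ((m:ℝ) + 2)) (stdS (m+1) \ K) :=
      (integrableOn_of_compact (stdS_isCompact _) continuous_const).mono_set sdiff_subset
    rw [integral_sub hq1 hq2, hQint] at hγ
    have e2 : ∫ _x in stdS (m+1) \ K, 2 / ((m:ℝ) + 2) = 2 / ((m:ℝ) + 2) * (V₀ - V) := by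
      rw [← hVV, ← integral_const_mul]
      simp
    rw [e2] at hγ
    linarith
  have hVle : V ≤ V₀ := by
    have : 0 ≤ ∫ _x in stdS (m+1) \ K, (1:ℝ) := integral_nonneg fun _ => zero_le_one
    rw [hVV] at this
    linarith
  -- the matrix inequality
  have hAB : covMat (stdS (m+1)) * ((Rmat m).transpose * Rmat m) = 1 := by
    rw [Rmat_sq]; exact cov_mul_Bmat m
  obtain ⟨hApos, htr0, hdet⟩ := det_le_of_inverse _ _ (Rmat m) hAB (covMat_posSemidef hK)
    (Nat.succ_pos m)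
  rw [Rmat_sq] at htr0 hdet
  have htb := trace_bound m hK hV.ne'
  rw [← hVdef] at htb
  set A := (covMat (stdS (m+1))).det with hA
  set N := (covMat K).det with hN
  set tr := (Bmat m * covMat K).trace with htr
  set u := V / V₀ with hu
  have hu0 : 0 < u := div_pos hV hV₀
  have hu1 : u ≤ 1 := by rw [hu, div_le_one hV₀]; exact hVle
  set ρ := 1 - u with hρ
  have hρ0 : 0 ≤ ρ := by rw [hρ]; linarith
  have hρ1 : ρ < 1 := by rw [hρ]; linarith
  have hVu : V = u * V₀ := by rw [hu]; field_simp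
  have hn : (((m + 1 : ℕ) : ℝ)) = (m:ℝ) + 1 := by push_cast; ring
  -- bound on the trace
  set a := ((((m + 1 : ℕ) : ℝ)) + 2) / ((m + 1 : ℕ) : ℝ) with ha
  have hWle : tr / ((m + 1 : ℕ) : ℝ) ≤ (1 - a * ρ) / u := by
    rw [hn]
    have hstep : ((m:ℝ) + 2) * ((m:ℝ) + 3) * (V⁻¹ * (∫ x in K, Qf x) - 1 / ((m:ℝ) + 2))
        ≤ ((m:ℝ) + 2) * ((m:ℝ) + 3) * (V⁻¹ * (2 / ((m:ℝ) + 3) * V₀ - 2 / ((m:ℝ) + 2) * (V₀ - V))
            - 1 / ((m:ℝ) + 2)) := by
      apply mul_le_mul_of_nonneg_left _ (by positivity)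
      have := mul_le_mul_of_nonneg_left hI (inv_nonneg.2 hV.le)
      linarith
    have h3 := htb.trans hstep
    have e3 : ((m:ℝ) + 2) * ((m:ℝ) + 3) * (V⁻¹ * (2 / ((m:ℝ) + 3) * V₀ - 2 / ((m:ℝ) + 2) * (V₀ - V))
            - 1 / ((m:ℝ) + 2)) / ((m:ℝ) + 1) = (1 - a * ρ) / u := by
      rw [ha, hρ, hu, hn]
      have hV' := hV.ne'
      have hV₀' := hV₀.ne'
      field_simp
      ring
    rw [← e3]
    exact div_le_div_of_nonneg_right h3 hm1.le
  have hW0 : 0 ≤ tr / ((m + 1 : ℕ) : ℝ) := div_nonneg htr0 (by positivity)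
  have hT0 : 0 ≤ 1 - a * ρ := by
    have := hW0.trans hWle
    have h2 := mul_nonneg this hu0.le
    rwa [div_mul_cancel₀ _ hu0.ne'] at h2
  have hpow : (tr / ((m + 1 : ℕ) : ℝ)) ^ (m + 1) ≤ ((1 - a * ρ) / u) ^ (m + 1) :=
    pow_le_pow_left₀ hW0 hWle _
  have hN1 : N ≤ A * ((1 - a * ρ) / u) ^ (m + 1) :=
    hdet.trans (mul_le_mul_of_nonneg_left hpow hApos.le)
  set T := (1 - a * ρ) ^ (m + 1) with hT
  have hUP : 0 < u ^ (m + 1 + 2) := by positivity
  have hV2 : 0 < V ^ 2 := by positivity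
  have hN2 : N / V ^ 2 ≤ A / V₀ ^ 2 * (T / u ^ (m + 1 + 2)) := by
    rw [div_le_iff₀ hV2]
    refine hN1.trans (le_of_eq ?_)
    rw [hVu, div_pow, hT]
    have hu' := hu0.ne'
    have hV₀' := hV₀.ne'
    field_simp
    ring
  have hAV : 0 < A / V₀ ^ 2 := by positivity
  constructor
  · have hB := bernoulli_key (m + 1) (Nat.succ_pos m) ρ hρ0 hρ1 hT0
    have e4 : 1 - ρ = u := by rw [hρ]; ring
    rw [e4] at hB
    have h5 : T / u ^ (m + 1 + 2) ≤ 1 := by
      rw [div_le_one hUP]; exact hB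
    calc N / V ^ 2 ≤ A / V₀ ^ 2 * (T / u ^ (m + 1 + 2)) := hN2
      _ ≤ A / V₀ ^ 2 * 1 := mul_le_mul_of_nonneg_left h5 hAV.le
      _ = A / V₀ ^ 2 := mul_one _
  · intro heq
    by_contra hne
    have hρpos : 0 < ρ := by
      have h6 : u ≠ 1 := by
        intro h
        apply hne
        rw [hVu, h, one_mul]
      have h7 : u < 1 := lt_of_le_of_ne hu1 h6
      rw [hρ]; linarith
    have hB := bernoulli_key_lt (m + 1) (Nat.succ_pos m) ρ hρpos hρ1 hT0
    have e4 : 1 - ρ = u := by rw [hρ]; ring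
    rw [e4] at hB
    have h5 : T / u ^ (m + 1 + 2) < 1 := by
      rw [div_lt_one hUP]; exact hB
    have h8 : A / V₀ ^ 2 * (T / u ^ (m + 1 + 2)) < A / V₀ ^ 2 * 1 :=
      mul_lt_mul_of_pos_left h5 hAV
    rw [mul_one] at h8
    have := hN2.trans_lt h8
    rw [heq] at this
    exact lt_irrefl _ this

end Vale.Agent.Lib.P254
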