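import Mathlib
import Vale.Agent.Lib.P254.Compare

/-! Summing over the cones, and a volume estimate giving an inner homothetic copy. -/

open MeasureTheory Set

namespace Vale.Agent.Lib.P254

variable {n : ℕ}

/-- The first variation integral over the complement of `K` is nonnegative. -/
theorem first_variation_nonneg (j : ℕ) (K : Set (Fin (j+2) → ℝ)) (hcl : IsClosed K)
    (hconv : Convex ℝ K) (hsub : K ⊆ stdS (j+2)) (ε : ℝ) (hε1 : ε < 1 / ((j:ℝ) + 3))
    (hε : ε ≤ (4 / (((j:ℝ) + 2) * ((j:ℝ) + 3) * ((j:ℝ) + 4) * ((j:ℝ) + 5))) /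
      ((1 + 4 / (((j:ℝ) + 2) * ((j:ℝ) + 3) * ((j:ℝ) + 4) * ((j:ℝ) + 5))) * ((j:ℝ) + 3)))
    (hin : ∀ x, (∀ l, ε ≤ bary x l) → x ∈ K)
    (hcontact : ∀ σ : Equiv.Perm (Fin (j+3)),
      permMap σ (Fin.cons 0 (fun _ => 1 / ((j:ℝ) + 2)) : Fin (j+2) → ℝ) ∈ K) :
    0 ≤ ∫ x in stdS (j+2), Kᶜ.indicator (fun x => Qf x - 2 / ((j:ℝ) + 3)) x := by
  set γ : (Fin (j+2) → ℝ) → ℝ := fun x => Qf x - 2 / ((j:ℝ) + 3) with hγ
  have hγcont : Continuous γ := Qf_continuous.sub continuous_const
  have hint : IntegrableOn (Kᶜ.indicator γ) (stdS (j+2)) :=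
    (integrableOn_stdS hγcont).indicator hcl.measurableSet.compl
  rw [integral_stdS_eq_sum (j+1) _ hint]
  apply Finset.sum_nonneg
  intro i _
  set σ : Equiv.Perm (Fin (j+3)) := Equiv.swap i 1 with hσ
  set K' : Set (Fin (j+2) → ℝ) := permMap σ ⁻¹' K with hK'
  have hcl' : IsClosed K' := hcl.preimage (permMap_continuous σ)
  have hconv' : Convex ℝ K' := by
    intro x hx y hy a b ha hb hab
    simp only [hK', mem_preimage] at hx hy ⊢
    rw [permMap_affine σ x y a b hab]
    exact hconv hx hy ha hb hab
  have hsub' : K' ⊆ stdS (j+2) := by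
    intro x hx
    exact (mem_stdS_permMap σ x).1 (hsub hx)
  have hin' : ∀ x, (∀ l, ε ≤ bary x l) → x ∈ K' := by
    intro x hx
    apply hin
    intro l
    rw [bary_permMap]
    exact hx _
  have hcontact' : (Fin.cons 0 (fun _ => 1 / ((j:ℝ) + 2)) : Fin (j+2) → ℝ) ∈ K' := hcontact σ
  have h := cone_inequality j K' hcl' hconv' hsub' ε hε1 hε hin' hcontact'
  refine le_of_le_of_eq h ?_
  apply setIntegral_congr_fun (cone0_measurable _)
  intro x _
  simp only
  by_cases hx : x ∈ K'
  · have hx2 : permMap σ x ∈ K := hx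
    rw [indicator_of_notMem (by simpa using hx), indicator_of_notMem (by simpa using hx2)]
  · have hx2 : permMap σ x ∉ K := hx
    rw [indicator_of_mem (by simpa using hx), indicator_of_mem (by simpa using hx2)]
    simp only [hγ, Qf_permMap]

lemma bary_line (x z : Fin n → ℝ) (t : ℝ) (l : Fin (n+1)) :
    bary (x + t • (z - x)) l = bary x l + t * (bary z l - bary x l) := by
  refine Fin.cases ?_ (fun i => ?_) l
  · simp only [bary_zero, Pi.add_apply, Pi.smul_apply, Pi.sub_apply, smul_eq_mul]
    rw [Finset.sum_add_distrib, ← Finset.mul_sum, Finset.sum_sub_distrib]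
    ring
  · simp

/-- If a point deep inside the simplex is outside the convex set `K`, then a definite proportion of
the simplex is outside `K`. -/
theorem volume_gap (K : Set (Fin n → ℝ)) (hcl : IsClosed K) (hconv : Convex ℝ K)
    (hsub : K ⊆ stdS n) (x : Fin n → ℝ) (ε : ℝ) (hε0 : 0 < ε) (hx : ∀ l, ε ≤ bary x l)
    (hxK : x ∉ K) :
    ε ^ n / (1 + ε ^ n) * vol (stdS n) ≤ vol (stdS n) - vol K := by
  obtain ⟨f, u, hfx, hfK⟩ := geometric_hahn_banach_point_closed hconv hcl hxK
  set A := stdS n ∩ {z | f z ≤ f x} with hA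
  set B := stdS n ∩ {z | f x < f z} with hB
  have hAm : MeasurableSet A :=
    (stdS_measurable n).inter (measurableSet_le f.continuous.measurable measurable_const)
  have hBm : MeasurableSet B :=
    (stdS_measurable n).inter (measurableSet_lt measurable_const f.continuous.measurable)
  have hfin : volume (stdS n) ≠ ⊤ := volume_stdS_ne_top n
  have hAfin : volume A ≠ ⊤ := measure_ne_top_of_subset inter_subset_left hfin
  have hBfin : volume B ≠ ⊤ := measure_ne_top_of_subset inter_subset_left hfin
  -- A and B partition the simplex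
  have hAB : Disjoint A B := by
    rw [Set.disjoint_left]
    rintro z ⟨_, hz1⟩ ⟨_, hz2⟩
    have h1 : f z ≤ f x := hz1
    have h2 : f x < f z := hz2
    linarith
  have hunion : A ∪ B = stdS n := by
    ext z
    constructor
    · rintro (h | h) <;> exact h.1
    · intro hz
      by_cases h : f z ≤ f x
      · exact Or.inl ⟨hz, h⟩
      · exact Or.inr ⟨hz, not_le.1 h⟩
  have hsum : volume.real A + volume.real B = vol (stdS n) := by
    have := measureReal_union (μ := volume) hAB hBm (h₁ := hAfin) (h₂ := hBfin)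
    rw [hunion] at this
    exact this.symm
  -- the complement
  have hAK : A ⊆ stdS n \ K := by
    rintro z ⟨hz1, hz2⟩
    refine ⟨hz1, fun hzK => ?_⟩
    have := hfK z hzK
    have h2 : f z ≤ f x := hz2
    linarith
  have hKm : MeasurableSet K := hcl.measurableSet
  have hdiff : volume.real (stdS n \ K) = vol (stdS n) - vol K := by
    have h := measureReal_sdiff_add_inter (μ := volume) (s := stdS n) (t := K) hKm (h := hfin)
    rw [inter_eq_right.2 hsub] at h
    have e1 : vol (stdS n) = volume.real (stdS n) := rfl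
    have e2 : vol K = volume.real K := rfl
    rw [e1, e2]
    linarith
  have hA1 : volume.real A ≤ vol (stdS n) - vol K := by
    rw [← hdiff]
    exact measureReal_mono hAK (measure_ne_top_of_subset sdiff_subset hfin)
  -- the homothety
  set φ := AffineMap.homothety x (-ε) with hφ
  have hφz : ∀ z, φ z = x + (-ε) • (z - x) := by
    intro z
    rw [hφ, AffineMap.homothety_apply]
    simp [add_comm]
  have himg : φ '' B ⊆ A := by
    rintro w ⟨z, ⟨hz1, hz2⟩, rfl⟩
    refine ⟨?_, ?_⟩
    · rw [mem_stdS_iff_bary]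
      intro l
      rw [hφz, bary_line]
      have h1 := hx l
      have h2 := bary_le_one hz1 l
      have h3 : 0 ≤ ε * ε := by positivity
      nlinarith
    · have h2 : f x < f z := hz2
      simp only [mem_ofPred_eq]
      rw [hφz]
      simp only [map_add, map_smul, map_sub, smul_eq_mul]
      nlinarith
  have hmeas : volume (φ '' B) = ENNReal.ofReal |(-ε) ^ Module.finrank ℝ (Fin n → ℝ)| * volume B :=
    Measure.addHaar_image_homothety volume x (-ε) B
  have hfr : Module.finrank ℝ (Fin n → ℝ) = n := by simp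
  rw [hfr, abs_pow, abs_neg, abs_of_pos hε0] at hmeas
  have hle : volume (φ '' B) ≤ volume A := measure_mono himg
  rw [hmeas] at hle
  have hle2 : ε ^ n * volume.real B ≤ volume.real A := by
    have h := ENNReal.toReal_mono hAfin hle
    rw [ENNReal.toReal_mul, ENNReal.toReal_ofReal (by positivity)] at h
    exact h
  have hpos : 0 < ε ^ n := by positivity
  have h1pos : 0 < 1 + ε ^ n := by positivity
  rw [div_mul_eq_mul_div, div_le_iff₀ h1pos]
  have hBeq : volume.real B = vol (stdS n) - volume.real A := by linarith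
  rw [hBeq] at hle2
  have hAnn : 0 ≤ volume.real A := measureReal_nonneg
  nlinarith

end Vale.Agent.Lib.P254
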