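import Mathlib
import Vale.Agent.Lib.P254.Inner

/-! Affine invariance of the isotropic constant. -/

open MeasureTheory Set

namespace Vale.Agent.Lib.P254

variable {n : ℕ}

/-- The affine map `x ↦ U x + w`. -/
def aff (U : Matrix (Fin n) (Fin n) ℝ) (w : Fin n → ℝ) (x : Fin n → ℝ) : Fin n → ℝ :=
  U.mulVec x + w

lemma aff_apply (U : Matrix (Fin n) (Fin n) ℝ) (w x : Fin n → ℝ) (i : Fin n) :
    aff U w x i = ∑ j, U i j * x j + w i := rfl

lemma aff_continuous (U : Matrix (Fin n) (Fin n) ℝ) (w : Fin n → ℝ) : Continuous (aff U w) := by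
  unfold aff
  exact (Matrix.toLin' U).continuous_of_finiteDimensional.add continuous_const

lemma aff_affine (U : Matrix (Fin n) (Fin n) ℝ) (w x y : Fin n → ℝ) (a b : ℝ) (hab : a + b = 1) :
    aff U w (a • x + b • y) = a • aff U w x + b • aff U w y := by
  simp only [aff, Matrix.mulVec_add, Matrix.mulVec_smul, smul_add]
  have : w = (a + b) • w := by rw [hab, one_smul]
  nth_rw 1 [this]
  rw [add_smul]
  abel

lemma aff_comp (U U' : Matrix (Fin n) (Fin n) ℝ) (w w' x : Fin n → ℝ) :
    aff U w (aff U' w' x) = aff (U * U') (U.mulVec w' + w) x := by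
  simp only [aff, Matrix.mulVec_add, Matrix.mulVec_mulVec]
  abel

lemma aff_injective {U : Matrix (Fin n) (Fin n) ℝ} (hU : U.det ≠ 0) (w : Fin n → ℝ) :
    Function.Injective (aff U w) := by
  intro x y h
  simp only [aff, add_left_inj] at h
  exact Matrix.mulVec_injective_of_isUnit ((Matrix.isUnit_iff_isUnit_det U).2 (isUnit_iff_ne_zero.2 hU)) h

/-- The inverse affine map. -/
noncomputable def affInv (U : Matrix (Fin n) (Fin n) ℝ) (w : Fin n → ℝ) : Matrix (Fin n) (Fin n) ℝ × (Fin n → ℝ) :=
  (U⁻¹, -(U⁻¹.mulVec w))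

lemma aff_inv_left {U : Matrix (Fin n) (Fin n) ℝ} (hU : U.det ≠ 0) (w x : Fin n → ℝ) :
    aff U⁻¹ (-(U⁻¹.mulVec w)) (aff U w x) = x := by
  rw [aff_comp, Matrix.nonsing_inv_mul U (isUnit_iff_ne_zero.2 hU)]
  simp [aff]

lemma aff_inv_right {U : Matrix (Fin n) (Fin n) ℝ} (hU : U.det ≠ 0) (w x : Fin n → ℝ) :
    aff U w (aff U⁻¹ (-(U⁻¹.mulVec w)) x) = x := by
  rw [aff_comp, Matrix.mul_nonsing_inv U (isUnit_iff_ne_zero.2 hU)]
  simp [aff, Matrix.mulVec_neg, Matrix.mulVec_mulVec, Matrix.mul_nonsing_inv U (isUnit_iff_ne_zero.2 hU)]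

/-- Change of variables for `aff`. -/
lemma integral_aff_image {U : Matrix (Fin n) (Fin n) ℝ} (hU : U.det ≠ 0) (w : Fin n → ℝ)
    {K : Set (Fin n → ℝ)} (hK : MeasurableSet K) (g : (Fin n → ℝ) → ℝ) :
    ∫ y in aff U w '' K, g y = |U.det| * ∫ x in K, g (aff U w x) := by
  set L : (Fin n → ℝ) →L[ℝ] (Fin n → ℝ) := (Matrix.toLin' U).toContinuousLinearMap with hL
  have hder : ∀ x ∈ K, HasFDerivWithinAt (aff U w) L K x := by
    intro x _
    have h1 : HasFDerivAt (fun x => L x + w) L x := L.hasFDerivAt.add_const w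
    have h2 : (fun x => L x + w) = aff U w := by
      funext x
      simp [hL, aff, Matrix.toLin'_apply]
    rw [h2] at h1
    exact h1.hasFDerivWithinAt
  have h := integral_image_eq_integral_abs_det_fderiv_smul volume hK hder
    ((aff_injective hU w).injOn) g
  have hdet : L.det = U.det := by
    rw [hL, ContinuousLinearMap.det]
    simp
  simp only [hdet, smul_eq_mul] at h
  rw [h, integral_const_mul]

lemma vol_aff_image {U : Matrix (Fin n) (Fin n) ℝ} (hU : U.det ≠ 0) (w : Fin n → ℝ)
    {K : Set (Fin n → ℝ)} (hK : MeasurableSet K) :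
    vol (aff U w '' K) = |U.det| * vol K := by
  rw [vol_eq_integral, integral_aff_image hU w hK, vol_eq_integral]

lemma centroid_aff_image {U : Matrix (Fin n) (Fin n) ℝ} (hU : U.det ≠ 0) (w : Fin n → ℝ)
    {K : Set (Fin n → ℝ)} (hK : IsCompact K) (hV : vol K ≠ 0) (i : Fin n) :
    centroid (aff U w '' K) i = aff U w (centroid K) i := by
  have hd : |U.det| ≠ 0 := abs_ne_zero.2 hU
  rw [centroid, vol_aff_image hU w hK.measurableSet, integral_aff_image hU w hK.measurableSet]
  have e : ∫ x in K, aff U w x i = vol K * aff U w (centroid K) i := by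
    simp only [aff_apply]
    rw [integral_add (integrableOn_of_compact hK (by fun_prop))
      (integrableOn_of_compact hK continuous_const),
      integral_finsetSum _ (fun j _ => integrableOn_of_compact hK (by fun_prop))]
    simp_rw [integral_const_mul, integral_coord_eq hV]
    rw [mul_add, Finset.mul_sum]
    congr 1
    · exact Finset.sum_congr rfl fun j _ => by ring
    · rw [vol_eq_integral]
      simp [mul_comm]
  rw [e]
  field_simp

lemma covMat_aff_image {U : Matrix (Fin n) (Fin n) ℝ} (hU : U.det ≠ 0) (w : Fin n → ℝ)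
    {K : Set (Fin n → ℝ)} (hK : IsCompact K) (hV : vol K ≠ 0) :
    covMat (aff U w '' K) = U * covMat K * U.transpose := by
  have hd : |U.det| ≠ 0 := abs_ne_zero.2 hU
  ext i l
  simp only [covMat, Matrix.of_apply, Matrix.mul_apply, Matrix.transpose_apply]
  rw [vol_aff_image hU w hK.measurableSet, integral_aff_image hU w hK.measurableSet]
  simp_rw [centroid_aff_image hU w hK hV]
  set b := centroid K with hb
  have e1 : ∀ x : Fin n → ℝ, (aff U w x i - aff U w b i) * (aff U w x l - aff U w b l)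
      = ∑ j, ∑ k, U i j * U l k * ((x j - b j) * (x k - b k)) := by
    intro x
    simp only [aff_apply]
    have : (∑ j, U i j * x j + w i - (∑ j, U i j * b j + w i)) * (∑ j, U l j * x j + w l - (∑ j, U l j * b j + w l))
        = (∑ j, U i j * (x j - b j)) * (∑ k, U l k * (x k - b k)) := by
      simp only [mul_sub, Finset.sum_sub_distrib]
      ring
    rw [this, Finset.sum_mul_sum]
    exact Finset.sum_congr rfl fun j _ => Finset.sum_congr rfl fun k _ => by ring
  simp_rw [e1]
  have hint : ∀ j k, IntegrableOn (fun x : Fin n → ℝ => U i j * U l k * ((x j - b j) * (x k - b k))) K :=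
    fun j k => integrableOn_of_compact hK (by fun_prop)
  have e2 : ∫ x in K, ∑ j, ∑ k, U i j * U l k * ((x j - b j) * (x k - b k))
      = ∑ j, ∑ k, U i j * U l k * ∫ x in K, (x j - b j) * (x k - b k) := by
    rw [integral_finsetSum _ (fun j _ => integrableOn_of_compact hK (by fun_prop))]
    refine Finset.sum_congr rfl fun j _ => ?_
    rw [integral_finsetSum _ (fun k _ => hint j k)]
    refine Finset.sum_congr rfl fun k _ => ?_
    rw [integral_const_mul]
  rw [e2, ← mul_assoc, mul_inv, mul_assoc (|U.det|)⁻¹, mul_comm (vol K)⁻¹, ← mul_assoc,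
    inv_mul_cancel₀ hd, one_mul, Finset.mul_sum]
  simp_rw [Finset.mul_sum, Finset.sum_mul]
  rw [Finset.sum_comm]
  refine Finset.sum_congr rfl fun k _ => Finset.sum_congr rfl fun j _ => ?_
  ring

/-- The determinant-volume ratio is an affine invariant. -/
lemma ratio_aff_image {U : Matrix (Fin n) (Fin n) ℝ} (hU : U.det ≠ 0) (w : Fin n → ℝ)
    {K : Set (Fin n → ℝ)} (hK : IsCompact K) (hV : vol K ≠ 0) :
    (covMat (aff U w '' K)).det / vol (aff U w '' K) ^ 2 = (covMat K).det / vol K ^ 2 := by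
  rw [covMat_aff_image hU w hK hV, vol_aff_image hU w hK.measurableSet, Matrix.det_mul,
    Matrix.det_mul, Matrix.det_transpose, mul_pow, sq_abs]
  field_simp

lemma isoConst_aff_image {U : Matrix (Fin n) (Fin n) ℝ} (hU : U.det ≠ 0) (w : Fin n → ℝ)
    {K : Set (Fin n → ℝ)} (hK : IsCompact K) (hV : vol K ≠ 0) :
    isoConst (aff U w '' K) = isoConst K := by
  rw [isoConst, ratio_aff_image hU w hK hV, isoConst]

end Vale.Agent.Lib.P254
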