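import Mathlib
import Vale.Agent.Lib.P254.Affine

/-! The minimal simplex: existence and the facet centroid contact. -/

open MeasureTheory Set Filter Topology

namespace Vale.Agent.Lib.P254

variable {n : ℕ}

/-- The maximal determinant condition. -/
def MaxDet (K : Set (Fin n → ℝ)) : Prop :=
  ∀ (U : Matrix (Fin n) (Fin n) ℝ) (w : Fin n → ℝ), (∀ x ∈ K, aff U w x ∈ stdS n) → |U.det| ≤ 1

/-- The tilted matrix. -/
def tiltU (m : ℕ) (a₀ : ℝ) (a : Fin m → ℝ) (t : ℝ) : Matrix (Fin (m+1)) (Fin (m+1)) ℝ :=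
  Matrix.of fun i j => Fin.cases (motive := fun _ => ℝ)
    (Fin.cases (motive := fun _ => ℝ) (1 - t * a₀) (fun l => t * (a l - a₀)) j)
    (fun l => if l.succ = j then 1 - t * a l else 0) i

/-- The tilted translation. -/
def tiltW (m : ℕ) (a₀ : ℝ) (t : ℝ) : Fin (m+1) → ℝ :=
  fun i => Fin.cases (motive := fun _ => ℝ) (t * a₀) (fun _ => 0) i

/-- The tilting function. -/
def psiT {m : ℕ} (a₀ : ℝ) (a : Fin m → ℝ) (x : Fin (m+1) → ℝ) : ℝ :=
  a₀ * (1 - ∑ i, x i) + ∑ l, a l * x l.succ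

lemma tiltU_det (m : ℕ) (a₀ : ℝ) (a : Fin m → ℝ) (t : ℝ) :
    (tiltU m a₀ a t).det = (1 - t * a₀) * ∏ l, (1 - t * a l) := by
  rw [Matrix.det_of_isUpperTriangular, Fin.prod_univ_succ]
  · simp [tiltU]
  · intro i j hij
    simp only [id] at hij
    induction i using Fin.cases with
    | zero => exact absurd hij (Fin.not_lt_zero _)
    | succ l =>
      have : l.succ ≠ j := (ne_of_lt hij).symm
      simp [tiltU, this]

lemma aff_tilt_zero {m : ℕ} (a₀ : ℝ) (a : Fin m → ℝ) (t : ℝ) (x : Fin (m+1) → ℝ) :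
    aff (tiltU m a₀ a t) (tiltW m a₀ t) x 0 = x 0 + t * psiT a₀ a x := by
  rw [aff_apply, Fin.sum_univ_succ]
  simp only [tiltU, tiltW, Matrix.of_apply, Fin.cases_zero, Fin.cases_succ, psiT]
  rw [Fin.sum_univ_succ]
  simp only [mul_add, Finset.mul_sum, mul_sub, sub_mul, Finset.sum_sub_distrib, mul_one]
  have h1 : ∀ l : Fin m, t * (a₀ * x l.succ) = t * a₀ * x l.succ := fun l => by ring
  have h2 : ∀ l : Fin m, t * (a l * x l.succ) = t * a l * x l.succ := fun l => by ring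
  simp only [h1, h2]
  ring

lemma aff_tilt_succ {m : ℕ} (a₀ : ℝ) (a : Fin m → ℝ) (t : ℝ) (x : Fin (m+1) → ℝ) (l : Fin m) :
    aff (tiltU m a₀ a t) (tiltW m a₀ t) x l.succ = (1 - t * a l) * x l.succ := by
  rw [aff_apply]
  simp [tiltU, tiltW]

lemma aff_tilt_sum {m : ℕ} (a₀ : ℝ) (a : Fin m → ℝ) (t : ℝ) (x : Fin (m+1) → ℝ) :
    1 - ∑ i, aff (tiltU m a₀ a t) (tiltW m a₀ t) x i = (1 - t * a₀) * (1 - ∑ i, x i) := by
  rw [Fin.sum_univ_succ]
  simp only [aff_tilt_zero, aff_tilt_succ, psiT]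
  rw [Fin.sum_univ_succ]
  simp only [sub_mul, one_mul, Finset.sum_sub_distrib, mul_add, Finset.mul_sum]
  have h2 : ∀ l : Fin m, t * (a l * x l.succ) = t * a l * x l.succ := fun l => by ring
  simp only [h2]
  ring

lemma tilt_feasible {m : ℕ} {K : Set (Fin (m+1) → ℝ)} (hsub : K ⊆ stdS (m+1)) (a₀ : ℝ)
    (a : Fin m → ℝ) (t : ℝ) (h0 : 0 ≤ 1 - t * a₀) (h1 : ∀ l, 0 ≤ 1 - t * a l)
    (h2 : ∀ x ∈ K, 0 ≤ x 0 + t * psiT a₀ a x) (x : Fin (m+1) → ℝ) (hx : x ∈ K) :
    aff (tiltU m a₀ a t) (tiltW m a₀ t) x ∈ stdS (m+1) := by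
  have hxS := hsub hx
  rw [mem_stdS_iff_bary] at hxS ⊢
  intro i
  induction i using Fin.cases with
  | zero =>
    rw [bary_zero, aff_tilt_sum]
    exact mul_nonneg h0 (by simpa using hxS 0)
  | succ i =>
    rw [bary_succ]
    induction i using Fin.cases with
    | zero => rw [aff_tilt_zero]; exact h2 x hx
    | succ l =>
      rw [aff_tilt_succ]
      exact mul_nonneg (h1 l) (by simpa using hxS l.succ.succ)

lemma tilt_det_eventually {m : ℕ} (a₀ : ℝ) (a : Fin m → ℝ) (h : a₀ + ∑ l, a l < 0) :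
    ∀ᶠ t in 𝓝[>] (0:ℝ), 1 < (1 - t * a₀) * ∏ l, (1 - t * a l) := by
  have hd1 : HasDerivAt (fun t : ℝ => 1 - t * a₀) (-a₀) 0 := by
    have := ((hasDerivAt_id (0:ℝ)).mul_const a₀).const_sub 1
    simpa using this
  have hd2 : HasDerivAt (fun t : ℝ => ∏ l ∈ Finset.univ, (1 - t * a l))
      (∑ l ∈ Finset.univ, (∏ j ∈ Finset.univ.erase l, (1 - (0:ℝ) * a j)) • (-a l)) 0 := by
    apply HasDerivAt.fun_finsetProd
    intro l _
    have := ((hasDerivAt_id (0:ℝ)).mul_const (a l)).const_sub 1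
    simpa using this
  have hd3 := hd1.mul hd2
  simp only [zero_mul, sub_zero, Finset.prod_const_one, one_smul, one_mul, Finset.sum_neg_distrib] at hd3
  have hslope := hd3.tendsto_slope_zero_right
  have hev := Filter.Tendsto.eventually_const_lt (u := (0:ℝ)) (by
    simp only [mul_one]
    linarith) hslope
  filter_upwards [hev, self_mem_nhdsWithin] with t ht ht0
  have ht0' : (0:ℝ) < t := ht0
  simp only [zero_add, smul_eq_mul] at ht
  have h3 := (mul_pos_iff_of_pos_left (inv_pos.2 ht0')).1 ht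
  simp only [Pi.mul_apply, zero_mul, sub_zero, Finset.prod_const_one, mul_one] at h3
  linarith

/-- The key contact lemma: the facet centroid belongs to `K`. -/
theorem contact (m : ℕ) {K : Set (Fin (m+1) → ℝ)} (hK : IsCompact K) (hconv : Convex ℝ K)
    (hsub : K ⊆ stdS (m+1)) (hM : MaxDet K) :
    (Fin.cons 0 (fun _ => 1 / ((m:ℝ) + 1)) : Fin (m+1) → ℝ) ∈ K := by
  by_contra hc
  set c₁ : Fin (m+1) → ℝ := Fin.cons 0 (fun _ => 1 / ((m:ℝ) + 1)) with hc₁
  set K' : Set (Fin (m+1) → ℝ) := K ∩ {x | x 0 = 0} with hK'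
  have hm1 : (0:ℝ) < (m:ℝ) + 1 := by positivity
  have hK'cl : IsCompact K' := hK.inter_right (isClosed_eq (continuous_apply 0) continuous_const)
  have hK'conv : Convex ℝ K' := by
    refine hconv.inter ?_
    intro x hx y hy p q _ _ hpq
    simp only [mem_ofPred_eq, Pi.add_apply, Pi.smul_apply, smul_eq_mul] at hx hy ⊢
    rw [hx, hy]; ring
  have hcK' : c₁ ∉ K' := fun h => hc h.1
  obtain ⟨f, u, hfc, hfK⟩ := geometric_hahn_banach_point_closed hK'conv hK'cl.isClosed hcK'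
  set a₀ : ℝ := -u with ha₀
  set a : Fin m → ℝ := fun l => f (Pi.single l.succ 1) - u with ha
  have hf : ∀ x : Fin (m+1) → ℝ, f x = ∑ i, x i * f (Pi.single i 1) := by
    intro x
    have := LinearMap.pi_apply_eq_sum_univ (f : (Fin (m+1) → ℝ) →ₗ[ℝ] ℝ) x
    simp only [ContinuousLinearMap.coe_coe, smul_eq_mul] at this
    rw [this]
    refine Finset.sum_congr rfl fun i _ => ?_
    congr 2
    funext j
    simp [Pi.single_apply, eq_comm]
  have hpsi : ∀ x : Fin (m+1) → ℝ, x 0 = 0 → psiT a₀ a x = f x - u := by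
    intro x hx
    rw [hf, psiT, Fin.sum_univ_succ (f := x), Fin.sum_univ_succ (f := fun i => x i * f (Pi.single i 1)), hx]
    simp only [ha₀, ha, sub_mul, Finset.sum_sub_distrib, zero_add, zero_mul]
    have h1 : ∀ l : Fin m, f (Pi.single l.succ 1) * x l.succ = x l.succ * f (Pi.single l.succ 1) :=
      fun l => mul_comm _ _
    simp only [h1, ← Finset.mul_sum]
    ring
  have hsum : a₀ + ∑ l, a l < 0 := by
    have e1 : f c₁ = (∑ l : Fin m, f (Pi.single l.succ 1)) / ((m:ℝ) + 1) := by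
      rw [hf, Fin.sum_univ_succ]
      simp only [hc₁, Fin.cons_zero, Fin.cons_succ, zero_mul, zero_add, Finset.sum_div]
      refine Finset.sum_congr rfl fun l _ => ?_
      ring
    have e2 : a₀ + ∑ l, a l = ((m:ℝ) + 1) * (f c₁ - u) := by
      rw [e1]
      simp only [ha₀, ha, Finset.sum_sub_distrib, Finset.sum_const, Finset.card_univ, Fintype.card_fin,
        nsmul_eq_mul]
      field_simp
      ring
    rw [e2]
    exact mul_neg_of_pos_of_neg hm1 (by linarith)
  -- bound on the tilting function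
  have hpsicont : Continuous (psiT a₀ a) := by
    unfold psiT
    fun_prop
  obtain ⟨M, hM'⟩ := hK.exists_bound_of_continuousOn hpsicont.continuousOn
  -- positive lower bound for the coordinate where the tilting function is nonpositive
  have hlow : ∃ m₀ : ℝ, 0 < m₀ ∧ ∀ x ∈ K, psiT a₀ a x ≤ 0 → m₀ ≤ x 0 := by
    set U₀ : Set (Fin (m+1) → ℝ) := K ∩ {x | psiT a₀ a x ≤ 0} with hU₀
    have hU₀c : IsCompact U₀ := hK.inter_right (isClosed_le hpsicont continuous_const)
    by_cases hne : U₀.Nonempty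
    · obtain ⟨z, hz, hzmin⟩ := hU₀c.exists_isMinOn hne
        ((continuous_apply (0 : Fin (m+1))).continuousOn)
      refine ⟨z 0, ?_, fun x hx hx2 => hzmin ⟨hx, hx2⟩⟩
      have hz0 : 0 ≤ z 0 := (hsub hz.1).1 0
      refine lt_of_le_of_ne hz0 fun h0 => ?_
      have h1 := hfK z ⟨hz.1, h0.symm⟩
      have h2 := hpsi z h0.symm
      have h3 : psiT a₀ a z ≤ 0 := hz.2
      linarith
    · refine ⟨1, one_pos, fun x hx hx2 => ?_⟩
      exact absurd ⟨x, hx, hx2⟩ hne
  obtain ⟨m₀, hm₀, hlow⟩ := hlow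
  -- small values of the parameter
  have hev1 : ∀ᶠ t in 𝓝 (0:ℝ), 0 ≤ 1 - t * a₀ := by
    have : Continuous fun t : ℝ => 1 - t * a₀ := by fun_prop
    exact (this.tendsto 0).eventually (lt_mem_nhds (by simp)) |>.mono fun t ht => ht.le
  have hev2 : ∀ᶠ t in 𝓝 (0:ℝ), ∀ l, 0 ≤ 1 - t * a l := by
    rw [eventually_all]
    intro l
    have : Continuous fun t : ℝ => 1 - t * a l := by fun_prop
    exact (this.tendsto 0).eventually (lt_mem_nhds (by simp)) |>.mono fun t ht => ht.le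
  have hev3 : ∀ᶠ t in 𝓝 (0:ℝ), t * (|M| + 1) < m₀ := by
    have : Continuous fun t : ℝ => t * (|M| + 1) := by fun_prop
    exact (this.tendsto 0).eventually (gt_mem_nhds (by simpa using hm₀))
  have hev := ((hev1.and (hev2.and hev3)).filter_mono nhdsWithin_le_nhds).and
    ((tilt_det_eventually a₀ a hsum).and self_mem_nhdsWithin)
  obtain ⟨t, ⟨h1, h2, h3⟩, h4, h5⟩ := hev.exists
  have ht0 : (0:ℝ) < t := h5
  have hfeas : ∀ x ∈ K, aff (tiltU m a₀ a t) (tiltW m a₀ t) x ∈ stdS (m+1) := by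
    refine tilt_feasible hsub a₀ a t h1 h2 ?_
    intro x hx
    by_cases hp : psiT a₀ a x ≤ 0
    · have h6 := hlow x hx hp
      have h7 := hM' x hx
      rw [Real.norm_eq_abs] at h7
      have h8 : -psiT a₀ a x ≤ |M| + 1 := by
        have := neg_le_abs (psiT a₀ a x)
        have := le_abs_self M
        linarith
      have h9 : t * (-psiT a₀ a x) ≤ t * (|M| + 1) := mul_le_mul_of_nonneg_left h8 ht0.le
      linarith
    · have h6 : 0 ≤ x 0 := (hsub hx).1 0
      have h7 : 0 ≤ t * psiT a₀ a x := mul_nonneg ht0.le (not_le.1 hp).le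
      linarith
  have hdet := hM _ _ hfeas
  rw [tiltU_det] at hdet
  have := le_abs_self ((1 - t * a₀) * ∏ l, (1 - t * a l))
  linarith

end Vale.Agent.Lib.P254
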