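import Mathlib
import Vale.Agent.Lib.P254.Contact

/-! All facet centroids belong to `K`; the existence of an extremal affine image. -/

open MeasureTheory Set Filter Topology

namespace Vale.Agent.Lib.P254

variable {n : ℕ}

/-- The permutation map written through a matrix. -/
lemma permMap_eq_aff (σ : Equiv.Perm (Fin (n+1))) :
    permMap σ = aff (LinearMap.toMatrix' (permLin σ)) (permMap σ 0) := by
  funext x
  rw [permMap_eq, aff, LinearMap.toMatrix'_mulVec]

lemma abs_det_permMat (σ : Equiv.Perm (Fin (n+1))) :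
    |(LinearMap.toMatrix' (permLin σ)).det| = 1 := by
  rw [LinearMap.det_toMatrix', abs_det_permLin]

/-- The maximal determinant condition is invariant under the permutation maps. -/
lemma MaxDet.preimage_perm {K : Set (Fin n → ℝ)} (hM : MaxDet K) (σ : Equiv.Perm (Fin (n+1))) :
    MaxDet (permMap σ ⁻¹' K) := by
  intro U w hUw
  have h1 : ∀ y ∈ K, aff U w (permMap σ⁻¹ y) ∈ stdS n := by
    intro y hy
    apply hUw
    simp only [mem_preimage]
    rw [permMap_permMap]
    simpa [permMap_one] using hy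
  have h2 := hM (U * LinearMap.toMatrix' (permLin σ⁻¹))
    (U.mulVec (permMap σ⁻¹ 0) + w) (by
      intro y hy
      rw [← aff_comp, ← permMap_eq_aff]
      exact h1 y hy)
  rwa [Matrix.det_mul, abs_mul, abs_det_permMat, mul_one] at h2

/-- All facet centroids belong to `K`. -/
theorem contact_all (m : ℕ) {K : Set (Fin (m+1) → ℝ)} (hK : IsCompact K) (hconv : Convex ℝ K)
    (hsub : K ⊆ stdS (m+1)) (hM : MaxDet K) (σ : Equiv.Perm (Fin (m+2))) :
    permMap σ (Fin.cons 0 (fun _ => 1 / ((m:ℝ) + 1)) : Fin (m+1) → ℝ) ∈ K := by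
  have hK' : IsCompact (permMap σ ⁻¹' K) := by
    have : permMap σ ⁻¹' K = permMap σ⁻¹ '' K := by
      ext x
      constructor
      · intro hx
        refine ⟨permMap σ x, hx, ?_⟩
        rw [permMap_permMap]
        simp [permMap_one]
      · rintro ⟨y, hy, rfl⟩
        simp only [mem_preimage]
        rw [permMap_permMap]
        simpa [permMap_one] using hy
    rw [this]
    exact hK.image (permMap_continuous _)
  have hconv' : Convex ℝ (permMap σ ⁻¹' K) := by
    intro x hx y hy a b ha hb hab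
    simp only [mem_preimage] at hx hy ⊢
    rw [permMap_affine σ x y a b hab]
    exact hconv hx hy ha hb hab
  have hsub' : permMap σ ⁻¹' K ⊆ stdS (m+1) := by
    intro x hx
    exact (mem_stdS_permMap σ x).1 (hsub hx)
  exact contact m hK' hconv' hsub' (hM.preimage_perm σ)

/-- Existence of an extremal affine map sending `K` into the standard simplex. -/
theorem exists_max_aff {K : Set (Fin n → ℝ)} (hint : (interior K).Nonempty)
    (U₀ : Matrix (Fin n) (Fin n) ℝ) (w₀ : Fin n → ℝ) (h₀ : ∀ x ∈ K, aff U₀ w₀ x ∈ stdS n) :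
    ∃ (U : Matrix (Fin n) (Fin n) ℝ) (w : Fin n → ℝ), (∀ x ∈ K, aff U w x ∈ stdS n) ∧
      ∀ (U' : Matrix (Fin n) (Fin n) ℝ) (w' : Fin n → ℝ), (∀ x ∈ K, aff U' w' x ∈ stdS n) →
        |U'.det| ≤ |U.det| := by
  obtain ⟨x₀, hx₀⟩ := hint
  obtain ⟨r, hr, hball⟩ := Metric.mem_nhds_iff.1 (mem_interior_iff_mem_nhds.1 hx₀)
  have hx₀K : x₀ ∈ K := interior_subset hx₀
  set C : ℝ := 2 / r with hC
  have hC0 : 0 ≤ C := by positivity
  set D : ℝ := 1 + ∑ j, C * |x₀ j| with hD
  set F : Set ((Fin n → Fin n → ℝ) × (Fin n → ℝ)) := {p | ∀ x ∈ K, aff (Matrix.of p.1) p.2 x ∈ stdS n} with hF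
  have hcont : ∀ x : Fin n → ℝ, Continuous fun p : (Fin n → Fin n → ℝ) × (Fin n → ℝ) => aff (Matrix.of p.1) p.2 x := by
    intro x
    refine continuous_pi fun i => ?_
    simp only [aff_apply, Matrix.of_apply]
    fun_prop
  have hFcl : IsClosed F := by
    have : F = ⋂ x ∈ K, (fun p : (Fin n → Fin n → ℝ) × (Fin n → ℝ) => aff (Matrix.of p.1) p.2 x) ⁻¹' stdS n := by
      ext p
      simp [hF]
    rw [this]
    exact isClosed_biInter fun x _ => (stdS_isClosed n).preimage (hcont x)
  -- bounds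
  have hbU : ∀ p ∈ F, ∀ i j, |p.1 i j| ≤ C := by
    intro p hp i j
    set y : Fin n → ℝ := x₀ + (r / 2) • Pi.single j 1 with hy
    have hyK : y ∈ K := by
      apply hball
      rw [Metric.mem_ball, hy, dist_eq_norm]
      simp only [add_sub_cancel_left, norm_smul, Real.norm_eq_abs]
      have : ‖(Pi.single j 1 : Fin n → ℝ)‖ = 1 := by rw [Pi.norm_single]; simp
      rw [this, abs_of_pos (by positivity)]
      linarith
    have h1 := stdS_le_one (hp y hyK) i
    have h2 := (hp y hyK).1 i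
    have h3 := stdS_le_one (hp x₀ hx₀K) i
    have h4 := (hp x₀ hx₀K).1 i
    have e : aff (Matrix.of p.1) p.2 y i - aff (Matrix.of p.1) p.2 x₀ i = (r / 2) * p.1 i j := by
      simp only [aff_apply, Matrix.of_apply, hy, Pi.add_apply, Pi.smul_apply, smul_eq_mul, mul_add]
      rw [Finset.sum_add_distrib]
      have : ∑ k, p.1 i k * ((r / 2) * (Pi.single j 1 : Fin n → ℝ) k) = (r / 2) * p.1 i j := by
        simp [Pi.single_apply]
        ring
      rw [this]
      ring
    have h5 : |(r / 2) * p.1 i j| ≤ 1 := by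
      rw [← e, abs_le]
      constructor <;> linarith
    rw [abs_mul, abs_of_pos (by positivity : 0 < r / 2)] at h5
    rw [hC, le_div_iff₀ hr]
    nlinarith
  have hbW : ∀ p ∈ F, ∀ i, |p.2 i| ≤ D := by
    intro p hp i
    have h3 := stdS_le_one (hp x₀ hx₀K) i
    have h4 := (hp x₀ hx₀K).1 i
    have e : p.2 i = aff (Matrix.of p.1) p.2 x₀ i - ∑ j, p.1 i j * x₀ j := by
      simp [aff_apply]
    rw [e]
    have h5 : |∑ j, p.1 i j * x₀ j| ≤ ∑ j, C * |x₀ j| := by
      refine (Finset.abs_sum_le_sum_abs _ _).trans (Finset.sum_le_sum fun j _ => ?_)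
      rw [abs_mul]
      exact mul_le_mul_of_nonneg_right (hbU p hp i j) (abs_nonneg _)
    have h6 := abs_sub (aff (Matrix.of p.1) p.2 x₀ i) (∑ j, p.1 i j * x₀ j)
    have h7 : |aff (Matrix.of p.1) p.2 x₀ i| ≤ 1 := by
      rw [abs_le]; constructor <;> linarith
    rw [hD]
    linarith
  have hBox : IsCompact ((Set.pi univ fun _ : Fin n => Set.pi univ fun _ : Fin n => Icc (-C) C) ×ˢ
      (Set.pi univ fun _ : Fin n => Icc (-D) D)) :=
    (isCompact_univ_pi fun _ => isCompact_univ_pi fun _ => isCompact_Icc).prod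
      (isCompact_univ_pi fun _ => isCompact_Icc)
  have hFc : IsCompact F := by
    refine hBox.of_isClosed_subset hFcl ?_
    intro p hp
    refine ⟨fun i _ j _ => abs_le.1 (hbU p hp i j), fun i _ => abs_le.1 (hbW p hp i)⟩
  have hne : F.Nonempty := ⟨((U₀ : Fin n → Fin n → ℝ), w₀), h₀⟩
  have hdet : Continuous fun p : (Fin n → Fin n → ℝ) × (Fin n → ℝ) => |(Matrix.of p.1 : Matrix (Fin n) (Fin n) ℝ).det| := by
    refine Continuous.abs (Continuous.matrix_det ?_)
    refine continuous_matrix fun i j => ?_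
    simp only [Matrix.of_apply]
    fun_prop
  obtain ⟨p, hp, hpmax⟩ := hFc.exists_isMaxOn hne hdet.continuousOn
  refine ⟨Matrix.of p.1, p.2, hp, ?_⟩
  intro U' w' h'
  exact hpmax (show ((U' : Fin n → Fin n → ℝ), w') ∈ F from h')

end Vale.Agent.Lib.P254
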