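import Mathlib
import Vale.Agent.Lib.P254.Extremal

/-! Simplices as affine images of the standard simplex. -/

open MeasureTheory Set Filter Topology

namespace Vale.Agent.Lib.P254

variable {n : ℕ}

/-- The vertices of the standard simplex. -/
def vStd (n : ℕ) (i : Fin (n+1)) : Fin n → ℝ := fun j => if i = j.succ then 1 else 0

lemma bary_vStd (i l : Fin (n+1)) : bary (vStd n i) l = if l = i then 1 else 0 := by
  induction l using Fin.cases with
  | zero =>
    simp only [bary_zero, vStd]
    induction i using Fin.cases with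
    | zero => simp [(Fin.succ_ne_zero _).symm]
    | succ k => simp [Fin.succ_inj, (Fin.succ_ne_zero k).symm]
  | succ j =>
    simp only [bary_succ, vStd]
    by_cases h : i = j.succ
    · simp [h]
    · have : ¬ j.succ = i := fun h' => h h'.symm
      simp [h, this]

lemma eq_sum_bary (x : Fin n → ℝ) : x = ∑ i, bary x i • vStd n i := by
  funext j
  simp only [Finset.sum_apply, Pi.smul_apply, smul_eq_mul, vStd, mul_ite, mul_one, mul_zero]
  simp

lemma stdS_eq_hull (n : ℕ) : stdS n = convexHull ℝ (range (vStd n)) := by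
  apply Subset.antisymm
  · intro x hx
    rw [eq_sum_bary x]
    exact (convex_convexHull ℝ _).sum_mem (fun i _ => (mem_stdS_iff_bary x).1 hx i) (sum_bary x)
      (fun i _ => subset_convexHull ℝ _ (mem_range_self i))
  · apply convexHull_min _ (stdS_convex n)
    rintro _ ⟨i, rfl⟩
    rw [mem_stdS_iff_bary]
    intro l
    rw [bary_vStd]
    split_ifs <;> norm_num

lemma vStd_affineIndependent (n : ℕ) : AffineIndependent ℝ (vStd n) := by
  rw [affineIndependent_iff]
  intro s w hw h
  have hc : ∀ j : Fin n, ∑ e ∈ s, w e * vStd n e j = 0 := by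
    intro j
    have := congrFun h j
    simpa [Finset.sum_apply] using this
  have hs : ∀ j : Fin n, j.succ ∈ s → w j.succ = 0 := by
    intro j hj
    have := hc j
    simp only [vStd, mul_ite, mul_one, mul_zero] at this
    rw [Finset.sum_ite_eq' s j.succ w] at this
    simpa [hj] using this
  intro e he
  induction e using Fin.cases with
  | succ j => exact hs j he
  | zero =>
    rw [← hw]
    symm
    apply Finset.sum_eq_single_of_mem 0 he
    intro b hb hb0
    obtain ⟨j, rfl⟩ := Fin.exists_succ_eq.2 hb0
    exact hs j hb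
    
/-- The affine map `aff` as a bundled map. -/
noncomputable def affA (U : Matrix (Fin n) (Fin n) ℝ) (w : Fin n → ℝ) :
    (Fin n → ℝ) →ᵃ[ℝ] (Fin n → ℝ) :=
  (Matrix.toLin' U).toAffineMap + AffineMap.const ℝ (Fin n → ℝ) w

lemma coe_affA (U : Matrix (Fin n) (Fin n) ℝ) (w : Fin n → ℝ) : ⇑(affA U w) = aff U w := by
  funext x
  simp [affA, aff, Matrix.toLin'_apply]

lemma image_stdS_hull (U : Matrix (Fin n) (Fin n) ℝ) (w : Fin n → ℝ) :
    aff U w '' stdS n = convexHull ℝ (range (aff U w ∘ vStd n)) := by
  rw [stdS_eq_hull, ← coe_affA, AffineMap.image_convexHull, range_comp]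

/-- Nondegenerate affine images of the standard simplex are simplices. -/
theorem isSimplex_image {U : Matrix (Fin n) (Fin n) ℝ} (hU : U.det ≠ 0) (w : Fin n → ℝ) :
    IsSimplex (aff U w '' stdS n) := by
  refine ⟨aff U w ∘ vStd n, ?_, image_stdS_hull U w⟩
  rw [← coe_affA]
  exact (vStd_affineIndependent n).map' (affA U w) (by rw [coe_affA]; exact aff_injective hU w)

/-- Every simplex is a nondegenerate affine image of the standard simplex. -/
theorem simplex_eq_image {S : Set (Fin n → ℝ)} (hS : IsSimplex S) :
    ∃ (U : Matrix (Fin n) (Fin n) ℝ) (w : Fin n → ℝ), U.det ≠ 0 ∧ S = aff U w '' stdS n := by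
  obtain ⟨v, hv, rfl⟩ := hS
  set U : Matrix (Fin n) (Fin n) ℝ := Matrix.of fun j l => v l.succ j - v 0 j with hUdef
  have hcomp : aff U (v 0) ∘ vStd n = v := by
    funext i
    funext j
    simp only [Function.comp, aff_apply, hUdef, Matrix.of_apply, vStd]
    induction i using Fin.cases with
    | zero => simp [(Fin.succ_ne_zero _).symm]
    | succ k => simp [Fin.succ_inj]
  refine ⟨U, v 0, ?_, ?_⟩
  · intro hdet
    obtain ⟨x, hx0, hx⟩ := Matrix.exists_mulVec_eq_zero_iff.2 hdet
    rw [affineIndependent_iff] at hv
    have h := hv Finset.univ (Fin.cons (-∑ i, x i) x) (by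
      rw [Fin.sum_univ_succ]; simp) (by
      funext j
      have h1 := congrFun hx j
      simp only [Matrix.mulVec, dotProduct, hUdef, Matrix.of_apply, Pi.zero_apply] at h1
      simp only [Finset.sum_apply, Pi.smul_apply, smul_eq_mul, Pi.zero_apply]
      rw [Fin.sum_univ_succ]
      simp only [Fin.cons_zero, Fin.cons_succ]
      rw [← h1, neg_mul, Finset.sum_mul, neg_add_eq_sub, ← Finset.sum_sub_distrib]
      exact Finset.sum_congr rfl fun l _ => by ring)
    apply hx0
    funext i
    have := h i.succ (Finset.mem_univ _)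
    simpa using this
  · rw [image_stdS_hull, hcomp]

end Vale.Agent.Lib.P254
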