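import Mathlib
import Vale.Agent.Lib.P254.SimplexMap

/-! The local maximality theorem for the simplex. -/

open MeasureTheory Set Filter Topology

namespace Vale.Agent.Lib.P254

variable {n : ℕ}

lemma eps_bound1 (j : ℕ) : 1 / ((j:ℝ) + 5) ^ 5 < 1 / ((j:ℝ) + 3) := by
  have hJ : (0:ℝ) ≤ (j:ℝ) := Nat.cast_nonneg j
  apply one_div_lt_one_div_of_lt (by positivity)
  have h : ((j:ℝ) + 5) ^ 5 - ((j:ℝ) + 3) = (j:ℝ)^5 + 25 * (j:ℝ)^4 + 250 * (j:ℝ)^3 + 1250 * (j:ℝ)^2
      + 3124 * (j:ℝ) + 3122 := by ring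
  have h2 : 0 ≤ (j:ℝ)^5 + 25 * (j:ℝ)^4 + 250 * (j:ℝ)^3 + 1250 * (j:ℝ)^2 + 3124 * (j:ℝ) := by positivity
  linarith

lemma eps_bound2 (j : ℕ) : 1 / ((j:ℝ) + 5) ^ 5 ≤
    (4 / (((j:ℝ) + 2) * ((j:ℝ) + 3) * ((j:ℝ) + 4) * ((j:ℝ) + 5))) /
      ((1 + 4 / (((j:ℝ) + 2) * ((j:ℝ) + 3) * ((j:ℝ) + 4) * ((j:ℝ) + 5))) * ((j:ℝ) + 3)) := by
  have hJ : (0:ℝ) ≤ (j:ℝ) := Nat.cast_nonneg j
  set P : ℝ := ((j:ℝ) + 2) * ((j:ℝ) + 3) * ((j:ℝ) + 4) * ((j:ℝ) + 5) with hP
  have hPpos : 0 < P := by positivity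
  have e : (4 / P) / ((1 + 4 / P) * ((j:ℝ) + 3)) = 4 / ((P + 4) * ((j:ℝ) + 3)) := by
    field_simp
  rw [e, div_le_div_iff₀ (by positivity) (by positivity)]
  have h : 4 * ((j:ℝ) + 5) ^ 5 - (P + 4) * ((j:ℝ) + 3) = 3 * (j:ℝ)^5 + 83 * (j:ℝ)^4 + 887 * (j:ℝ)^3
      + 4633 * (j:ℝ)^2 + 11914 * (j:ℝ) + 12128 := by
    rw [hP]; ring
  have h2 : 0 ≤ 3 * (j:ℝ)^5 + 83 * (j:ℝ)^4 + 887 * (j:ℝ)^3 + 4633 * (j:ℝ)^2 + 11914 * (j:ℝ) := by
    positivity
  linarith

lemma cast_form (j : ℕ) : (((j + 1 : ℕ) : ℝ) + 1) = (j:ℝ) + 2 := by push_cast; ring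

lemma cast_form2 (j : ℕ) : (((j + 1 : ℕ) : ℝ) + 2) = (j:ℝ) + 3 := by push_cast; ring

/-- A closed convex subset of the simplex of full volume is the whole simplex. -/
lemma eq_stdS_of_vol_eq {K : Set (Fin n → ℝ)} (hcl : IsClosed K) (hconv : Convex ℝ K)
    (hsub : K ⊆ stdS n) (hvol : vol K = vol (stdS n)) : K = stdS n := by
  refine Subset.antisymm hsub fun x hx => ?_
  set c : Fin n → ℝ := fun _ => 1 / ((n:ℝ) + 1) with hc
  have hn1 : (0:ℝ) < (n:ℝ) + 1 := by positivity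
  have hbc : ∀ l, bary c l = 1 / ((n:ℝ) + 1) := by
    intro l
    induction l using Fin.cases with
    | zero =>
      simp only [bary_zero, hc, Finset.sum_const, Finset.card_univ, Fintype.card_fin, nsmul_eq_mul]
      field_simp
      ring
    | succ j => simp [hc]
  have hmem : ∀ s : ℝ, 0 < s → s < 1 → x + s • (c - x) ∈ K := by
    intro s hs hs1
    by_contra hnot
    have hε : 0 < s * (1 / ((n:ℝ) + 1)) := by positivity
    have hb : ∀ l, s * (1 / ((n:ℝ) + 1)) ≤ bary (x + s • (c - x)) l := by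
      intro l
      rw [bary_line, hbc]
      have h0 := (mem_stdS_iff_bary x).1 hx l
      nlinarith
    have h := volume_gap K hcl hconv hsub _ _ hε hb hnot
    rw [hvol, sub_self] at h
    have hV : 0 < vol (stdS n) := by rw [vol_stdS]; exact volS_pos n
    have : 0 < (s * (1 / ((n:ℝ) + 1))) ^ n / (1 + (s * (1 / ((n:ℝ) + 1))) ^ n) * vol (stdS n) := by
      positivity
    linarith
  have htend : Tendsto (fun s : ℝ => x + s • (c - x)) (𝓝[>] 0) (𝓝 x) := by
    have h1 : Continuous fun s : ℝ => x + s • (c - x) := by fun_prop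
    have h2 := h1.tendsto 0
    simp only [zero_smul, add_zero] at h2
    exact h2.mono_left nhdsWithin_le_nhds
  refine hcl.mem_of_tendsto htend ?_
  have hev : ∀ᶠ s in 𝓝[>] (0:ℝ), s < 1 :=
    (eventually_lt_nhds one_pos).filter_mono nhdsWithin_le_nhds
  filter_upwards [hev, self_mem_nhdsWithin] with s hs1 hs0
  exact hmem s hs0 hs1

/-- Isotropic constant of a simplex. -/
lemma isoConst_simplex {T : Set (Fin n → ℝ)} (hT : IsSimplex T) : isoConst T = isoConst (stdS n) := by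
  obtain ⟨U, w, hU, rfl⟩ := simplex_eq_image hT
  exact isoConst_aff_image hU w (stdS_isCompact n) (vol_stdS_ne n)

/-- The local maximality theorem, in explicit dimension `j + 2`. -/
theorem local_max_core (j : ℕ) {K S T : Set (Fin (j+2) → ℝ)} (hK : IsCompact K) (hconv : Convex ℝ K)
    (hint : (interior K).Nonempty) (hS : IsSimplex S) (hT : IsSimplex T) (hKS : K ⊆ S)
    (hvol : (1 - (1 / ((j:ℝ) + 5) ^ 5) ^ (j+2) / 2) * vol S ≤ vol K) :
    isoConst K ≤ isoConst T ∧ (isoConst K = isoConst T → IsSimplex K) := by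
  set ε : ℝ := 1 / ((j:ℝ) + 5) ^ 5 with hε
  have hJ : (0:ℝ) ≤ (j:ℝ) := Nat.cast_nonneg j
  have hε0 : 0 < ε := by positivity
  have hε1 : ε < 1 := by
    rw [hε, div_lt_one (by positivity)]
    have : (1:ℝ) < (j:ℝ) + 5 := by linarith
    exact one_lt_pow₀ this (by norm_num)
  set E : ℝ := ε ^ (j+2) with hE
  have hE0 : 0 < E := by positivity
  have hE1 : E < 1 := pow_lt_one₀ hε0.le hε1 (by omega)
  -- reduction to the standard simplex
  obtain ⟨V, v₀, hV, rfl⟩ := simplex_eq_image hS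
  have hVS : IsUnit V.det := isUnit_iff_ne_zero.2 hV
  set A := V⁻¹ with hA
  have hdetA : A.det * V.det = 1 := by
    rw [← Matrix.det_mul, hA, Matrix.nonsing_inv_mul V hVS, Matrix.det_one]
  have hfeas : ∀ x ∈ K, aff A (-(V⁻¹.mulVec v₀)) x ∈ stdS (j+2) := by
    intro x hx
    obtain ⟨y, hy, rfl⟩ := hKS hx
    rw [hA, aff_inv_left hV]
    exact hy
  obtain ⟨U, w, hUK, hmax⟩ := exists_max_aff hint A _ hfeas
  have hAU := hmax A _ hfeas
  have hAne : A.det ≠ 0 := left_ne_zero_of_mul_eq_one hdetA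
  have hU : U.det ≠ 0 := by
    intro h
    rw [h, abs_zero] at hAU
    exact hAne (abs_nonpos_iff.1 hAU)
  have hUpos : 0 < |U.det| := abs_pos.2 hU
  have hKm : MeasurableSet K := hK.measurableSet
  set K₁ := aff U w '' K with hK₁
  have hK₁c : IsCompact K₁ := hK.image (aff_continuous U w)
  have hK₁cl : IsClosed K₁ := hK₁c.isClosed
  have hK₁conv : Convex ℝ K₁ := by
    rw [hK₁, ← coe_affA]
    exact hconv.affine_image (affA U w) 
  have hK₁sub : K₁ ⊆ stdS (j+2) := by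
    rintro _ ⟨x, hx, rfl⟩
    exact hUK x hx
  have hvolS : 0 < vol (stdS (j+2)) := by rw [vol_stdS]; exact volS_pos _
  have hvol₁ : vol K₁ = |U.det| * vol K := vol_aff_image hU w hKm
  have hvol₂ : (1 - E / 2) * vol (stdS (j+2)) ≤ vol K₁ := by
    rw [vol_aff_image hV v₀ (stdS_measurable _)] at hvol
    have hAV : |A.det| * |V.det| = 1 := by rw [← abs_mul, hdetA, abs_one]
    have h1 : (1 - E / 2) * vol (stdS (j+2)) = |A.det| * ((1 - E / 2) * (|V.det| * vol (stdS (j+2)))) := by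
      calc (1 - E / 2) * vol (stdS (j+2)) = (|A.det| * |V.det|) * ((1 - E / 2) * vol (stdS (j+2))) := by
            rw [hAV, one_mul]
        _ = _ := by ring
    rw [h1, hvol₁]
    have hvolK : 0 ≤ vol K := ENNReal.toReal_nonneg
    calc |A.det| * ((1 - E / 2) * (|V.det| * vol (stdS (j+2)))) ≤ |A.det| * vol K :=
          mul_le_mul_of_nonneg_left hvol (abs_nonneg _)
      _ ≤ |U.det| * vol K := mul_le_mul_of_nonneg_right hAU hvolK
  have hvol₁pos : 0 < vol K₁ := by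
    have : 0 < (1 - E / 2) * vol (stdS (j+2)) := mul_pos (by linarith) hvolS
    linarith
  have hvolKne : vol K ≠ 0 := by
    intro h
    rw [hvol₁, h, mul_zero] at hvol₁pos
    exact lt_irrefl _ hvol₁pos
  -- maximality for the image
  have hM : MaxDet K₁ := by
    intro U' w' h'
    have h1 := hmax (U' * U) (U'.mulVec w + w') (by
      intro x hx
      rw [← aff_comp]
      exact h' _ ⟨x, hx, rfl⟩)
    rw [Matrix.det_mul, abs_mul] at h1
    exact le_of_mul_le_mul_right (by linarith) hUpos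
  -- contact points
  have hcontact : ∀ σ : Equiv.Perm (Fin (j+3)),
      permMap σ (Fin.cons 0 (fun _ => 1 / ((j:ℝ) + 2)) : Fin (j+2) → ℝ) ∈ K₁ := by
    intro σ
    have := contact_all (j+1) hK₁c hK₁conv hK₁sub hM σ
    rwa [cast_form] at this
  -- inner points
  have hin : ∀ x, (∀ l, ε ≤ bary x l) → x ∈ K₁ := by
    intro x hx
    by_contra hnot
    have h := volume_gap K₁ hK₁cl hK₁conv hK₁sub x ε hε0 hx hnot
    have h2 : E / 2 < E / (1 + E) := by
      apply div_lt_div_of_pos_left hE0 (by positivity)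
      linarith
    have h3 : E / 2 * vol (stdS (j+2)) < E / (1 + E) * vol (stdS (j+2)) :=
      mul_lt_mul_of_pos_right h2 hvolS
    nlinarith
  have hγ := first_variation_nonneg j K₁ hK₁cl hK₁conv hK₁sub ε (eps_bound1 j) (eps_bound2 j) hin hcontact
  rw [← cast_form2] at hγ
  obtain ⟨hle, heq⟩ := main_ineq (j+1) hK₁c hK₁sub hvol₁pos hγ
  -- transfer
  have hiso : isoConst K = isoConst K₁ := (isoConst_aff_image hU w hK hvolKne).symm
  have hisoT := isoConst_simplex hT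
  rw [hiso, hisoT]
  have hr₁ : 0 ≤ (covMat K₁).det / vol K₁ ^ 2 :=
    div_nonneg (covMat_posSemidef hK₁c).det_nonneg (by positivity)
  have hr₂ : 0 ≤ (covMat (stdS (j+2))).det / vol (stdS (j+2)) ^ 2 :=
    div_nonneg (covMat_posSemidef (stdS_isCompact _)).det_nonneg (by positivity)
  have hexp : (1:ℝ) / (2 * (((j+2 : ℕ) : ℝ))) ≠ 0 := by
    have : (0:ℝ) < (((j+2 : ℕ) : ℝ)) := by positivity
    positivity
  constructor
  · exact Real.rpow_le_rpow hr₁ hle (by positivity)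
  · intro h
    have h1 := (Real.rpow_left_inj hr₁ hr₂ hexp).1 h
    have h2 := eq_stdS_of_vol_eq hK₁cl hK₁conv hK₁sub (heq h1)
    have h3 : K = aff U⁻¹ (-(U⁻¹.mulVec w)) '' stdS (j+2) := by
      rw [← h2, hK₁, image_image]
      simp only [aff_inv_left hU, image_id']
    rw [h3]
    refine isSimplex_image ?_ _
    intro h0
    have h4 : U⁻¹.det * U.det = 1 := by
      rw [← Matrix.det_mul, Matrix.nonsing_inv_mul U (isUnit_iff_ne_zero.2 hU), Matrix.det_one]
    rw [h0, zero_mul] at h4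
    exact zero_ne_one h4

/-- The local maximality theorem. -/
theorem local_max {n : ℕ} (hn : 2 ≤ n) {K S T : Set (Fin n → ℝ)} (hK : IsCompact K)
    (hconv : Convex ℝ K) (hint : (interior K).Nonempty) (hS : IsSimplex S) (hT : IsSimplex T)
    (hKS : K ⊆ S) (hvol : (1 - 1 / (2 * ((n:ℝ) + 3) ^ (5 * n))) * vol S ≤ vol K) :
    isoConst K ≤ isoConst T ∧ (isoConst K = isoConst T → IsSimplex K) := by
  obtain ⟨j, rfl⟩ : ∃ j, n = j + 2 := ⟨n - 2, by omega⟩
  apply local_max_core j hK hconv hint hS hT hKS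
  convert hvol using 3
  push_cast
  have : (j:ℝ) + 2 + 3 = (j:ℝ) + 5 := by ring
  rw [this, one_div_pow, ← pow_mul]
  field_simp

end Vale.Agent.Lib.P254
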