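import Mathlib
import Vale.Agent.Lib.P254.Final

/-! Convex hulls of a simplex and one further point: decomposition and moments. -/

open MeasureTheory Set

namespace Vale.Agent.Lib.P254

variable {m : ℕ}

/-- Replace the `i`-th column of the identity matrix by `p`. -/
def colU (p : Fin (m+1) → ℝ) (i : Fin (m+1)) : Matrix (Fin (m+1)) (Fin (m+1)) ℝ :=
  (1 : Matrix (Fin (m+1)) (Fin (m+1)) ℝ).updateCol i p

lemma colU_det (p : Fin (m+1) → ℝ) (i : Fin (m+1)) : (colU p i).det = p i := by
  rw [colU, ← Matrix.cramer_apply, Matrix.cramer_one]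
  rfl

lemma aff_colU (p x : Fin (m+1) → ℝ) (i k : Fin (m+1)) :
    aff (colU p i) 0 x k = (if k = i then 0 else x k) + x i * p k := by
  rw [aff_apply]
  simp only [colU, Matrix.updateCol_apply, Pi.zero_apply, add_zero]
  have e : ∀ j, (if j = i then p k else (1 : Matrix (Fin (m+1)) (Fin (m+1)) ℝ) k j) * x j
      = (if j = i then x i * p k else 0) + (if j = i then 0 else (if k = j then x j else 0)) := by
    intro j
    by_cases h : j = i
    · subst h; simp [mul_comm]
    · simp only [if_neg h, zero_add, Matrix.one_apply]
      by_cases h2 : k = j <;> simp [h2]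
  simp_rw [e]
  rw [Finset.sum_add_distrib]
  simp only [Finset.sum_ite_eq', Finset.mem_univ, if_true]
  by_cases h : k = i
  · subst h
    have : ∀ j, (if j = k then (0:ℝ) else if k = j then x j else 0) = 0 := by
      intro j
      by_cases h2 : j = k
      · simp [h2]
      · simp [h2, Ne.symm h2]
    simp [this]
  · have : ∀ j, (if j = i then (0:ℝ) else if k = j then x j else 0) = if j = k then x j else 0 := by
      intro j
      by_cases h2 : j = i
      · subst h2; simp [Ne.symm h]
      · by_cases h3 : j = k
        · subst h3; simp [h2]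
        · simp [h2, h3, Ne.symm h3]
    simp_rw [this]
    simp [h, add_comm]

lemma bary_combo (a b : ℝ) (hab : a + b = 1) (x y : Fin (m+1) → ℝ) (l : Fin (m+2)) :
    bary (a • x + b • y) l = a * bary x l + b * bary y l := by
  induction l using Fin.cases with
  | zero =>
    simp only [bary_zero, Pi.add_apply, Pi.smul_apply, smul_eq_mul]
    rw [Finset.sum_add_distrib, ← Finset.mul_sum, ← Finset.mul_sum]
    have : b = 1 - a := by linarith
    subst this
    ring
  | succ j => simp

/-- The convex hull of the standard simplex and a point. -/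
def hullP (p : Fin (m+1) → ℝ) : Set (Fin (m+1) → ℝ) :=
  convexHull ℝ (insert p (range (vStd (m+1))))

lemma hullP_isCompact (p : Fin (m+1) → ℝ) : IsCompact (hullP p) :=
  Set.Finite.isCompact_convexHull ℝ ((finite_range _).insert p)

lemma hullP_subset (p : Fin (m+1) → ℝ) :
    hullP p ⊆ {x | ∃ γ : ℝ, 0 ≤ γ ∧ ∀ l, γ * bary p l ≤ bary x l} := by
  unfold hullP
  refine convexHull_min ?_ ?_
  · rintro x (rfl | ⟨i, rfl⟩)
    · exact ⟨1, zero_le_one, fun l => by simp⟩
    · refine ⟨0, le_rfl, fun l => ?_⟩
      rw [zero_mul, bary_vStd]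
      split_ifs <;> norm_num
  · rintro x ⟨γ, hγ, hx⟩ y ⟨γ', hγ', hy⟩ a b ha hb hab
    refine ⟨a * γ + b * γ', by positivity, fun l => ?_⟩
    rw [bary_combo a b hab]
    have h1 := mul_le_mul_of_nonneg_left (hx l) ha
    have h2 := mul_le_mul_of_nonneg_left (hy l) hb
    calc (a * γ + b * γ') * bary p l = a * (γ * bary p l) + b * (γ' * bary p l) := by ring
      _ ≤ _ := add_le_add h1 h2

/-- The pieces of the decomposition. -/
noncomputable def piece (p : Fin (m+1) → ℝ) (i : Fin (m+1)) : Set (Fin (m+1) → ℝ) :=
  if 0 < p i then aff (colU p i) 0 '' stdS (m+1) else ∅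

lemma piece_isCompact (p : Fin (m+1) → ℝ) (i : Fin (m+1)) : IsCompact (piece p i) := by
  unfold piece
  split_ifs
  · exact (stdS_isCompact _).image (aff_continuous _ _)
  · exact isCompact_empty

lemma piece_subset (p : Fin (m+1) → ℝ) (i : Fin (m+1)) : piece p i ⊆ hullP p := by
  unfold piece
  split_ifs with h
  · rw [image_stdS_hull]
    apply convexHull_mono
    rintro _ ⟨l, rfl⟩
    simp only [Function.comp]
    induction l using Fin.cases with
    | zero =>
      right
      refine ⟨0, ?_⟩
      funext k
      rw [aff_colU]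
      simp only [vStd, (Fin.succ_ne_zero _).symm, if_false]
      simp
    | succ j =>
      by_cases hj : j = i
      · subst hj
        left
        funext k
        rw [aff_colU]
        by_cases hk : k = j
        · subst hk; simp [vStd]
        · have : ¬ j.succ = k.succ := by simpa using Ne.symm hk
          simp [vStd, hk, this]
      · right
        refine ⟨j.succ, ?_⟩
        funext k
        rw [aff_colU]
        have h1 : ¬ j.succ = i.succ := by simpa using hj
        by_cases hk : k = i
        · subst hk; simp [vStd, h1]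
        · simp [vStd, h1, hk]
  · exact empty_subset _

lemma piece_ineq (p : Fin (m+1) → ℝ) (i k : Fin (m+1)) {x : Fin (m+1) → ℝ} (hx : x ∈ piece p i) :
    0 < p i ∧ p k * x i ≤ p i * x k := by
  unfold piece at hx
  split_ifs at hx with h
  · obtain ⟨y, hy, rfl⟩ := hx
    refine ⟨h, ?_⟩
    rw [aff_colU, aff_colU]
    simp only [if_true]
    by_cases hk : k = i
    · subst hk; simp only [if_true]; exact le_rfl
    · simp only [if_neg hk]
      have := mul_nonneg h.le (hy.1 k)
      nlinarith
  · exact absurd hx (notMem_empty _)

/-- The decomposition of the hull into pieces. -/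
lemma hullP_eq_iUnion (p : Fin (m+1) → ℝ) (hb : bary p 0 < 0) : hullP p = ⋃ i, piece p i := by
  apply Subset.antisymm
  · intro x hx
    obtain ⟨γ, hγ, hγx⟩ := hullP_subset p hx
    -- the set of positive coordinates is nonempty
    have hsum : 1 < ∑ k, p k := by
      have : bary p 0 = 1 - ∑ k, p k := rfl
      linarith
    have hex : ∃ k, 0 < p k := by
      by_contra hno
      push Not at hno
      have : ∑ k, p k ≤ 0 := Finset.sum_nonpos fun k _ => hno k
      linarith
    obtain ⟨k₀, hk₀⟩ := hex
    set I := Finset.univ.filter (fun k => 0 < p k) with hI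
    have hIne : I.Nonempty := ⟨k₀, by simp [hI, hk₀]⟩
    obtain ⟨i, hiI, himin⟩ := Finset.exists_min_image I (fun k => x k / p k) hIne
    have hpi : 0 < p i := by simpa [hI] using hiI
    set r := x i / p i with hr
    have hrp : r * p i = x i := by rw [hr]; field_simp
    have hγr : γ ≤ r := by
      rw [hr, le_div_iff₀ hpi]
      have := hγx i.succ
      simpa using this
    have hr0 : 0 ≤ r := hγ.trans hγr
    refine mem_iUnion.2 ⟨i, ?_⟩
    unfold piece
    rw [if_pos hpi]
    refine ⟨fun k => x k - r * p k + (if k = i then r else 0), ⟨fun k => ?_, ?_⟩, ?_⟩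
    · by_cases hk : k = i
      · subst hk
        simp only [if_true]
        linarith
      · simp only [if_neg hk, add_zero]
        by_cases hpk : 0 < p k
        · have := himin k (by simp [hI, hpk])
          have h2 : r * p k ≤ x k := (le_div_iff₀ hpk).1 this
          linarith
        · have h1 := hγx k.succ
          simp only [bary_succ] at h1
          have h2 : r * p k ≤ γ * p k := mul_le_mul_of_nonpos_right hγr (not_lt.1 hpk)
          linarith
    · rw [Finset.sum_add_distrib, Finset.sum_sub_distrib, ← Finset.mul_sum]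
      simp only [Finset.sum_ite_eq', Finset.mem_univ, if_true]
      have h1 := hγx 0
      simp only [bary_zero] at h1 hb
      have h2 : r * (1 - ∑ k, p k) ≤ γ * (1 - ∑ k, p k) :=
        mul_le_mul_of_nonpos_right hγr hb.le
      linarith
    · funext k
      rw [aff_colU]
      simp only [if_true]
      have hii : x i - r * p i + r = r := by rw [hrp]; ring
      rw [hii]
      by_cases hk : k = i
      · subst hk; simp [hrp]
      · simp [hk]
  · exact iUnion_subset (piece_subset p)

lemma piece_inter_null (p : Fin (m+1) → ℝ) {i j : Fin (m+1)} (hij : i ≠ j) :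
    volume (piece p i ∩ piece p j) = 0 := by
  by_cases hi : 0 < p i
  · have hsub : piece p i ∩ piece p j ⊆
        {x | (p j • (LinearMap.proj i : (Fin (m+1) → ℝ) →ₗ[ℝ] ℝ) -
          p i • (LinearMap.proj j : (Fin (m+1) → ℝ) →ₗ[ℝ] ℝ)) x = 0} := by
      rintro x ⟨hx1, hx2⟩
      have h1 := (piece_ineq p i j hx1).2
      have h2 := (piece_ineq p j i hx2).2
      simp only [mem_ofPred_eq, LinearMap.sub_apply, LinearMap.smul_apply, LinearMap.proj_apply,
        smul_eq_mul]
      linarith
    refine measure_mono_null hsub (null_hyperplane _ ?_ 0)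
    intro h0
    have h1 := LinearMap.congr_fun h0 (Pi.single j 1)
    simp [hij] at h1
    exact hi.ne' h1
  · have : piece p i = ∅ := by
      unfold piece
      rw [if_neg hi]
    rw [this]
    simp

/-- Integration over the hull. -/
theorem integral_hullP (p : Fin (m+1) → ℝ) (hb : bary p 0 < 0) (f : (Fin (m+1) → ℝ) → ℝ)
    (hf : Continuous f) :
    ∫ x in hullP p, f x = ∑ i, max (p i) 0 * ∫ x in stdS (m+1), f (aff (colU p i) 0 x) := by
  have h := integral_iUnion_ae (f := f) (μ := volume) (s := piece p)
    (fun i => (piece_isCompact p i).measurableSet.nullMeasurableSet)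
    (by
      intro i j hij
      exact piece_inter_null p hij)
    (by rw [← hullP_eq_iUnion p hb]; exact integrableOn_of_compact (hullP_isCompact p) hf)
  rw [← hullP_eq_iUnion p hb, tsum_fintype] at h
  rw [h]
  refine Finset.sum_congr rfl fun i _ => ?_
  by_cases hi : 0 < p i
  · have hd : (colU p i).det ≠ 0 := by rw [colU_det]; exact hi.ne'
    have e : piece p i = aff (colU p i) 0 '' stdS (m+1) := by
      unfold piece
      rw [if_pos hi]
    rw [e, integral_aff_image hd 0 (stdS_measurable _), colU_det, abs_of_pos hi,
      max_eq_left hi.le]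
  · have e : piece p i = ∅ := by
      unfold piece
      rw [if_neg hi]
    rw [e, max_eq_right (not_lt.1 hi)]
    simp

end Vale.Agent.Lib.P254
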