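import Mathlib
import Vale.Agent.Lib.P254.Vertices

/-! Moments of the convex hull of a simplex and one further point. -/

open MeasureTheory Set

namespace Vale.Agent.Lib.P254

variable {m : ℕ}

lemma int_g (p : Fin (m+1) → ℝ) (i k : Fin (m+1)) :
    ∫ x in stdS (m+1), aff (colU p i) 0 x k
      = volS (m+1) / ((m:ℝ) + 2) * ((if k = i then 0 else 1) + p k) := by
  simp_rw [aff_colU]
  have h1 : IntegrableOn (fun x : Fin (m+1) → ℝ => x i * p k) (stdS (m+1)) :=
    integrableOn_stdS (by fun_prop)
  have h2 : ∫ x in stdS (m+1), x i * p k = volS (m+1) / ((m:ℝ) + 2) * p k := by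
    rw [integral_mul_const, integral_coord_stdS]
  by_cases h : k = i
  · subst h
    simp only [if_true, zero_add]
    rw [h2]
  · simp only [if_neg h]
    rw [integral_add (integrableOn_stdS (continuous_apply k)) h1, h2, integral_coord_stdS]
    ring

lemma int_gg (p : Fin (m+1) → ℝ) (i k l : Fin (m+1)) :
    ∫ x in stdS (m+1), aff (colU p i) 0 x k * aff (colU p i) 0 x l
      = volS (m+1) / (((m:ℝ) + 2) * ((m:ℝ) + 3)) *
        ((if k = i then 0 else 1) * (if l = i then 0 else 1) * (if k = l then 2 else 1)
          + (if k = i then 0 else 1) * p l + (if l = i then 0 else 1) * p k + 2 * p k * p l) := by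
  simp_rw [aff_colU]
  set ek : ℝ := if k = i then 0 else 1 with hek
  set el : ℝ := if l = i then 0 else 1 with hel
  have hk : ∀ x : Fin (m+1) → ℝ, (if k = i then 0 else x k) = ek * x k := by
    intro x; rw [hek]; split_ifs <;> simp
  have hl : ∀ x : Fin (m+1) → ℝ, (if l = i then 0 else x l) = el * x l := by
    intro x; rw [hel]; split_ifs <;> simp
  simp_rw [hk, hl]
  have e : ∀ x : Fin (m+1) → ℝ, (ek * x k + x i * p k) * (el * x l + x i * p l)
      = ek * el * (x k * x l) + ek * p l * (x k * x i) + el * p k * (x l * x i)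
        + p k * p l * (x i * x i) := by
    intro x; ring
  simp_rw [e]
  have c1 : ∀ a b : Fin (m+1), IntegrableOn (fun x : Fin (m+1) → ℝ => x a * x b) (stdS (m+1)) :=
    fun a b => integrableOn_stdS (by fun_prop)
  have i1 : IntegrableOn (fun x : Fin (m+1) → ℝ => ek * el * (x k * x l)) (stdS (m+1)) :=
    (c1 k l).const_mul _
  have i2 : IntegrableOn (fun x : Fin (m+1) → ℝ => ek * p l * (x k * x i)) (stdS (m+1)) :=
    (c1 k i).const_mul _
  have i3 : IntegrableOn (fun x : Fin (m+1) → ℝ => el * p k * (x l * x i)) (stdS (m+1)) :=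
    (c1 l i).const_mul _
  have i4 : IntegrableOn (fun x : Fin (m+1) → ℝ => p k * p l * (x i * x i)) (stdS (m+1)) :=
    (c1 i i).const_mul _
  have i12 : IntegrableOn (fun x : Fin (m+1) → ℝ => ek * el * (x k * x l) + ek * p l * (x k * x i))
      (stdS (m+1)) := i1.add i2
  have i123 : IntegrableOn (fun x : Fin (m+1) → ℝ => ek * el * (x k * x l) + ek * p l * (x k * x i)
      + el * p k * (x l * x i)) (stdS (m+1)) := i12.add i3
  rw [integral_add i123 i4, integral_add i12 i3, integral_add i1 i2]
  simp only [integral_const_mul, integral_coord_mul_stdS]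
  have e1 : ek * (if k = i then (2:ℝ) else 1) = ek := by
    rw [hek]; split_ifs <;> simp
  have e2 : el * (if l = i then (2:ℝ) else 1) = el := by
    rw [hel]; split_ifs <;> simp
  simp only [if_true]
  have hm2 : ((m:ℝ) + 2) * ((m:ℝ) + 3) ≠ 0 := by positivity
  field_simp
  linear_combination (volS (m+1)) * p l * e1 + (volS (m+1)) * p k * e2

/-- The weight `a i`: the positive part. -/
noncomputable def posW (p : Fin (m+1) → ℝ) (i : Fin (m+1)) : ℝ := max (p i) 0

/-- The negative part. -/
noncomputable def negW (p : Fin (m+1) → ℝ) (i : Fin (m+1)) : ℝ := max (-(p i)) 0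

lemma p_eq (p : Fin (m+1) → ℝ) (i : Fin (m+1)) : p i = posW p i - negW p i := by
  simp only [posW, negW]
  rcases le_total (p i) 0 with h | h
  · rw [max_eq_right h, max_eq_left (by linarith)]; ring
  · rw [max_eq_left h, max_eq_right (by linarith)]; ring

lemma pos_mul_neg (p : Fin (m+1) → ℝ) (i : Fin (m+1)) : posW p i * negW p i = 0 := by
  simp only [posW, negW]
  rcases le_total (p i) 0 with h | h
  · rw [max_eq_right h]; ring
  · rw [max_eq_right (by linarith : -(p i) ≤ 0)]; ring

lemma posW_nonneg (p : Fin (m+1) → ℝ) (i : Fin (m+1)) : 0 ≤ posW p i := le_max_right _ _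

lemma negW_nonneg (p : Fin (m+1) → ℝ) (i : Fin (m+1)) : 0 ≤ negW p i := le_max_right _ _

/-- The total positive weight. -/
noncomputable def totW (p : Fin (m+1) → ℝ) : ℝ := ∑ i, posW p i

lemma totW_pos (p : Fin (m+1) → ℝ) (hb : bary p 0 < 0) : 0 < totW p := by
  have h1 : bary p 0 = 1 - ∑ k, p k := rfl
  have h2 : ∑ k, p k ≤ totW p := Finset.sum_le_sum fun k _ => le_max_left _ _
  linarith

lemma sum_weight_e (p : Fin (m+1) → ℝ) (k : Fin (m+1)) :
    ∑ i, posW p i * (if k = i then (0:ℝ) else 1) = totW p - posW p k := by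
  have e : ∀ i, posW p i * (if k = i then (0:ℝ) else 1) = posW p i - (if k = i then posW p i else 0) := by
    intro i; split_ifs <;> simp
  simp_rw [e]
  rw [Finset.sum_sub_distrib]
  simp [totW]

lemma sum_weight_ee (p : Fin (m+1) → ℝ) {k l : Fin (m+1)} (hkl : k ≠ l) :
    ∑ i, posW p i * ((if k = i then (0:ℝ) else 1) * (if l = i then (0:ℝ) else 1))
      = totW p - posW p k - posW p l := by
  have e : ∀ i, posW p i * ((if k = i then (0:ℝ) else 1) * (if l = i then (0:ℝ) else 1))
      = posW p i - (if k = i then posW p i else 0) - (if l = i then posW p i else 0) := by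
    intro i
    by_cases h1 : k = i
    · subst h1; simp [Ne.symm hkl]
    · by_cases h2 : l = i
      · subst h2; simp [h1]
      · simp [h1, h2]
  simp_rw [e]
  rw [Finset.sum_sub_distrib, Finset.sum_sub_distrib]
  simp [totW]

lemma vol_hullP (p : Fin (m+1) → ℝ) (hb : bary p 0 < 0) :
    vol (hullP p) = totW p * volS (m+1) := by
  rw [vol_eq_integral, integral_hullP p hb _ continuous_const]
  simp only [integral_const_stdS, mul_one]
  rw [totW, Finset.sum_mul]
  rfl

lemma int_coord_hullP (p : Fin (m+1) → ℝ) (hb : bary p 0 < 0) (k : Fin (m+1)) :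
    ∫ x in hullP p, x k
      = volS (m+1) / ((m:ℝ) + 2) * (totW p - posW p k + totW p * p k) := by
  rw [integral_hullP p hb _ (continuous_apply k)]
  simp_rw [int_g]
  have e : ∀ i, max (p i) 0 * (volS (m+1) / ((m:ℝ) + 2) * ((if k = i then 0 else 1) + p k))
      = volS (m+1) / ((m:ℝ) + 2) * (posW p i * (if k = i then 0 else 1) + posW p i * p k) := by
    intro i; simp only [posW]; ring
  simp_rw [e]
  rw [← Finset.mul_sum, Finset.sum_add_distrib, sum_weight_e, ← Finset.sum_mul]
  rfl

lemma int_mul_hullP (p : Fin (m+1) → ℝ) (hb : bary p 0 < 0) (k l : Fin (m+1)) :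
    ∫ x in hullP p, x k * x l
      = volS (m+1) / (((m:ℝ) + 2) * ((m:ℝ) + 3)) *
        ((if k = l then 2 * (totW p - posW p k) else totW p - posW p k - posW p l)
          + (totW p - posW p k) * p l + (totW p - posW p l) * p k + 2 * totW p * (p k * p l)) := by
  rw [integral_hullP p hb _ (by fun_prop)]
  simp_rw [int_gg]
  have e : ∀ i, max (p i) 0 * (volS (m+1) / (((m:ℝ) + 2) * ((m:ℝ) + 3)) *
        ((if k = i then 0 else 1) * (if l = i then 0 else 1) * (if k = l then 2 else 1)
          + (if k = i then 0 else 1) * p l + (if l = i then 0 else 1) * p k + 2 * p k * p l))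
      = volS (m+1) / (((m:ℝ) + 2) * ((m:ℝ) + 3)) *
        ((if k = l then (2:ℝ) else 1) * (posW p i * ((if k = i then 0 else 1) * (if l = i then 0 else 1)))
          + (posW p i * (if k = i then 0 else 1)) * p l + (posW p i * (if l = i then 0 else 1)) * p k
          + 2 * (posW p i * (p k * p l))) := by
    intro i; simp only [posW]; ring
  simp_rw [e]
  rw [← Finset.mul_sum]
  congr 1
  rw [Finset.sum_add_distrib, Finset.sum_add_distrib, Finset.sum_add_distrib, ← Finset.mul_sum,
    ← Finset.mul_sum, ← Finset.sum_mul, ← Finset.sum_mul, ← Finset.sum_mul, sum_weight_e, sum_weight_e]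
  by_cases hkl : k = l
  · subst hkl
    simp only [if_true]
    have : ∑ i, posW p i * ((if k = i then (0:ℝ) else 1) * (if k = i then (0:ℝ) else 1))
        = totW p - posW p k := by
      rw [← sum_weight_e]
      refine Finset.sum_congr rfl fun i _ => ?_
      split_ifs <;> simp
    rw [this]
    simp only [totW]
    ring
  · simp only [if_neg hkl, one_mul]
    rw [sum_weight_ee p hkl]
    simp only [totW]
    ring

end Vale.Agent.Lib.P254
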