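import Mathlib
import Vale.Agent.Lib.P254.Vertices2

/-! The covariance matrix of the hull and its determinant. -/

open MeasureTheory Set

namespace Vale.Agent.Lib.P254

variable {m : ℕ}

/-- The normalized positive part: the Radon point. -/
noncomputable def abar (p : Fin (m+1) → ℝ) (k : Fin (m+1)) : ℝ := posW p k / totW p

/-- The centroid direction. -/
noncomputable def dvec (p : Fin (m+1) → ℝ) (k : Fin (m+1)) : ℝ := 1 + p k - abar p k

lemma vol_hullP_ne (p : Fin (m+1) → ℝ) (hb : bary p 0 < 0) : vol (hullP p) ≠ 0 := by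
  rw [vol_hullP p hb]
  exact (mul_pos (totW_pos p hb) (volS_pos _)).ne'

lemma centroid_hullP (p : Fin (m+1) → ℝ) (hb : bary p 0 < 0) (k : Fin (m+1)) :
    centroid (hullP p) k = dvec p k / ((m:ℝ) + 2) := by
  have hw := (totW_pos p hb).ne'
  have hV := (volS_pos (m+1)).ne'
  have hN : (m:ℝ) + 2 ≠ 0 := by positivity
  rw [centroid, int_coord_hullP p hb, vol_hullP p hb, dvec, abar]
  field_simp
  ring

lemma covMat_hullP_apply (p : Fin (m+1) → ℝ) (hb : bary p 0 < 0) (k l : Fin (m+1)) :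
    covMat (hullP p) k l = (1 / (((m:ℝ) + 2) * ((m:ℝ) + 3))) *
      ((if k = l then 1 else 0) + p k * p l - abar p k * abar p l
        - dvec p k * dvec p l / ((m:ℝ) + 2)) := by
  have hw := (totW_pos p hb).ne'
  have hV := (volS_pos (m+1)).ne'
  have hN : (m:ℝ) + 2 ≠ 0 := by positivity
  have hN1 : (m:ℝ) + 3 ≠ 0 := by positivity
  rw [covMat_eq (hullP_isCompact p) (vol_hullP_ne p hb), int_mul_hullP p hb, vol_hullP p hb,
    centroid_hullP p hb, centroid_hullP p hb]
  simp only [dvec, abar]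
  by_cases h : k = l
  · subst h
    simp only [if_true]
    field_simp
    ring
  · simp only [if_neg h]
    field_simp
    ring

/-- The factor `X`. -/
noncomputable def Xm (p : Fin (m+1) → ℝ) : Matrix (Fin (m+1)) (Fin 3) ℝ :=
  Matrix.of fun k r => ![p k, abar p k, dvec p k] r

/-- The factor `Y`. -/
noncomputable def Ym (p : Fin (m+1) → ℝ) : Matrix (Fin 3) (Fin (m+1)) ℝ :=
  Matrix.of fun r k => ![p k, -abar p k, -(dvec p k / ((m:ℝ) + 2))] r

lemma covMat_hullP (p : Fin (m+1) → ℝ) (hb : bary p 0 < 0) :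
    covMat (hullP p) = (1 / (((m:ℝ) + 2) * ((m:ℝ) + 3))) • (1 + Xm p * Ym p) := by
  ext k l
  rw [covMat_hullP_apply p hb]
  simp only [Matrix.smul_apply, Matrix.add_apply, Matrix.one_apply, Matrix.mul_apply,
    Fin.sum_univ_three, Xm, Ym, Matrix.of_apply, smul_eq_mul]
  simp only [Matrix.cons_val_zero, Matrix.cons_val_one, Matrix.cons_val]
  ring

lemma sum_pp (p : Fin (m+1) → ℝ) :
    ∑ k, p k * p k = ∑ k, posW p k ^ 2 + ∑ k, negW p k ^ 2 := by
  rw [← Finset.sum_add_distrib]
  refine Finset.sum_congr rfl fun k _ => ?_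
  have h1 := p_eq p k
  have h2 := pos_mul_neg p k
  have h3 : p k * p k = (posW p k - negW p k) * (posW p k - negW p k) := by rw [← h1]
  rw [h3]
  linear_combination (-2) * h2

lemma sum_pa (p : Fin (m+1) → ℝ) : ∑ k, p k * abar p k = (∑ k, posW p k ^ 2) / totW p := by
  rw [Finset.sum_div]
  refine Finset.sum_congr rfl fun k _ => ?_
  have h1 := p_eq p k
  have h2 := pos_mul_neg p k
  simp only [abar]
  rw [← mul_div_assoc]
  congr 1
  have h3 : p k * posW p k = (posW p k - negW p k) * posW p k := by rw [← h1]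
  rw [h3]
  linear_combination (-1) * h2

lemma sum_aa (p : Fin (m+1) → ℝ) :
    ∑ k, abar p k * abar p k = (∑ k, posW p k ^ 2) / totW p ^ 2 := by
  rw [Finset.sum_div]
  refine Finset.sum_congr rfl fun k _ => ?_
  simp only [abar]
  ring

lemma sum_p (p : Fin (m+1) → ℝ) : ∑ k, p k = totW p - ∑ k, negW p k := by
  rw [totW, ← Finset.sum_sub_distrib]
  exact Finset.sum_congr rfl fun k _ => p_eq p k

lemma sum_a (p : Fin (m+1) → ℝ) (hb : bary p 0 < 0) : ∑ k, abar p k = 1 := by
  have hw := (totW_pos p hb).ne'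
  simp only [abar]
  rw [← Finset.sum_div]
  exact div_self hw

/-- The determinant of the rank three perturbation. -/
lemma det_one_add_Xm (p : Fin (m+1) → ℝ) (hb : bary p 0 < 0) :
    (1 + Xm p * Ym p).det = ((∑ k, posW p k ^ 2) + 1 + (∑ k, negW p k ^ 2) + bary p 0 ^ 2
      - (∑ k, posW p k ^ 2) * (1 + (∑ k, negW p k ^ 2) + bary p 0 ^ 2) / totW p ^ 2) / ((m:ℝ) + 2) := by
  have hw := (totW_pos p hb).ne'
  have hN : (m:ℝ) + 2 ≠ 0 := by positivity
  rw [Matrix.det_one_add_mul_comm, Matrix.det_fin_three]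
  set X2 := ∑ k, posW p k ^ 2 with hX2
  set Y2 := ∑ k, negW p k ^ 2 with hY2
  set σ := ∑ k, negW p k with hσ
  set w := totW p with hwdef
  have hbar : bary p 0 = 1 - (w - σ) := by
    have : bary p 0 = 1 - ∑ k, p k := rfl
    rw [this, sum_p]
  have e1 := sum_pp p
  have e2 := sum_pa p
  have e3 := sum_aa p
  have e4 := sum_p p
  have e5 := sum_a p hb
  rw [← hX2, ← hY2] at e1
  rw [← hX2, ← hwdef] at e2
  rw [← hX2, ← hwdef] at e3
  rw [← hσ, ← hwdef] at e4
  -- the sums with the centroid direction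
  have e6 : ∑ k, p k * dvec p k = (w - σ) + (X2 + Y2) - X2 / w := by
    have : ∀ k, p k * dvec p k = p k + p k * p k - p k * abar p k := by
      intro k; simp only [dvec]; ring
    simp_rw [this]
    rw [Finset.sum_sub_distrib, Finset.sum_add_distrib, e1, e2, e4]
  have e7 : ∑ k, abar p k * dvec p k = 1 + X2 / w - X2 / w ^ 2 := by
    have : ∀ k, abar p k * dvec p k = abar p k + p k * abar p k - abar p k * abar p k := by
      intro k; simp only [dvec]; ring
    simp_rw [this]
    rw [Finset.sum_sub_distrib, Finset.sum_add_distrib, e2, e3, e5]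
  have e8 : ∑ k, dvec p k * dvec p k
      = ((m:ℝ) + 1) + (X2 + Y2) + X2 / w ^ 2 + 2 * (w - σ) - 2 - 2 * (X2 / w) := by
    have : ∀ k, dvec p k * dvec p k = 1 + p k * p k + abar p k * abar p k + 2 * p k - 2 * abar p k
        - 2 * (p k * abar p k) := by
      intro k; simp only [dvec]; ring
    simp_rw [this]
    rw [Finset.sum_sub_distrib, Finset.sum_sub_distrib, Finset.sum_add_distrib,
      Finset.sum_add_distrib, Finset.sum_add_distrib, ← Finset.mul_sum, ← Finset.mul_sum,
      ← Finset.mul_sum, e1, e2, e3, e4, e5]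
    simp
  have hG : ∀ (r s : Fin 3), ((1 : Matrix (Fin 3) (Fin 3) ℝ) + Ym p * Xm p) r s = (if r = s then 1 else 0)
      + ∑ k, ![p k, -abar p k, -(dvec p k / ((m:ℝ) + 2))] r * ![p k, abar p k, dvec p k] s := by
    intro r s
    simp only [Matrix.add_apply, Matrix.one_apply, Matrix.mul_apply, Xm, Ym, Matrix.of_apply]
  simp only [hG]
  simp only [Matrix.cons_val_zero, Matrix.cons_val_one, Matrix.cons_val]
  have n12 : ¬ ((1 : Fin 3) = 2) := by decide
  have n21 : ¬ ((2 : Fin 3) = 1) := by decide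
  have n02 : ¬ ((0 : Fin 3) = 2) := by decide
  have n20 : ¬ ((2 : Fin 3) = 0) := by decide
  simp only [Fin.isValue, if_true, zero_ne_one, one_ne_zero, if_false, n12, n21, n02, n20]
  have s1 : ∑ k, -abar p k * abar p k = -(X2 / w ^ 2) := by
    simp only [neg_mul, Finset.sum_neg_distrib, e3]
  have s2 : ∑ k, -abar p k * dvec p k = -(1 + X2 / w - X2 / w ^ 2) := by
    simp only [neg_mul, Finset.sum_neg_distrib, e7]
  have s3 : ∑ k, -(dvec p k / ((m:ℝ) + 2)) * dvec p k
      = -((((m:ℝ) + 1) + (X2 + Y2) + X2 / w ^ 2 + 2 * (w - σ) - 2 - 2 * (X2 / w)) / ((m:ℝ) + 2)) := by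
    rw [← e8, Finset.sum_div, ← Finset.sum_neg_distrib]
    exact Finset.sum_congr rfl fun k _ => by ring
  have s4 : ∑ k, -abar p k * p k = -(X2 / w) := by
    rw [← e2, ← Finset.sum_neg_distrib]
    exact Finset.sum_congr rfl fun k _ => by ring
  have s5 : ∑ k, -(dvec p k / ((m:ℝ) + 2)) * abar p k
      = -((1 + X2 / w - X2 / w ^ 2) / ((m:ℝ) + 2)) := by
    rw [← e7, Finset.sum_div, ← Finset.sum_neg_distrib]
    exact Finset.sum_congr rfl fun k _ => by ring
  have s6 : ∑ k, -(dvec p k / ((m:ℝ) + 2)) * p k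
      = -((w - σ + (X2 + Y2) - X2 / w) / ((m:ℝ) + 2)) := by
    rw [← e6, Finset.sum_div, ← Finset.sum_neg_distrib]
    exact Finset.sum_congr rfl fun k _ => by ring
  rw [s1, s2, s3, s4, s5, s6, e1, e2, e6, hbar]
  field_simp
  ring

end Vale.Agent.Lib.P254
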