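import Mathlib
import Vale.Agent.Lib.P254.Vertices3

/-! The exact formula for convex hulls of a simplex and one further point. -/

open MeasureTheory Set

namespace Vale.Agent.Lib.P254

variable {m : ℕ}

/-- The factor of the simplex. -/
noncomputable def X0 (m : ℕ) : Matrix (Fin (m+1)) (Fin 1) ℝ := Matrix.of fun _ _ => 1

/-- The factor of the simplex. -/
noncomputable def Y0 (m : ℕ) : Matrix (Fin 1) (Fin (m+1)) ℝ := Matrix.of fun _ _ => -(1 / ((m:ℝ) + 2))

lemma covMat_stdS_eq (m : ℕ) :
    covMat (stdS (m+1)) = (1 / (((m:ℝ) + 2) * ((m:ℝ) + 3))) • (1 + X0 m * Y0 m) := by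
  ext i j
  have hN : (m:ℝ) + 2 ≠ 0 := by positivity
  have hN1 : (m:ℝ) + 3 ≠ 0 := by positivity
  rw [covMat_stdS]
  simp only [Matrix.smul_apply, Matrix.add_apply, Matrix.one_apply, Matrix.mul_apply, X0, Y0,
    Matrix.of_apply, smul_eq_mul, Fin.sum_univ_one]
  by_cases h : i = j
  · simp only [if_pos h]
    field_simp
    ring
  · simp only [if_neg h]
    field_simp
    ring

lemma det_one_add_X0 (m : ℕ) : (1 + X0 m * Y0 m).det = 1 / ((m:ℝ) + 2) := by
  have hN : (m:ℝ) + 2 ≠ 0 := by positivity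
  rw [Matrix.det_one_add_mul_comm, Matrix.det_fin_one]
  simp only [Matrix.add_apply, Matrix.one_apply, Matrix.mul_apply, X0, Y0, Matrix.of_apply, if_true]
  simp only [mul_one, Finset.sum_const, Finset.card_univ, Fintype.card_fin, nsmul_eq_mul]
  push_cast
  field_simp
  ring

/-- The first symmetric function. -/
noncomputable def Aval (p : Fin (m+1) → ℝ) : ℝ := (∑ k, posW p k ^ 2) / totW p ^ 2

/-- The second symmetric function. -/
noncomputable def Bval (p : Fin (m+1) → ℝ) : ℝ :=
  (1 + (∑ k, negW p k ^ 2) + bary p 0 ^ 2) / totW p ^ 2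

/-- The exact formula for the determinant ratio. -/
theorem ratio_hullP (p : Fin (m+1) → ℝ) (hb : bary p 0 < 0) :
    (covMat (hullP p)).det / vol (hullP p) ^ 2
      = (covMat (stdS (m+1))).det / vol (stdS (m+1)) ^ 2 * (Aval p + Bval p - Aval p * Bval p) := by
  have hw := (totW_pos p hb).ne'
  have hV := (volS_pos (m+1)).ne'
  have hN : (m:ℝ) + 2 ≠ 0 := by positivity
  rw [covMat_hullP p hb, covMat_stdS_eq, Matrix.det_smul, Matrix.det_smul, det_one_add_Xm p hb,
    det_one_add_X0, vol_hullP p hb, vol_stdS, Aval, Bval]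
  field_simp
  ring

lemma sum_sq_le_sq_sum {ι : Type*} [Fintype ι] (a : ι → ℝ) (ha : ∀ i, 0 ≤ a i) :
    ∑ i, a i ^ 2 ≤ (∑ i, a i) ^ 2 := by
  have hle : ∀ i, a i ≤ ∑ j, a j := fun i =>
    Finset.single_le_sum (f := a) (fun j _ => ha j) (Finset.mem_univ i)
  calc ∑ i, a i ^ 2 ≤ ∑ i, a i * ∑ j, a j :=
        Finset.sum_le_sum fun i _ => by
          rw [sq]; exact mul_le_mul_of_nonneg_left (hle i) (ha i)
    _ = (∑ i, a i) ^ 2 := by rw [← Finset.sum_mul]; ring

lemma Aval_le_one (p : Fin (m+1) → ℝ) (hb : bary p 0 < 0) : Aval p ≤ 1 := by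
  have hw := totW_pos p hb
  rw [Aval, div_le_one (by positivity)]
  exact sum_sq_le_sq_sum _ (posW_nonneg p)

lemma Aval_nonneg (p : Fin (m+1) → ℝ) : 0 ≤ Aval p := by
  rw [Aval]
  exact div_nonneg (Finset.sum_nonneg fun k _ => sq_nonneg _) (sq_nonneg _)

lemma Bval_lt_one (p : Fin (m+1) → ℝ) (hb : bary p 0 < 0) : Bval p < 1 := by
  have hw := totW_pos p hb
  rw [Bval, div_lt_one (by positivity)]
  have h1 : bary p 0 = 1 - (totW p - ∑ k, negW p k) := by
    have : bary p 0 = 1 - ∑ k, p k := rfl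
    rw [this, sum_p]
  have h2 := sum_sq_le_sq_sum _ (negW_nonneg p)
  set σ := ∑ k, negW p k with hσ
  have hσ0 : 0 ≤ σ := Finset.sum_nonneg fun k _ => negW_nonneg p k
  have ht : totW p = 1 + σ - bary p 0 := by linarith
  rw [ht]
  nlinarith [mul_nonneg hσ0 (neg_nonneg.2 hb.le), sq_nonneg σ]

/-- The formula factor is at most one. -/
lemma factor_le_one (p : Fin (m+1) → ℝ) (hb : bary p 0 < 0) :
    Aval p + Bval p - Aval p * Bval p ≤ 1 := by
  have h1 := Aval_le_one p hb
  have h2 := Bval_lt_one p hb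
  nlinarith

lemma factor_eq_one (p : Fin (m+1) → ℝ) (hb : bary p 0 < 0)
    (h : Aval p + Bval p - Aval p * Bval p = 1) : Aval p = 1 := by
  have h2 := Bval_lt_one p hb
  have : (1 - Aval p) * (1 - Bval p) = 0 := by linarith
  rcases mul_eq_zero.1 this with h3 | h3
  · linarith
  · linarith

/-- If the first symmetric function is one, only one coordinate of `p` is positive. -/
lemma unique_pos (p : Fin (m+1) → ℝ) (hb : bary p 0 < 0) (h : Aval p = 1) {i j : Fin (m+1)}
    (hi : 0 < p i) (hj : 0 < p j) : i = j := by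
  by_contra hij
  have hw := totW_pos p hb
  rw [Aval, div_eq_one_iff_eq (by positivity)] at h
  have hpi : 0 < posW p i := lt_max_of_lt_left hi
  have hpj : 0 < posW p j := lt_max_of_lt_left hj
  have hlt : posW p i < totW p := by
    have h1 : ∑ k ∈ ({i, j} : Finset (Fin (m+1))), posW p k ≤ totW p :=
      Finset.sum_le_univ_sum_of_nonneg (posW_nonneg p)
    rw [Finset.sum_pair hij] at h1
    linarith
  have : ∑ k, posW p k ^ 2 < ∑ k, posW p k * totW p := by
    refine Finset.sum_lt_sum (fun k _ => ?_) ⟨i, Finset.mem_univ i, ?_⟩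
    · rw [sq]
      refine mul_le_mul_of_nonneg_left ?_ (posW_nonneg p k)
      exact Finset.single_le_sum (f := posW p) (fun l _ => posW_nonneg p l) (Finset.mem_univ k)
    · rw [sq]
      exact mul_lt_mul_of_pos_left hlt hpi
  rw [← Finset.sum_mul, h] at this
  have e : (∑ k, posW p k) * totW p = totW p ^ 2 := by rw [sq]; rfl
  rw [e] at this
  exact lt_irrefl _ this

/-- The hull with one positive coordinate is a simplex. -/
lemma isSimplex_hullP (p : Fin (m+1) → ℝ) (hb : bary p 0 < 0) (h : Aval p = 1) :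
    IsSimplex (hullP p) := by
  have hsum : 1 < ∑ k, p k := by
    have : bary p 0 = 1 - ∑ k, p k := rfl
    linarith
  have hex : ∃ k, 0 < p k := by
    by_contra hno
    push Not at hno
    have : ∑ k, p k ≤ 0 := Finset.sum_nonpos fun k _ => hno k
    linarith
  obtain ⟨i, hi⟩ := hex
  have e : hullP p = aff (colU p i) 0 '' stdS (m+1) := by
    rw [hullP_eq_iUnion p hb]
    apply Subset.antisymm
    · refine iUnion_subset fun j => ?_
      by_cases hj : 0 < p j
      · have := unique_pos p hb h hi hj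
        subst this
        unfold piece
        rw [if_pos hj]
      · unfold piece
        rw [if_neg hj]
        exact empty_subset _
    · intro x hx
      refine mem_iUnion.2 ⟨i, ?_⟩
      unfold piece
      rw [if_pos hi]
      exact hx
  rw [e]
  exact isSimplex_image (by rw [colU_det]; exact hi.ne') 0

end Vale.Agent.Lib.P254
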