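import Mathlib
import Vale.Agent.Lib.P254.Vertices4

/-! Polytopes with `n + 2` vertices in general position: the exact formula. -/

open MeasureTheory Set

namespace Vale.Agent.Lib.P254

variable {n : ℕ}

/-- Affinely independent vertices as an affine image of the standard vertices. -/
lemma simplex_param {v : Fin (n+1) → (Fin n → ℝ)} (hv : AffineIndependent ℝ v) :
    ∃ (U : Matrix (Fin n) (Fin n) ℝ) (w : Fin n → ℝ), U.det ≠ 0 ∧ aff U w ∘ vStd n = v := by
  set U : Matrix (Fin n) (Fin n) ℝ := Matrix.of fun j l => v l.succ j - v 0 j with hUdef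
  have hcomp : aff U (v 0) ∘ vStd n = v := by
    funext i
    funext j
    simp only [Function.comp, aff_apply, hUdef, Matrix.of_apply, vStd]
    induction i using Fin.cases with
    | zero => simp [(Fin.succ_ne_zero _).symm]
    | succ k => simp [Fin.succ_inj]
  refine ⟨U, v 0, ?_, hcomp⟩
  intro hdet
  obtain ⟨x, hx0, hx⟩ := Matrix.exists_mulVec_eq_zero_iff.2 hdet
  rw [affineIndependent_iff] at hv
  have h := hv Finset.univ (Fin.cons (-∑ i, x i) x) (by
    rw [Fin.sum_univ_succ]; simp) (by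
    funext j
    have h1 := congrFun hx j
    simp only [Matrix.mulVec, dotProduct, hUdef, Matrix.of_apply, Pi.zero_apply] at h1
    simp only [Finset.sum_apply, Pi.smul_apply, smul_eq_mul, Pi.zero_apply]
    rw [Fin.sum_univ_succ]
    simp only [Fin.cons_zero, Fin.cons_succ]
    rw [← h1, neg_mul, Finset.sum_mul, neg_add_eq_sub, ← Finset.sum_sub_distrib]
    exact Finset.sum_congr rfl fun l _ => by ring)
  apply hx0
  funext i
  have := h i.succ (Finset.mem_univ _)
  simpa using this

lemma aff_sum {ι : Type*} [Fintype ι] (U : Matrix (Fin n) (Fin n) ℝ) (w : Fin n → ℝ)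
    (l : ι → ℝ) (hl : ∑ i, l i = 1) (u : ι → Fin n → ℝ) :
    aff U w (∑ i, l i • u i) = ∑ i, l i • aff U w (u i) := by
  simp only [aff, smul_add, Finset.sum_add_distrib, ← Finset.sum_smul, hl, one_smul]
  rw [Matrix.mulVec_sum]
  simp only [Matrix.mulVec_smul]

/-- The point with prescribed barycentric coordinates. -/
def ptOf {m : ℕ} (b : Fin (m+2) → ℝ) : Fin (m+1) → ℝ := fun k => b k.succ

lemma bary_ptOf {m : ℕ} (b : Fin (m+2) → ℝ) (hb : ∑ i, b i = 1) (l : Fin (m+2)) :
    bary (ptOf b) l = b l := by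
  induction l using Fin.cases with
  | zero =>
    rw [Fin.sum_univ_succ] at hb
    simp only [bary_zero, ptOf]
    linarith
  | succ k => rfl

lemma hull_image {m : ℕ} (U : Matrix (Fin (m+1)) (Fin (m+1)) ℝ) (w : Fin (m+1) → ℝ)
    (q : Fin (m+1) → ℝ) :
    aff U w '' hullP q = convexHull ℝ (insert (aff U w q) (range (aff U w ∘ vStd (m+1)))) := by
  rw [hullP, ← coe_affA, AffineMap.image_convexHull, image_insert_eq, range_comp]

/-- The main formula when one barycentric coordinate is negative. -/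
theorem hull_formula_neg {m : ℕ} (v : Fin (m+2) → (Fin (m+1) → ℝ)) (hv : AffineIndependent ℝ v)
    (b : Fin (m+2) → ℝ) (hb : ∑ i, b i = 1) (h0 : b 0 < 0) :
    vol (convexHull ℝ (insert (∑ i, b i • v i) (range v)))
        = (∑ i, max (b i) 0) * vol (convexHull ℝ (range v)) ∧
      (covMat (convexHull ℝ (insert (∑ i, b i • v i) (range v)))).det /
          vol (convexHull ℝ (insert (∑ i, b i • v i) (range v))) ^ 2
        = (covMat (convexHull ℝ (range v))).det / vol (convexHull ℝ (range v)) ^ 2 *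
          ((∑ i, (max (b i) 0) ^ 2) / (∑ i, max (b i) 0) ^ 2
            + (1 + ∑ i, (max (-(b i)) 0) ^ 2) / (∑ i, max (b i) 0) ^ 2
            - (∑ i, (max (b i) 0) ^ 2) / (∑ i, max (b i) 0) ^ 2
              * ((1 + ∑ i, (max (-(b i)) 0) ^ 2) / (∑ i, max (b i) 0) ^ 2)) ∧
      (covMat (convexHull ℝ (insert (∑ i, b i • v i) (range v)))).det /
          vol (convexHull ℝ (insert (∑ i, b i • v i) (range v))) ^ 2
        ≤ (covMat (convexHull ℝ (range v))).det / vol (convexHull ℝ (range v)) ^ 2 ∧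
      ((covMat (convexHull ℝ (insert (∑ i, b i • v i) (range v)))).det /
          vol (convexHull ℝ (insert (∑ i, b i • v i) (range v))) ^ 2
        = (covMat (convexHull ℝ (range v))).det / vol (convexHull ℝ (range v)) ^ 2 →
        IsSimplex (convexHull ℝ (insert (∑ i, b i • v i) (range v)))) := by
  obtain ⟨U, w, hU, hcomp⟩ := simplex_param hv
  set q := ptOf b with hq
  have hbq : ∀ l, bary q l = b l := bary_ptOf b hb
  have hb0 : bary q 0 < 0 := by rw [hbq]; exact h0
  have hp : ∑ i, b i • v i = aff U w q := by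
    have h1 : q = ∑ i, b i • vStd (m+1) i := by
      conv_lhs => rw [eq_sum_bary q]
      simp only [hbq]
    rw [h1, aff_sum U w b hb, ← hcomp]
    rfl
  have hP : convexHull ℝ (insert (∑ i, b i • v i) (range v)) = aff U w '' hullP q := by
    rw [hull_image, hcomp, hp]
  have hT : convexHull ℝ (range v) = aff U w '' stdS (m+1) := by
    rw [image_stdS_hull, hcomp]
  have hVq := vol_hullP_ne q hb0
  have hV0 := vol_stdS_ne (m+1)
  rw [hP, hT, ratio_aff_image hU w (hullP_isCompact q) hVq,
    ratio_aff_image hU w (stdS_isCompact _) hV0, vol_aff_image hU w (hullP_isCompact q).measurableSet,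
    vol_aff_image hU w (stdS_measurable _)]
  have hsum1 : ∑ i, max (b i) 0 = totW q := by
    rw [Fin.sum_univ_succ, max_eq_right h0.le, zero_add]
    rfl
  have hsum2 : ∑ i, (max (b i) 0) ^ 2 = ∑ k, posW q k ^ 2 := by
    rw [Fin.sum_univ_succ, max_eq_right h0.le]
    simp only [ne_eq, OfNat.ofNat_ne_zero, not_false_eq_true, zero_pow, zero_add]
    rfl
  have hsum3 : 1 + ∑ i, (max (-(b i)) 0) ^ 2 = 1 + (∑ k, negW q k ^ 2) + bary q 0 ^ 2 := by
    rw [Fin.sum_univ_succ, max_eq_left (by linarith : 0 ≤ -(b 0)), hbq]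
    have : ∑ i : Fin (m+1), max (-(b i.succ)) 0 ^ 2 = ∑ k, negW q k ^ 2 := rfl
    rw [this]
    ring
  rw [hsum1, hsum2, hsum3]
  have hA : (∑ k, posW q k ^ 2) / totW q ^ 2 = Aval q := rfl
  have hB : (1 + (∑ k, negW q k ^ 2) + bary q 0 ^ 2) / totW q ^ 2 = Bval q := rfl
  rw [hA, hB]
  have hr := ratio_hullP q hb0
  have hrpos : 0 ≤ (covMat (stdS (m+1))).det / vol (stdS (m+1)) ^ 2 :=
    div_nonneg (covMat_posSemidef (stdS_isCompact _)).det_nonneg (by positivity)
  refine ⟨?_, hr, ?_, ?_⟩
  · rw [vol_hullP q hb0, vol_stdS]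
    ring
  · rw [hr]
    exact mul_le_of_le_one_right hrpos (factor_le_one q hb0)
  · intro h
    rw [hr] at h
    have hdet : (covMat (stdS (m+1))).det / vol (stdS (m+1)) ^ 2 ≠ 0 := by
      intro h3
      have hcov := (covMat_stdS_eq m)
      rw [hcov, Matrix.det_smul, det_one_add_X0] at h3
      have hV := hV0
      have hN : (m:ℝ) + 2 ≠ 0 := by positivity
      have hN1 : (m:ℝ) + 3 ≠ 0 := by positivity
      have : ((1:ℝ) / (((m:ℝ) + 2) * ((m:ℝ) + 3))) ^ Fintype.card (Fin (m+1)) * (1 / ((m:ℝ) + 2)) / vol (stdS (m+1)) ^ 2 ≠ 0 := by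
        positivity
      exact this h3
    have h2 : Aval q + Bval q - Aval q * Bval q = 1 :=
      mul_left_cancel₀ hdet (by rw [h, mul_one])
    exact isSimplex_image hU w |> fun _ => by
      obtain ⟨u, hu, he⟩ := isSimplex_hullP q hb0 (factor_eq_one q hb0 h2)
      obtain ⟨U', w', hU', he'⟩ := simplex_eq_image ⟨u, hu, he⟩
      rw [he', image_image]
      have : (fun x => aff U w (aff U' w' x)) = aff (U * U') (U.mulVec w' + w) := by
        funext x; exact aff_comp U U' w w' x
      rw [this]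
      exact isSimplex_image (by rw [Matrix.det_mul]; exact mul_ne_zero hU hU') _

end Vale.Agent.Lib.P254
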