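import Mathlib
import Vale.Agent.Lib.P254.Vertices5

/-! Polytopes with `n + 2` vertices: the final form. -/

open MeasureTheory Set

namespace Vale.Agent.Lib.P254

variable {n : ℕ}

/-- The formula of the theorem, for any barycentric weights. -/
theorem hull_formula {m : ℕ} (v : Fin (m+2) → (Fin (m+1) → ℝ)) (hv : AffineIndependent ℝ v)
    (b : Fin (m+2) → ℝ) (hb : ∑ i, b i = 1) :
    vol (convexHull ℝ (insert (∑ i, b i • v i) (range v)))
        = (∑ i, max (b i) 0) * vol (convexHull ℝ (range v)) ∧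
      (covMat (convexHull ℝ (insert (∑ i, b i • v i) (range v)))).det /
          vol (convexHull ℝ (insert (∑ i, b i • v i) (range v))) ^ 2
        = (covMat (convexHull ℝ (range v))).det / vol (convexHull ℝ (range v)) ^ 2 *
          ((∑ i, (max (b i) 0) ^ 2) / (∑ i, max (b i) 0) ^ 2
            + (1 + ∑ i, (max (-(b i)) 0) ^ 2) / (∑ i, max (b i) 0) ^ 2
            - (∑ i, (max (b i) 0) ^ 2) / (∑ i, max (b i) 0) ^ 2
              * ((1 + ∑ i, (max (-(b i)) 0) ^ 2) / (∑ i, max (b i) 0) ^ 2)) ∧
      (covMat (convexHull ℝ (insert (∑ i, b i • v i) (range v)))).det /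
          vol (convexHull ℝ (insert (∑ i, b i • v i) (range v))) ^ 2
        ≤ (covMat (convexHull ℝ (range v))).det / vol (convexHull ℝ (range v)) ^ 2 ∧
      ((covMat (convexHull ℝ (insert (∑ i, b i • v i) (range v)))).det /
          vol (convexHull ℝ (insert (∑ i, b i • v i) (range v))) ^ 2
        = (covMat (convexHull ℝ (range v))).det / vol (convexHull ℝ (range v)) ^ 2 →
        IsSimplex (convexHull ℝ (insert (∑ i, b i • v i) (range v)))) := by
  by_cases hneg : ∃ j, b j < 0
  · obtain ⟨j, hj⟩ := hneg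
    set σ : Equiv.Perm (Fin (m+2)) := Equiv.swap 0 j with hσ
    have hv' : AffineIndependent ℝ (v ∘ σ) := hv.comp_embedding σ.toEmbedding
    have hb' : ∑ i, (b ∘ σ) i = 1 := by
      rw [← hb]
      exact Equiv.sum_comp σ b
    have h0 : (b ∘ σ) 0 < 0 := by
      simp only [Function.comp, hσ, Equiv.swap_apply_left]
      exact hj
    have h := hull_formula_neg (v ∘ σ) hv' (b ∘ σ) hb' h0
    have e1 : ∑ i, (b ∘ σ) i • (v ∘ σ) i = ∑ i, b i • v i :=
      Equiv.sum_comp σ (fun i => b i • v i)
    have e2 : range (v ∘ σ) = range v := σ.surjective.range_comp v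
    have e3 : ∑ i, max ((b ∘ σ) i) 0 = ∑ i, max (b i) 0 :=
      Equiv.sum_comp σ (fun i => max (b i) 0)
    have e4 : ∑ i, (max ((b ∘ σ) i) 0) ^ 2 = ∑ i, (max (b i) 0) ^ 2 :=
      Equiv.sum_comp σ (fun i => (max (b i) 0) ^ 2)
    have e5 : ∑ i, (max (-((b ∘ σ) i)) 0) ^ 2 = ∑ i, (max (-(b i)) 0) ^ 2 :=
      Equiv.sum_comp σ (fun i => (max (-(b i)) 0) ^ 2)
    rw [e1, e2, e3, e4, e5] at h
    exact h
  · push Not at hneg
    have hmem : ∑ i, b i • v i ∈ convexHull ℝ (range v) :=
      (convex_convexHull ℝ _).sum_mem (fun i _ => hneg i) hb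
        (fun i _ => subset_convexHull ℝ _ (mem_range_self i))
    have hP : convexHull ℝ (insert (∑ i, b i • v i) (range v)) = convexHull ℝ (range v) := by
      apply Subset.antisymm
      · apply convexHull_min _ (convex_convexHull ℝ _)
        rintro x (rfl | hx)
        · exact hmem
        · exact subset_convexHull ℝ _ hx
      · exact convexHull_mono (subset_insert _ _)
    have hw : ∑ i, max (b i) 0 = 1 := by
      rw [← hb]
      exact Finset.sum_congr rfl fun i _ => max_eq_left (hneg i)
    have hB : ∑ i, (max (-(b i)) 0) ^ 2 = 0 := by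
      apply Finset.sum_eq_zero
      intro i _
      rw [max_eq_right (by linarith [hneg i])]
      norm_num
    rw [hP, hw, hB]
    refine ⟨by ring, ?_, le_rfl, fun _ => ⟨v, hv, rfl⟩⟩
    simp

/-- The exact formula for polytopes with `n + 2` vertices, and the strong conjecture for them. -/
theorem vertices_main {n : ℕ} (hn : 1 ≤ n) (v : Fin (n+1) → (Fin n → ℝ))
    (hv : AffineIndependent ℝ v) (b : Fin (n+1) → ℝ) (hb : ∑ i, b i = 1) :
    vol (convexHull ℝ (insert (∑ i, b i • v i) (range v)))
        = (∑ i, max (b i) 0) * vol (convexHull ℝ (range v)) ∧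
      (covMat (convexHull ℝ (insert (∑ i, b i • v i) (range v)))).det /
          vol (convexHull ℝ (insert (∑ i, b i • v i) (range v))) ^ 2
        = (covMat (convexHull ℝ (range v))).det / vol (convexHull ℝ (range v)) ^ 2 *
          ((∑ i, (max (b i) 0) ^ 2) / (∑ i, max (b i) 0) ^ 2
            + (1 + ∑ i, (max (-(b i)) 0) ^ 2) / (∑ i, max (b i) 0) ^ 2
            - (∑ i, (max (b i) 0) ^ 2) / (∑ i, max (b i) 0) ^ 2
              * ((1 + ∑ i, (max (-(b i)) 0) ^ 2) / (∑ i, max (b i) 0) ^ 2)) ∧
      isoConst (convexHull ℝ (insert (∑ i, b i • v i) (range v))) ≤ isoConst (convexHull ℝ (range v)) ∧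
      (isoConst (convexHull ℝ (insert (∑ i, b i • v i) (range v))) = isoConst (convexHull ℝ (range v)) →
        IsSimplex (convexHull ℝ (insert (∑ i, b i • v i) (range v)))) := by
  obtain ⟨m, rfl⟩ : ∃ m, n = m + 1 := ⟨n - 1, by omega⟩
  obtain ⟨h1, h2, h3, h4⟩ := hull_formula v hv b hb
  refine ⟨h1, h2, ?_, ?_⟩
  · have hP : IsCompact (convexHull ℝ (insert (∑ i, b i • v i) (range v))) :=
      Set.Finite.isCompact_convexHull ℝ ((finite_range _).insert _)
    have hr : 0 ≤ (covMat (convexHull ℝ (insert (∑ i, b i • v i) (range v)))).det /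
          vol (convexHull ℝ (insert (∑ i, b i • v i) (range v))) ^ 2 :=
      div_nonneg (covMat_posSemidef hP).det_nonneg (by positivity)
    exact Real.rpow_le_rpow hr h3 (by positivity)
  · intro h
    have hP : IsCompact (convexHull ℝ (insert (∑ i, b i • v i) (range v))) :=
      Set.Finite.isCompact_convexHull ℝ ((finite_range _).insert _)
    have hT : IsCompact (convexHull ℝ (range v)) :=
      Set.Finite.isCompact_convexHull ℝ (finite_range _)
    have hr : 0 ≤ (covMat (convexHull ℝ (insert (∑ i, b i • v i) (range v)))).det /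
          vol (convexHull ℝ (insert (∑ i, b i • v i) (range v))) ^ 2 :=
      div_nonneg (covMat_posSemidef hP).det_nonneg (by positivity)
    have hr2 : 0 ≤ (covMat (convexHull ℝ (range v))).det / vol (convexHull ℝ (range v)) ^ 2 :=
      div_nonneg (covMat_posSemidef hT).det_nonneg (by positivity)
    have hexp : (1:ℝ) / (2 * (((m+1 : ℕ) : ℝ))) ≠ 0 := by
      have : (0:ℝ) < (((m+1 : ℕ) : ℝ)) := by positivity
      positivity
    exact h4 ((Real.rpow_left_inj hr hr2 hexp).1 h)

end Vale.Agent.Lib.P254
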