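import Mathlib
import Vale.Agent.Lib.P254.Vertices6

/-! Convex hulls of `n + 2` points. -/

open MeasureTheory Set

namespace Vale.Agent.Lib.P254

/-- The strong conjecture for convex hulls of `n + 2` points. -/
theorem hull_n_plus_two {n : ℕ} (hn : 1 ≤ n) (u : Fin (n+2) → (Fin n → ℝ))
    (hint : (interior (convexHull ℝ (range u))).Nonempty) {T : Set (Fin n → ℝ)} (hT : IsSimplex T) :
    isoConst (convexHull ℝ (range u)) ≤ isoConst T ∧
      (isoConst (convexHull ℝ (range u)) = isoConst T → IsSimplex (convexHull ℝ (range u))) := by
  classical
  have htop : affineSpan ℝ (range u) = ⊤ := interior_convexHull_nonempty_iff_affineSpan_eq_top.1 hint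
  obtain ⟨t, hts, hspan, hind⟩ := exists_affineIndependent ℝ (Fin n → ℝ) (range u)
  have htfin : t.Finite := (finite_range u).subset hts
  have : Fintype t := htfin.fintype
  have hcard : Fintype.card t = n + 1 := by
    have h1 := hind.affineSpan_eq_top_iff_card_eq_finrank_add_one
    rw [Subtype.range_coe, hspan] at h1
    have h2 := h1.1 htop
    simpa using h2
  set e : Fin (n+1) ≃ t := (Fintype.equivFinOfCardEq hcard).symm with he
  set v : Fin (n+1) → (Fin n → ℝ) := fun i => (e i : Fin n → ℝ) with hv
  have hvind : AffineIndependent ℝ v := hind.comp_embedding e.toEmbedding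
  have hrange : range v = t := by
    ext x
    constructor
    · rintro ⟨i, rfl⟩
      exact (e i).2
    · intro hx
      refine ⟨e.symm ⟨x, hx⟩, ?_⟩
      simp [hv]
  have hsimp : IsSimplex (convexHull ℝ (range v)) := ⟨v, hvind, rfl⟩
  have hisoT := (isoConst_simplex hsimp).trans (isoConst_simplex hT).symm
  by_cases hall : range u ⊆ t
  · have e1 : convexHull ℝ (range u) = convexHull ℝ (range v) := by
      rw [hrange, Subset.antisymm hall hts]
    rw [e1]
    exact ⟨hisoT.le, fun _ => hsimp⟩
  · obtain ⟨_, ⟨k, rfl⟩, hk⟩ := not_subset.1 hall
    have hrange2 : range u = insert (u k) t := by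
      apply Subset.antisymm
      · rintro _ ⟨l, rfl⟩
        by_cases hl : u l ∈ t
        · exact Or.inr hl
        · by_cases hlk : u l = u k
          · exact Or.inl hlk
          · exfalso
            have hkl : k ≠ l := fun h => hlk (by rw [h])
            set s : Finset (Fin (n+2)) := (Finset.univ.erase k).erase l with hs
            have hscard : s.card = n := by
              rw [hs, Finset.card_erase_of_mem, Finset.card_erase_of_mem (Finset.mem_univ k)]
              · simp
              · simp [hkl.symm]
            have hsub : htfin.toFinset ⊆ s.image u := by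
              intro x hx
              have hx' : x ∈ t := by simpa using hx
              obtain ⟨j, rfl⟩ := hts hx'
              refine Finset.mem_image.2 ⟨j, ?_, rfl⟩
              rw [hs, Finset.mem_erase, Finset.mem_erase]
              refine ⟨fun h => hl (h ▸ hx'), fun h => hk (h ▸ hx'), Finset.mem_univ _⟩
            have h1 := Finset.card_le_card hsub
            have h2 : (s.image u).card ≤ s.card := Finset.card_image_le
            have h3 : htfin.toFinset.card = n + 1 := by
              rw [← hcard]
              simp
            omega
      · rintro x (rfl | hx)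
        · exact mem_range_self k
        · exact hts hx
    have hvtop : affineSpan ℝ (range v) = ⊤ := by rw [hrange, hspan, htop]
    have hmem : u k ∈ affineSpan ℝ (range v) := by rw [hvtop]; trivial
    obtain ⟨b, hb, hbk⟩ := eq_affineCombination_of_mem_affineSpan_of_fintype hmem
    rw [Finset.affineCombination_eq_linear_combination _ _ _ hb] at hbk
    obtain ⟨_, _, h3, h4⟩ := vertices_main hn v hvind b hb
    have e1 : convexHull ℝ (range u) = convexHull ℝ (insert (∑ i, b i • v i) (range v)) := by
      rw [hrange2, hrange, hbk]
    rw [e1]
    rw [hisoT] at h3 h4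
    exact ⟨h3, h4⟩

end Vale.Agent.Lib.P254
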